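import Crest.Agent.R89.Basic

/-! Row 89: consequences of the raw Schwinger-Dyson equations. -/

set_option autoImplicit false

namespace Crest.Agent.R89

open Crest.OpAlg
open scoped Classical

namespace Aff0

lemma sum_even (f : ℕ → ℂ) (k : ℕ) (h : ∀ i < k, f (2 * i + 1) = 0) :
    ∑ i ∈ Finset.range (2 * k + 1), f i = ∑ j ∈ Finset.range (k + 1), f (2 * j) := by
  induction k with
  | zero => simp
  | succ k ih =>
    rw [show 2 * (k + 1) + 1 = 2 * k + 1 + 1 + 1 by ring, Finset.sum_range_succ,
      Finset.sum_range_succ, ih fun i hi => h i (by omega), h k (by omega), add_zero,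
      Finset.sum_range_succ _ (k + 1)]
    rfl

lemma moments (μ : ℕ → ℂ) (h0 : μ 0 = 1)
    (h : ∀ m, μ (m + 1) = ∑ i ∈ Finset.range m, μ i * μ (m - (i + 1))) (k : ℕ) :
    μ (2 * k) = (catalan k : ℂ) ∧ μ (2 * k + 1) = 0 := by
  have odd : ∀ k, μ (2 * k + 1) = 0 := by
    intro k
    induction k using Nat.strong_induction_on with
    | _ k ih =>
      rw [h]
      refine Finset.sum_eq_zero fun i hi => ?_
      have := Finset.mem_range.1 hi
      rcases Nat.even_or_odd' i with ⟨j, rfl | rfl⟩
      · rw [show 2 * k - (2 * j + 1) = 2 * (k - j - 1) + 1 by omega, ih _ (by omega), mul_zero]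
      · rw [ih _ (by omega), zero_mul]
  refine ⟨?_, odd k⟩
  induction k using Nat.strong_induction_on with
  | _ k ih =>
    cases k with
    | zero => simpa using h0
    | succ k =>
      rw [show 2 * (k + 1) = 2 * k + 1 + 1 by ring, h, sum_even _ _ fun i _ => by rw [odd, zero_mul],
        catalan_succ, Nat.cast_sum, Finset.sum_range]
      refine Finset.sum_congr rfl fun j _ => ?_
      have := j.2
      rw [ih _ (by omega), show 2 * k + 1 - (2 * j + 1) = 2 * (k - j) by omega, ih _ (by omega),
        Nat.cast_mul]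

variable {A : Type} [CStarAlgebra A] (sp : Sp A) {κ : Type} (s : κ → A) (k : κ)

/-- `D` records the splittings located inside `a`. -/
def Good (a : A) (D : A →ₗ[ℂ] ℂ) : Prop := ∀ P : List (Γ ⊕ κ), sp.τ (s k * (sp.ev s P * a)) =
  split (Sum.inr k) (fun R => sp.τ (sp.ev s R)) (fun R => sp.τ (sp.ev s R * a)) P + D (sp.ev s P)

/-- affine letters -/
def Aff (b : A) (co : ℂ) : Prop := ∀ a D, Good sp s k a D →
  Good sp s k (b * a) ((co * sp.τ a) • sp.τ + D ∘ₗ LinearMap.mulRight ℂ b)

variable {sp s k}

lemma Aff.add {b b' : A} {co co' : ℂ} (h : Aff sp s k b co) (h' : Aff sp s k b' co') :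
    Aff sp s k (b + b') (co + co') := fun a D hD P => by
  have h1 := h a D hD P
  have h2 := h' a D hD P
  simp only [add_mul, mul_add, map_add, split_add_right, LinearMap.add_apply, LinearMap.smul_apply,
    LinearMap.comp_apply, LinearMap.mulRight_apply, smul_eq_mul] at h1 h2 ⊢
  linear_combination h1 + h2

lemma Aff.smul {b : A} {co : ℂ} (h : Aff sp s k b co) (c : ℂ) :
    Aff sp s k (c • b) (c * co) := fun a D hD P => by
  have h1 := h a D hD P
  simp only [smul_mul_assoc, mul_smul_comm, map_smul, split_smul_right, LinearMap.add_apply,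
    LinearMap.smul_apply, LinearMap.comp_apply, LinearMap.mulRight_apply] at h1 ⊢
  simp only [smul_eq_mul] at h1 ⊢
  linear_combination c * h1

lemma Aff.letter (l : Γ ⊕ κ) :
    Aff sp s k (sp.ev s [l]) (if l = Sum.inr k then 1 else 0) := fun a D hD P => by
  have h1 := hD (P ++ [l])
  simp only [split_append, sp.ev_append, split_cons, split_nil, List.append_nil, mul_assoc,
    Sp.ev_nil, one_mul, add_zero, LinearMap.add_apply, LinearMap.smul_apply, LinearMap.comp_apply,
    LinearMap.mulRight_apply, smul_eq_mul] at h1 ⊢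
  rw [h1, mul_one]
  generalize sp.τ (sp.ev s P) = u
  split_ifs <;> ring

lemma Aff.π (g : Γ) : Aff sp s k (sp.π g) 0 := by simpa using Aff.letter (sp := sp) (s := s) (.inl g)

lemma Aff.var (j : κ) : Aff sp s k (s j) (if j = k then 1 else 0) := by
  simpa using Aff.letter (sp := sp) (s := s) (k := k) (.inr j)

lemma Aff.πA (x : CG) : Aff sp s k (sp.πA x) 0 := by
  induction x using MonoidAlgebra.induction_on with
  | of g => simpa using Aff.π g
  | add x y hx hy => simpa using hx.add hy
  | smul c x hx => simpa using hx.smul c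

lemma key (h : sp.SD s (fun _ => 0) fun _ => 1) {ι : Type} (Y : ι → A) (c : ι) (co : ℂ)
    (hY : ∀ c', Aff sp s k (Y c') (if c' = c then co else 0)) (Q : List (Γ ⊕ ι)) :
    sp.τ (s k * sp.ev Y Q) =
      co * split (Sum.inr c) (fun P => sp.τ (sp.ev Y P)) (fun P => sp.τ (sp.ev Y P)) Q := by
  have main : ∃ D, Good sp s k (sp.ev Y Q) D ∧ ∀ x, D x =
      co * split (Sum.inr c) (fun P => sp.τ (x * sp.ev Y P)) (fun P => sp.τ (sp.ev Y P)) Q := by
    induction Q with
    | nil => exact ⟨0, fun P => by simpa using h k P, by simp⟩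
    | cons l Q ih =>
      obtain ⟨D, h1, h2⟩ := ih
      rcases l with g | c'
      · refine ⟨_, Aff.π g _ _ h1, fun x => ?_⟩
        simp [h2, split_cons, mul_assoc]
      · have := hY c' _ _ h1
        refine ⟨_, this, fun x => ?_⟩
        simp only [LinearMap.add_apply, LinearMap.smul_apply, LinearMap.comp_apply,
          LinearMap.mulRight_apply, h2, split_cons, mul_assoc, Sp.ev_inr, Sum.inr.injEq, Sp.ev_nil,
          mul_one, smul_eq_mul]
        split_ifs <;> ring
  obtain ⟨D, h1, h2⟩ := main
  simpa [h2] using h1 []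

end Aff0

open Aff0 in
theorem affineStmt : AffineStmt := by
  intro A _ sp n s hs h
  refine ⟨⟨fun i => hs _, fun i => moments (fun m => sp.τ (s (.inr i) ^ m)) (by simp [sp.τ_one])
    fun m => ?_⟩, fun ξ σ σ' c Q => ?_⟩
  · have e : ∀ j, sp.ev s (List.replicate j (Sum.inr (Sum.inr i))) = s (.inr i) ^ j := fun j => by
      simp [Sp.ev]
    have := h (.inr i) (List.replicate m (.inr (.inr i)))
    simp only [map_zero, sub_zero, e, split, List.length_replicate, List.take_replicate,
      List.drop_replicate, Complex.ofReal_one, one_mul, smul_eq_mul] at this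
    rw [pow_succ', this]
    refine Finset.sum_congr rfl fun j hj => ?_
    have := Finset.mem_range.1 hj
    rw [if_pos (by simp [this]), min_eq_left this.le]
  · have a := fun k c' => ((Aff.πA (sp := sp) (s := s) (k := k) (ξ c')).add
      ((Aff.var (Sum.inl c')).smul (σ c'))).add ((Aff.var (Sum.inr c')).smul (σ' c'))
    have h1 := key (k := Sum.inl c) h _ c (σ c) (fun c' => by
      convert a (.inl c) c' using 1
      by_cases e : c' = c <;> simp [e]) Q
    have h2 := key (k := Sum.inr c) h _ c (σ' c) (fun c' => by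
      convert a (.inr c) c' using 1
      by_cases e : c' = c <;> simp [e]) Q
    beta_reduce
    rw [add_assoc (sp.πA (ξ c)), add_sub_cancel_left, add_mul, map_add, smul_mul_assoc,
      smul_mul_assoc, map_smul, map_smul, h1, h2]
    push_cast
    simp only [smul_eq_mul]
    ring

end Crest.Agent.R89
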