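import Crest.Agent.R89.Defs

/-! Row 89: elementary facts on splittings, the trace and the 2-norm. -/

set_option autoImplicit false
set_option linter.unusedSectionVars false

namespace Crest.Agent.R89

open Crest.OpAlg
open scoped Classical ComplexOrder

section Split
variable {L M : Type} [AddCommMonoid M] [Module ℂ M]

@[simp] theorem split_nil (c : L) (F : List L → ℂ) (G : List L → M) : split c F G [] = 0 := by
  simp [split]

theorem split_cons (c l : L) (F : List L → ℂ) (G : List L → M) (Q : List L) :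
    split c F G (l :: Q) =
      (if l = c then F [] • G Q else 0) + split c (fun P => F (l :: P)) G Q := by
  simp only [split, List.length_cons, Finset.sum_range_succ']
  rw [add_comm]
  simp

theorem split_congr (c : L) {F F' : List L → ℂ} {G G' : List L → M} (Q : List L)
    (hF : ∀ P, P.length < Q.length → F P = F' P) (hG : ∀ P, P.length < Q.length → G P = G' P) :
    split c F G Q = split c F' G' Q := by
  refine Finset.sum_congr rfl fun i hi => ?_
  have hi' := Finset.mem_range.1 hi
  rw [hF _ (by simp; omega), hG _ (by simp; omega)]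

theorem split_add_left (c : L) (F F' : List L → ℂ) (G : List L → M) (Q : List L) :
    split c (fun P => F P + F' P) G Q = split c F G Q + split c F' G Q := by
  simp only [split, ← Finset.sum_add_distrib]
  refine Finset.sum_congr rfl fun i _ => ?_
  split_ifs <;> simp [add_smul]

theorem split_add_right (c : L) (F : List L → ℂ) (G G' : List L → M) (Q : List L) :
    split c F (fun P => G P + G' P) Q = split c F G Q + split c F G' Q := by
  simp only [split, ← Finset.sum_add_distrib]
  refine Finset.sum_congr rfl fun i _ => ?_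
  split_ifs <;> simp

theorem split_smul_left (c : L) (a : ℂ) (F : List L → ℂ) (G : List L → M) (Q : List L) :
    split c (fun P => a * F P) G Q = a • split c F G Q := by
  simp only [split, Finset.smul_sum]
  refine Finset.sum_congr rfl fun i _ => ?_
  split_ifs <;> simp [mul_smul]

theorem split_smul_right (c : L) (a : ℂ) (F : List L → ℂ) (G : List L → M) (Q : List L) :
    split c F (fun P => a • G P) Q = a • split c F G Q := by
  simp only [split, Finset.smul_sum]
  refine Finset.sum_congr rfl fun i _ => ?_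
  split_ifs
  · rw [smul_comm]
  · simp

@[simp] theorem split_zero_left (c : L) (G : List L → M) (Q : List L) :
    split c (fun _ => 0) G Q = 0 := by simp [split]

@[simp] theorem split_zero_right (c : L) (F : List L → ℂ) (Q : List L) :
    split c F (fun _ => (0 : M)) Q = 0 := by simp [split]

theorem map_split {M' : Type} [AddCommMonoid M'] [Module ℂ M'] (f : M →ₗ[ℂ] M') (c : L)
    (F : List L → ℂ) (G : List L → M) (Q : List L) :
    f (split c F G Q) = split c F (fun P => f (G P)) Q := by
  simp only [split, map_sum]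
  refine Finset.sum_congr rfl fun i _ => ?_
  split_ifs <;> simp

/-- Associativity of the splitting product. -/
theorem split_assoc (c c' : L) (F F' : List L → ℂ) (G : List L → M) (Q : List L) :
    split c' (split c F F') G Q = split c F (split c' F' G) Q := by
  induction Q generalizing F F' with
  | nil => simp
  | cons l Q ih =>
    have h : (fun P => split c F F' (l :: P)) =
        fun P => (if l = c then F [] else 0) * F' P + split c (fun P => F (l :: P)) F' P := by
      funext P; rw [split_cons]; split_ifs <;> simp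
    rw [split_cons, split_cons, h, split_add_left, split_smul_left, ih]
    split_ifs <;> simp

theorem split_append (c : L) (F : List L → ℂ) (G : List L → M) (P Q : List L) :
    split c F G (P ++ Q) =
      split c F (fun R => G (R ++ Q)) P + split c (fun R => F (P ++ R)) G Q := by
  induction P generalizing F with
  | nil => simp
  | cons l P ih => rw [List.cons_append, split_cons, split_cons, ih, add_assoc]; simp

theorem split_of_not_mem (c : L) (F : List L → ℂ) (G : List L → M) {Q : List L} (h : c ∉ Q) :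
    split c F G Q = 0 := by
  refine Finset.sum_eq_zero fun i _ => if_neg fun hi => h (List.mem_of_getElem? hi)

theorem split_map {L' : Type} (f : L → L') (hf : Function.Injective f) (c : L)
    (F : List L' → ℂ) (G : List L' → M) (Q : List L) :
    split (f c) F G (Q.map f) = split c (fun P => F (P.map f)) (fun P => G (P.map f)) Q := by
  induction Q generalizing F with
  | nil => simp
  | cons l Q ih => simp only [List.map_cons, split_cons, ih, hf.eq_iff, List.map_nil]

end Split

namespace Sp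
variable {A : Type} [CStarAlgebra A] (sp : Sp A)

theorem τ_one : sp.τ 1 = 1 := sp.hτ.1
theorem τ_comm (a b : A) : sp.τ (a * b) = sp.τ (b * a) := sp.hτ.2.2.2 a b
theorem re_nonneg (a : A) : 0 ≤ (sp.τ (star a * a)).re := (sp.hτ.2.1 a).2
theorem im_eq_zero (a : A) : (sp.τ (star a * a)).im = 0 := (sp.hτ.2.1 a).1

include sp in
theorem nontrivial : Nontrivial A :=
  ⟨⟨1, 0, fun h1 => by have := sp.τ_one; rw [h1, map_zero] at this; exact zero_ne_one this⟩⟩

section Order
attribute [local instance] CStarAlgebra.spectralOrder CStarAlgebra.spectralOrderedRing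

/-- The trace as a positive linear map. -/
noncomputable def pos : A →ₚ[ℂ] ℂ :=
  PositiveLinearMap.mk₀ sp.τ fun x hx => by
    obtain ⟨y, rfl⟩ := CStarAlgebra.nonneg_iff_eq_star_mul_self.1 hx
    exact ⟨sp.re_nonneg y, (sp.im_eq_zero y).symm⟩

theorem n2_eq (x : A) : sp.n2 x = ‖sp.pos.toPreGNS x‖ := by
  have := sp.pos.preGNS_norm_sq (sp.pos.toPreGNS x)
  have h2 := congrArg Complex.re this
  rw [← Complex.ofReal_pow, Complex.ofReal_re] at h2
  rw [n2, ← Real.sqrt_sq (norm_nonneg (sp.pos.toPreGNS x)), h2]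
  rfl

theorem τ_star (x : A) : sp.τ (star x) = star (sp.τ x) := map_star sp.pos x

theorem n2_nonneg (x : A) : 0 ≤ sp.n2 x := Real.sqrt_nonneg _
theorem n2_sq (x : A) : sp.n2 x ^ 2 = (sp.τ (star x * x)).re := Real.sq_sqrt (sp.re_nonneg x)
theorem τ_star_mul_self (x : A) : sp.τ (star x * x) = ((sp.n2 x ^ 2 : ℝ) : ℂ) := by
  rw [n2_sq]; exact Complex.ext (by simp) (by simp [sp.im_eq_zero])
theorem n2_add_le (x y : A) : sp.n2 (x + y) ≤ sp.n2 x + sp.n2 y := by
  simp only [n2_eq, map_add]; exact norm_add_le _ _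
theorem n2_sub_le (x y : A) : sp.n2 (x - y) ≤ sp.n2 x + sp.n2 y := by
  simp only [n2_eq, map_sub]; exact norm_sub_le _ _
theorem n2_neg (x : A) : sp.n2 (-x) = sp.n2 x := by simp only [n2_eq, map_neg, norm_neg]
theorem n2_smul (c : ℂ) (x : A) : sp.n2 (c • x) = ‖c‖ * sp.n2 x := by
  simp only [n2_eq, map_smul, norm_smul]
theorem n2_add_sq (x y : A) :
    sp.n2 (x + y) ^ 2 = sp.n2 x ^ 2 + 2 * (sp.τ (star x * y)).re + sp.n2 y ^ 2 := by
  simp only [n2_eq, map_add]
  rw [@norm_add_sq ℂ]
  rfl
theorem n2_sub_sq (x y : A) :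
    sp.n2 (x - y) ^ 2 = sp.n2 x ^ 2 - 2 * (sp.τ (star x * y)).re + sp.n2 y ^ 2 := by
  simp only [n2_eq, map_sub]
  rw [@norm_sub_sq ℂ]
  rfl
/-- Cauchy-Schwarz -/
theorem norm_τ_star_mul_le (x y : A) : ‖sp.τ (star x * y)‖ ≤ sp.n2 x * sp.n2 y := by
  rw [n2_eq, n2_eq]
  exact norm_inner_le_norm (𝕜 := ℂ) (sp.pos.toPreGNS x) (sp.pos.toPreGNS y)
theorem n2_mul_le_left (a x : A) : sp.n2 (a * x) ≤ ‖a‖ * sp.n2 x := by
  rw [← sq_le_sq₀ (sp.n2_nonneg _) (mul_nonneg (norm_nonneg _) (sp.n2_nonneg _)), mul_pow, n2_sq,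
    n2_sq]
  have h : star (a * x) * (a * x) ≤ (‖a‖ ^ 2 : ℝ) • (star x * x) := by
    rw [star_mul, ← mul_assoc, mul_assoc _ (star a), sq, ← CStarRing.norm_star_mul_self (x := a)]
    exact CStarAlgebra.star_left_conjugate_le_norm_smul
  have h2 := (sp.pos.map_nonneg (sub_nonneg.2 h)).1
  have h3 : (‖a‖ ^ 2 : ℝ) • (star x * x) = ((‖a‖ ^ 2 : ℝ) : ℂ) • (star x * x) := rfl
  rw [h3, map_sub, map_smul, smul_eq_mul, Complex.sub_re, Complex.re_ofReal_mul] at h2
  exact sub_nonneg.1 h2

end Order

theorem n2_one : sp.n2 1 = 1 := by simp [n2, sp.τ_one]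
theorem n2_le_norm (x : A) : sp.n2 x ≤ ‖x‖ := by
  simpa [sp.n2_one] using sp.n2_mul_le_left x 1
theorem n2_star (x : A) : sp.n2 (star x) = sp.n2 x := by rw [n2, n2, star_star, sp.τ_comm]
theorem norm_τ_mul_le (x y : A) : ‖sp.τ (x * y)‖ ≤ sp.n2 x * sp.n2 y := by
  simpa [sp.n2_star] using sp.norm_τ_star_mul_le (star x) y
theorem norm_τ_mul_le' (x y : A) : ‖sp.τ (x * y)‖ ≤ ‖x‖ * sp.n2 y :=
  (sp.norm_τ_mul_le x y).trans (mul_le_mul_of_nonneg_right (sp.n2_le_norm x) (sp.n2_nonneg y))
theorem norm_τ_le (x : A) : ‖sp.τ x‖ ≤ ‖x‖ := by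
  simpa [sp.n2_one] using sp.norm_τ_mul_le' x 1

theorem norm_π (g : Γ) : ‖sp.π g‖ = 1 := by
  haveI := sp.nontrivial
  have h : ‖sp.π g‖ * ‖sp.π g‖ = 1 := by
    rw [← CStarRing.norm_star_mul_self, sp.star_π, ← map_mul, inv_mul_cancel, map_one, norm_one]
  nlinarith [norm_nonneg (sp.π g)]

@[simp] theorem πA_single (g : Γ) (a : ℂ) : sp.πA (MonoidAlgebra.single g a) = a • sp.π g :=
  MonoidAlgebra.lift_single _ _ _

theorem πA_apply (x : CG) : sp.πA x = ∑ g ∈ x.coeff.support, x.coeff g • sp.π g := by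
  rw [πA, MonoidAlgebra.lift_apply]; rfl

theorem τ_π_mul_πA (g : Γ) (x : CG) : sp.τ (sp.π g⁻¹ * sp.πA x) = x.coeff g := by
  rw [πA_apply, Finset.mul_sum, map_sum]
  simp only [mul_smul_comm, map_smul, ← map_mul, sp.τ_π, inv_mul_eq_one, smul_eq_mul, mul_ite,
    mul_one, mul_zero]
  rw [Finset.sum_ite_eq]
  split_ifs with h
  · rfl
  · exact (Finsupp.notMem_support_iff.1 h).symm

theorem τ_πA (x : CG) : sp.τ (sp.πA x) = x.coeff 1 := by
  simpa using sp.τ_π_mul_πA 1 x

theorem isSelfAdjoint_πA {x : CG} (hx : Herm x) : IsSelfAdjoint (sp.πA x) := by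
  rw [IsSelfAdjoint, πA_apply, star_sum]
  refine Finset.sum_nbij' (fun g => g⁻¹) (fun g => g⁻¹) ?_ ?_ (by simp) (by simp) ?_
  · intro g hg; simpa [hx g] using hg
  · intro g hg; simpa [hx g] using hg
  · intro g _; rw [star_smul, sp.star_π, hx g]

@[simp] theorem ev_nil {ι : Type} (Y : ι → A) : sp.ev Y [] = 1 := rfl
@[simp] theorem ev_inl {ι : Type} (Y : ι → A) (g : Γ) (Q : List (Γ ⊕ ι)) :
    sp.ev Y (Sum.inl g :: Q) = sp.π g * sp.ev Y Q := by simp [ev]
@[simp] theorem ev_inr {ι : Type} (Y : ι → A) (c : ι) (Q : List (Γ ⊕ ι)) :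
    sp.ev Y (Sum.inr c :: Q) = Y c * sp.ev Y Q := by simp [ev]
theorem ev_append {ι : Type} (Y : ι → A) (P Q : List (Γ ⊕ ι)) :
    sp.ev Y (P ++ Q) = sp.ev Y P * sp.ev Y Q := by simp [ev]

theorem ev_map_inr {n : ℕ} (Y : Fin n → A) (w : FreeMonoid (Fin n)) :
    sp.ev Y ((FreeMonoid.toList w).map Sum.inr) = wordEval Y w := by
  simp [ev, wordEval, FreeMonoid.lift_apply, Function.comp_def]

end Sp

section Poly
variable {B : Type*} [Ring B] [Algebra ℂ B] {n : ℕ}

theorem polyEval_eq_sum (Y : Fin n → B) (P : NCPoly n) :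
    polyEval Y P = ∑ w ∈ P.coeff.support, P.coeff w • wordEval Y w := by
  rw [polyEval, MonoidAlgebra.lift_apply]; rfl

theorem map_polyEval {B' : Type*} [Ring B'] [Algebra ℂ B'] (f : B →ₐ[ℂ] B') (Y : Fin n → B)
    (P : NCPoly n) : f (polyEval Y P) = polyEval (fun i => f (Y i)) P := by
  have h : ∀ w, f (wordEval Y w) = wordEval (fun i => f (Y i)) w := fun w => by
    simp [wordEval, FreeMonoid.lift_apply, map_list_prod, Function.comp_def]
  simp [polyEval_eq_sum, h]

theorem star_wordEval [StarRing B] {Y : Fin n → B} (hY : ∀ i, IsSelfAdjoint (Y i))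
    (w : FreeMonoid (Fin n)) :
    star (wordEval Y w) = wordEval Y (FreeMonoid.toList.symm (FreeMonoid.toList w).reverse) := by
  have h : ∀ l : List (Fin n), star (l.map Y).prod = (l.reverse.map Y).prod := fun l => by
    induction l with
    | nil => simp
    | cons a l ih => simp [ih, (hY a).star_eq]
  simpa [wordEval, FreeMonoid.lift_apply] using h (FreeMonoid.toList w)

theorem polyEval_polyStar [StarRing B] [StarModule ℂ B] {Y : Fin n → B}
    (hY : ∀ i, IsSelfAdjoint (Y i)) (P : NCPoly n) :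
    polyEval Y (polyStar P) = star (polyEval Y P) := by
  rw [polyEval_eq_sum Y P, star_sum, polyStar, Finsupp.sum, polyEval, map_sum]
  refine Finset.sum_congr rfl fun w _ => ?_
  rw [MonoidAlgebra.lift_single, star_smul, star_wordEval hY]
  rfl

end Poly

end Crest.Agent.R89
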