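import Mathlib
import Crest.Prelude.Def_CStarRep
import Crest.Prelude.Def_FreeEntropy

/-!
Row 89 (S0118): definitions and interface statements.

`Γ` is the free group on `u, a, c`; `Λ0 = ⟨a, c⟩`; `b j = u x_j u y_j u` with the free family
`x_j = f (2j)`, `y_j = f (2j+1)`, `f m = a^m c a^{-m}`.
-/

set_option autoImplicit false

namespace Crest.Agent.R89

open Crest.OpAlg MeasureTheory ProbabilityTheory Filter Topology
open scoped ENNReal Classical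

/-! ## The group and its coset graph -/

abbrev Γ : Type := FreeGroup (Fin 3)
abbrev CG : Type := MonoidAlgebra ℂ Γ

def gu : Γ := FreeGroup.of 0
def ga : Γ := FreeGroup.of 1
def gc : Γ := FreeGroup.of 2
def Λ0 : Subgroup Γ := Subgroup.closure {ga, gc}
def gf (m : ℕ) : Γ := ga ^ m * gc * (ga ^ m)⁻¹
def gb (j : ℕ) : Γ := gu * gf (2 * j) * gu * gf (2 * j + 1) * gu

/-- Vertices: right cosets `Λ0 g`. -/
abbrev V : Type := Quotient (QuotientGroup.rightRel Λ0)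
def vx (g : Γ) : V := Quotient.mk _ g

/-- Edge types: `u^{±1}` and `(b j)^{±1}`, `j < k`. -/
abbrev ET (k : ℕ) : Type := Option (Fin k) × Bool

def hel {k : ℕ} : ET k → Γ
  | (none, true) => gu
  | (none, false) => gu⁻¹
  | (some j, true) => gb j
  | (some j, false) => (gb j)⁻¹

def adj (k : ℕ) (p q : V) : Prop := ∃ (t : ET k) (g : Γ), p = vx (hel t * g) ∧ q = vx g

/-- The four vertices of the cell `(g, j)`. -/
def cv {k : ℕ} (K : Γ × Fin k) : Fin 4 → V :=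
  ![vx K.1, vx (gu * K.1), vx (gu * gf (2 * K.2 + 1) * gu * K.1), vx (gb K.2 * K.1)]

/-- The three `u`-edges of the cell `(g, j)`; the node `G` is the edge `vx G → vx (gu * G)`. -/
def cn {k : ℕ} (K : Γ × Fin k) : Fin 3 → Γ :=
  ![K.1, gf (2 * K.2 + 1) * gu * K.1, gf (2 * K.2) * gu * gf (2 * K.2 + 1) * gu * K.1]

/-- Connected inside `S`. -/
def Conn {W : Type} (adj : W → W → Prop) (S : Set W) : W → W → Prop :=
  Relation.ReflTransGen fun p q => p ∈ S ∧ q ∈ S ∧ adj p q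

/-- A graph which is a tree of 4-cycles (cells) glued along distinguished edges (nodes). -/
structure Geom (W N K : Type) where
  adj : W → W → Prop
  symm : ∀ p q, adj p q → adj q p
  src : N → W
  tgt : N → W
  cv : K → Fin 4 → W
  cn : K → Fin 3 → N
  cells : N → Finset K
  cv_inj : ∀ x, Function.Injective (cv x)
  src_cn : ∀ x i, src (cn x i) = cv x i.castSucc
  tgt_cn : ∀ x i, tgt (cn x i) = cv x i.succ
  mem_cells : ∀ G x, x ∈ cells G ↔ ∃ i, cn x i = G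
  diag : ∀ x, ¬ adj (cv x 0) (cv x 2) ∧ ¬ adj (cv x 1) (cv x 3)
  q1 : ∀ x (i j : Fin 4), (i = 0 ∧ j = 2 ∨ i = 1 ∧ j = 3 ∨ i = 0 ∧ j = 3) → ∀ p q,
    p ∉ Set.range (cv x) → q ∉ Set.range (cv x) → adj (cv x i) p →
    Conn adj (Set.range (cv x))ᶜ p q → ¬ adj q (cv x j)
  q2 : ∀ G (S : Set W), src G ∉ S → tgt G ∉ S → ∀ p ∈ S, ∀ q ∈ S, adj (src G) p →
    Conn adj S p q → adj q (tgt G) → ∃ x ∈ cells G, ∃ z ∈ S, z ∈ Set.range (cv x)
  q3 : ∀ G, ∀ x ∈ cells G, ∀ y ∈ cells G, ∀ p ∈ Set.range (cv x), ∀ q ∈ Set.range (cv y),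
    p ∉ ({src G, tgt G} : Set W) → q ∉ ({src G, tgt G} : Set W) →
    Conn adj ({src G, tgt G} : Set W)ᶜ p q → x = y

/-- (G) The geometry of the coset graph. -/
def GeomStmt : Prop := ∀ k : ℕ, ∃ 𝒢 : Geom V Γ (Γ × Fin k),
  𝒢.adj = adj k ∧ 𝒢.src = vx ∧ (𝒢.tgt = fun G => vx (gu * G)) ∧ 𝒢.cv = cv ∧ 𝒢.cn = cn ∧
  (∀ G, (𝒢.cells G).card ≤ 3 * k) ∧
  (∀ (G g : Γ) (t : ET k), vx (hel t * g) = vx (gu * G) → vx g = vx G →
    t = (none, true) ∧ g = G) ∧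
  (∀ (j : Fin k) (G g : Γ) (t : ET k), vx (hel t * g) = vx (gb j * G) → vx g = vx G →
    t = (some j, true) ∧ g = G)

/-! ## The abstract local lemma -/

/-- A ring with vertex idempotents `e S`, `G = (D - A)⁻¹`, diagonal part `L` of `G`, an ideal `I`
("zero constant term") and truncated `ℓ¹` bounds `Rep n r m`. -/
structure RingData (W : Type) (adj : W → W → Prop) (R : Type) [Ring R] where
  e : Set W → R
  e_univ : e Set.univ = 1
  e_inter : ∀ S T, e (S ∩ T) = e S * e T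
  e_union : ∀ S T, Disjoint S T → e (S ∪ T) = e S + e T
  A : R
  D : R
  G : R
  L : R
  Li : R
  e_D : ∀ S, e S * D = D * e S
  G_M : G * (D - A) = 1
  M_G : (D - A) * G = 1
  unit : ∀ S, IsUnit (e S * (D - A) * e S + (1 - e S))
  e_L : ∀ S, e S * L = L * e S
  L_Li : L * Li = 1
  Li_L : Li * L = 1
  diag : ∀ x, e {x} * G * e {x} = e {x} * L
  e_A : ∀ S T, (∀ p ∈ S, ∀ q ∈ T, ¬ adj p q) → e S * A * e T = 0
  I : TwoSidedIdeal R
  I_A : A ∈ I
  I_D : D - 1 ∈ I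
  I_L : L - 1 ∈ I
  Rep : ℕ → ℝ → R → Prop
  rep_I : ∀ m ∈ I, Rep 0 0 m
  rep_zero : ∀ n, Rep n 0 0
  rep_mono : ∀ n r r' m, r ≤ r' → Rep n r m → Rep n r' m
  rep_add : ∀ n r r' m m', Rep n r m → Rep n r' m' → Rep n (r + r') (m + m')
  rep_neg : ∀ n r m, Rep n r m → Rep n r (-m)
  rep_down : ∀ n r m, Rep (n + 1) r m → Rep n r m
  rep_mul : ∀ n r r' m m', Rep n r m → Rep n r' m' → Rep (n + 1) (r * r') (m * L * m')

/-- (L) The local lemma: the amputated Green function `Li * G * Li - Li` is small on cells. -/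
def LocalStmt : Prop :=
  ∀ (W N K : Type) (𝒢 : Geom W N K) (R : Type) [Ring R] (𝒟 : RingData W 𝒢.adj R)
    (κ : ℕ) (α r r0 : ℝ), (∀ G, (𝒢.cells G).card ≤ κ) → 0 ≤ α → 0 ≤ r → r ≤ r0 → r0 ≤ 1 / 5 →
    α + 4 * κ * r ^ 2 * r0 ≤ r →
    (∀ n G, 𝒟.Rep n α (𝒟.e {𝒢.src G} * 𝒟.A * 𝒟.e {𝒢.tgt G}) ∧
      𝒟.Rep n α (𝒟.e {𝒢.tgt G} * 𝒟.A * 𝒟.e {𝒢.src G})) →
    (∀ n x, 𝒟.Rep n r0 (𝒟.e {𝒢.cv x 0} * 𝒟.A * 𝒟.e {𝒢.cv x 3}) ∧
      𝒟.Rep n r0 (𝒟.e {𝒢.cv x 3} * 𝒟.A * 𝒟.e {𝒢.cv x 0})) →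
    ∀ n x i j, 𝒟.Rep n (2 * r0)
      (𝒟.e {𝒢.cv x i} * (𝒟.Li * 𝒟.G * 𝒟.Li - 𝒟.Li) * 𝒟.e {𝒢.cv x j})

/-! ## Words, splittings and the group-algebra valued moments -/

/-- `∑_{Q = Q₁ c Q₂} F Q₁ • G Q₂`. -/
noncomputable def split {L M : Type} [AddCommMonoid M] [Module ℂ M] (c : L) (F : List L → ℂ)
    (G : List L → M) (Q : List L) : M :=
  ∑ i ∈ Finset.range Q.length, if Q[i]? = some c then F (Q.take i) • G (Q.drop (i + 1)) else 0

/-- Letters: elements of `Λ0` and variables. -/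
abbrev Let (n : ℕ) : Type := Λ0 ⊕ Fin n

/-- The conditional expectation onto the group algebra of a word, defined by the
Schwinger-Dyson recursion (`Y c = ξ c + semicircular of variance v c`). -/
noncomputable def E {n : ℕ} (ξ : Fin n → CG) (v : Fin n → ℝ) : List (Let n) → CG
  | [] => 1
  | Sum.inl g :: Q => MonoidAlgebra.single (g : Γ) 1 * E ξ v Q
  | Sum.inr c :: Q => ξ c * E ξ v Q + (v c : ℂ) • ∑ i ∈ Finset.range Q.length,
      if Q[i]? = some (Sum.inr c) then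
        (E ξ v (Q.take i)).coeff 1 • E ξ v (Q.drop (i + 1)) else 0
termination_by Q => Q.length
decreasing_by all_goals simp only [List.length_cons, List.length_take, List.length_drop]; omega

section
variable {n : ℕ} (ξ : Fin n → CG) (v : Fin n → ℝ)

theorem E_nil : E ξ v [] = 1 := by rw [E]
theorem E_inl (g : Λ0) (Q : List (Let n)) :
    E ξ v (Sum.inl g :: Q) = MonoidAlgebra.single (g : Γ) 1 * E ξ v Q := by rw [E]
theorem E_inr (c : Fin n) (Q : List (Let n)) :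
    E ξ v (Sum.inr c :: Q) = ξ c * E ξ v Q +
      (v c : ℂ) • split (Sum.inr c) (fun P => (E ξ v P).coeff 1) (E ξ v) Q := by
  rw [E]; unfold split; congr!

/-- The diagonal part of the moment series. -/
noncomputable def Lc (g : Γ) (Q : List (Let n)) : ℂ := if g ∈ Λ0 then (E ξ v Q).coeff g else 0

/-- The product functionals `L_{g₀} z_{c₁} L_{g₁} ⋯ z_{c_j} L_{g_j}`. -/
noncomputable def φ : Γ → List (Fin n × Γ) → List (Let n) → ℂ
  | g, [] => Lc ξ v g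
  | g, p :: r => split (Sum.inr p.1) (Lc ξ v g) (φ p.2 r)

/-- The weight of a product functional. -/
noncomputable def wt (ρ : Fin n → ℝ) (r : List (Fin n × Γ)) : ℝ := (r.map fun p => ρ p.1).prod

/-- On words of length at most `m`, `F` is a combination of product functionals with colours in `C`
and weighted `ℓ¹` norm at most `β`. -/
def Repd (ρ : Fin n → ℝ) (C : Set (Fin n)) (m : ℕ) (β : ℝ) (F : List (Let n) → ℂ) : Prop :=
  ∃ l : List (ℂ × Γ × List (Fin n × Γ)), (∀ x ∈ l, ∀ p ∈ x.2.2, p.1 ∈ C) ∧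
    (l.map fun x => ‖x.1‖ * wt ρ x.2.2).sum ≤ β ∧
    ∀ Q : List (Let n), Q.length ≤ m → F Q = (l.map fun x => x.1 * φ ξ v x.2.1 x.2.2 Q).sum

end

/-- (R) Representation of the edge moments by product functionals. -/
def RepStmt : Prop :=
  ∀ (k n : ℕ) (ξ0 ξ : Fin n → CG) (coef : Fin n → ET k → ℂ) (v ρ : Fin n → ℝ) (C : Set (Fin n))
    (α r r0 : ℝ), 0 < k → (∀ c g, (ξ0 c).coeff g ≠ 0 → g ∈ Λ0) →
    (∀ c, ξ c = ξ0 c + ∑ t, coef c t • MonoidAlgebra.single (hel t) (1 : ℂ)) →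
    (∀ c, c ∉ C → ∀ t, coef c t = 0) → (∀ c, 0 ≤ ρ c) →
    (∀ s, ∑ c, ‖coef c (none, s)‖ * ρ c ≤ α) → (∀ j s, ∑ c, ‖coef c (some j, s)‖ * ρ c ≤ r0) →
    0 ≤ r → r ≤ r0 → r0 ≤ 1 / 5 → α + 12 * k * r ^ 2 * r0 ≤ r →
    ∀ (m : ℕ) (t : ET k), ∀ l1 ∈ Λ0, ∀ l2 ∈ Λ0,
      Repd ξ v ρ C m (2 * r0) fun Q => (E ξ v Q).coeff (l1 * hel t * l2)

/-! ## Tracial C*-probability spaces with a copy of `Γ` -/

structure Sp (A : Type) [CStarAlgebra A] where
  τ : A →ₗ[ℂ] ℂ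
  hτ : IsFaithfulTracialState τ
  π : Γ →* A
  star_π : ∀ g, star (π g) = π g⁻¹
  τ_π : ∀ g, τ (π g) = if g = 1 then 1 else 0

section
variable {A : Type} [CStarAlgebra A] (sp : Sp A)

/-- The representation of the group algebra. -/
noncomputable def Sp.πA : CG →ₐ[ℂ] A := MonoidAlgebra.lift ℂ A Γ sp.π

/-- The trace 2-norm. -/
noncomputable def Sp.n2 (x : A) : ℝ := √(sp.τ (star x * x)).re

/-- Evaluation of a word in group elements and variables. -/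
def Sp.ev {ι : Type} (Y : ι → A) (Q : List (Γ ⊕ ι)) : A := (Q.map (Sum.elim sp.π Y)).prod

/-- The Schwinger-Dyson equations: `Y c - ξ c` behaves as a free semicircular element of
variance `v c`. -/
def Sp.SD {ι : Type} (Y : ι → A) (ξ : ι → CG) (v : ι → ℝ) : Prop :=
  ∀ (c : ι) (Q : List (Γ ⊕ ι)), sp.τ ((Y c - sp.πA (ξ c)) * sp.ev Y Q) =
    (v c : ℂ) * split (Sum.inr c) (fun P => sp.τ (sp.ev Y P)) (fun P => sp.τ (sp.ev Y P)) Q

end

/-- Hermitian elements of the group algebra. -/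
def Herm (x : CG) : Prop := ∀ g, x.coeff g⁻¹ = star (x.coeff g)

/-- (W) Representable functionals are bounded in the trace 2-norm. -/
def WStmt : Prop :=
  ∀ (A : Type) [CStarAlgebra A] (sp : Sp A) (n : ℕ) (Y : Fin n → A) (ξ : Fin n → CG)
    (v ρ β : Fin n → ℝ) (C : Set (Fin n)) (κ : ℝ), sp.SD Y ξ v → 0 ≤ κ → κ < 1 →
    (∀ c ∈ C, 0 < v c ∧ 0 < ρ c ∧ 0 ≤ β c ∧ ‖Y c‖ + 2 / ρ c + β c ≤ κ * (v c * ρ c)) →
    (∀ c ∈ C, ∀ g ∈ Λ0, ∀ m, Repd ξ v ρ C m (β c) fun Q => (ξ c * E ξ v Q).coeff g) →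
    ∀ (γ : Γ) (B : ℝ), (∀ m, Repd ξ v ρ C m B fun Q => (E ξ v Q).coeff γ) →
    ∀ P : NCPoly n, ‖sp.τ (sp.π γ⁻¹ * polyEval Y P)‖ ≤ B * sp.n2 (polyEval Y P)

/-! ## The Fock space model -/

/-- (F0) A space with a free semicircular family indexed by `Fin n ⊕ Fin n`, in raw form. -/
def Fock0Stmt : Prop :=
  ∀ n : ℕ, ∃ (A : Type) (_ : CStarAlgebra A) (sp : Sp A) (s : Fin n ⊕ Fin n → A),
    (∀ k, IsSelfAdjoint (s k) ∧ ‖s k‖ ≤ 2) ∧ sp.SD s (fun _ => 0) fun _ => 1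

/-- (F1) Consequences of the raw Schwinger-Dyson equations: semicircularity and the
Schwinger-Dyson equations of the perturbed tuples. -/
def AffineStmt : Prop :=
  ∀ (A : Type) [CStarAlgebra A] (sp : Sp A) (n : ℕ) (s : Fin n ⊕ Fin n → A),
    (∀ k, IsSelfAdjoint (s k)) → (sp.SD s (fun _ => 0) fun _ => 1) →
    IsStandardSemicircular sp.τ (fun i => s (Sum.inr i)) ∧
    ∀ (ξ : Fin n → CG) (σ σ' : Fin n → ℝ),
      sp.SD (fun c => sp.πA (ξ c) + (σ c : ℂ) • s (Sum.inl c) + (σ' c : ℂ) • s (Sum.inr c)) ξ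
        fun c => σ c ^ 2 + σ' c ^ 2

/-- (F2) Freeness from the raw Schwinger-Dyson equations. -/
def FreeStmt : Prop :=
  ∀ (A : Type) [CStarAlgebra A] (sp : Sp A) (n : ℕ) (s : Fin n ⊕ Fin n → A),
    (sp.SD s (fun _ => 0) fun _ => 1) → ∀ (ξ : Fin n → CG) (σ : Fin n → ℝ),
      IsFreeFamily sp.τ (withNoise (fun c => sp.πA (ξ c) + (σ c : ℂ) • s (Sum.inl c))
        fun i => s (Sum.inr i))

/-! ## Entropy estimates -/

/-- (P) Lower bound for the non-microstates entropy. -/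
def FisherStmt : Prop :=
  ∀ (A : Type) [CStarAlgebra A] (sp : Sp A) (n : ℕ) (X S : Fin n → A) (ξ : Fin n → CG)
    (σ gain : Fin n → ℝ), (∀ c, IsSelfAdjoint (X c)) → (∀ c, IsSelfAdjoint (S c)) →
    (∀ c, Herm (ξ c)) → (∀ c, 0 < σ c ∧ σ c ≤ 1) → (∀ c, 0 ≤ gain c) →
    (∀ s : ℝ, 0 < s → sp.SD (heatTuple X S s) ξ fun c => σ c ^ 2 + s) →
    (∀ s : ℝ, 1 ≤ s → ∀ c (P : NCPoly n),
      gain c ≤ sp.n2 (polyEval (heatTuple X S s) P - sp.πA (ξ c)) ^ 2) →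
    (∀ s : ℝ, 0 < s → freeFisher sp.τ (heatTuple X S s) < ⊤) ∧
    IntegrableOn
      (fun s : ℝ => (n : ℝ) / (1 + s) - (freeFisher sp.τ (heatTuple X S s)).toReal) (Set.Ioi 0) ∧
    (n : ℝ) / 2 * Real.log (2 * Real.pi * Real.exp 1) +
      1 / 2 * ∑ c, (Real.log (σ c ^ 2) + gain c / 2) ≤ chiStar sp.τ X S

/-- (U) Upper bound for the microstates entropy by a triangular change of variables. -/
def UpperStmt : Prop :=
  ∀ (A : Type) [CStarAlgebra A] (τ : A →ₗ[ℂ] ℂ) (n : ℕ) (X : Fin n → A) (J : Set (Fin n))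
    (p : Fin n → NCPoly n) (r : Fin n → ℝ), (∀ c, polyStar (p c) = p c) →
    (∀ c ∈ J, p c = 0) → (∀ c, ∀ w ∈ (p c).coeff.support, ∀ i ∈ FreeMonoid.toList w, i ∈ J) →
    (∀ c, 0 < r c ∧ (τ ((X c - polyEval X (p c)) * (X c - polyEval X (p c)))).re < r c) →
    chi τ X ≤ (((n : ℝ) / 2 * Real.log (2 * Real.pi * Real.exp 1) +
      1 / 2 * ∑ c, Real.log (r c) : ℝ) : EReal)

/-- Finite-dimensional unitary representations converging to the regular representation. -/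
structure Approx where
  d : ℕ → ℕ
  hd : Tendsto d atTop atTop
  π : ∀ N, Γ →* Matrix (Fin (d N)) (Fin (d N)) ℂ
  star_π : ∀ N g, star (π N g) = π N g⁻¹
  tr_π : ∀ g, Tendsto (fun N => ((d N : ℂ))⁻¹ * Matrix.trace (π N g)) atTop
    (𝓝 (if g = 1 then 1 else 0))

/-- (RF) Residual finiteness of the free group. -/
def RFStmt : Prop := Nonempty Approx

/-- The Gaussian measure on the coordinates of `n` independent GUE matrices of size `d`. -/
noncomputable def gue (n d : ℕ) : Measure (Fin n × (Fin d × Fin d) → ℝ) :=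
  Measure.pi fun _ => gaussianReal 0 (d : NNReal)⁻¹

/-- The `c`-th GUE matrix. -/
noncomputable def gueM {n d : ℕ} (x : Fin n × (Fin d × Fin d) → ℝ) (c : Fin n) :
    Matrix (Fin d) (Fin d) ℂ := hermitianOfCoords (WithLp.toLp 2 fun p => x (c, p))

/-- The random matrix model `π_N(ξ c) + σ c • GUE_c`. -/
noncomputable def model {n : ℕ} (ap : Approx) (ξ : Fin n → CG) (σ : Fin n → ℝ) (N : ℕ)
    (x : Fin n × (Fin (ap.d N) × Fin (ap.d N)) → ℝ) (c : Fin n) :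
    Matrix (Fin (ap.d N)) (Fin (ap.d N)) ℂ :=
  MonoidAlgebra.lift ℂ _ Γ (ap.π N) (ξ c) + (σ c : ℂ) • gueM x c

/-- (IBP) Gaussian integration by parts for polynomials. -/
def IBPStmt : Prop :=
  ∀ (ι : Type) [Fintype ι] (w : NNReal) (p : MvPolynomial ι ℂ),
    Integrable (fun x : ι → ℝ => MvPolynomial.eval (fun i => (x i : ℂ)) p)
      (Measure.pi fun _ => gaussianReal 0 w) ∧
    ∀ k, ∫ x : ι → ℝ, MvPolynomial.eval (fun i => (x i : ℂ)) (MvPolynomial.X k * p)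
        ∂(Measure.pi fun _ => gaussianReal 0 w) =
      (w : ℂ) * ∫ x : ι → ℝ, MvPolynomial.eval (fun i => (x i : ℂ)) (MvPolynomial.pderiv k p)
        ∂(Measure.pi fun _ => gaussianReal 0 w)

/-- (N) Operator norm tail bound for GUE matrices. -/
def NormStmt : Prop :=
  ∃ R : ℝ, ∀ n : ℕ, ∀ᶠ d : ℕ in atTop,
    gue n d {x | ∃ c, R < ‖Matrix.toEuclideanCLM (n := Fin d) (𝕜 := ℂ) (gueM x c)‖} ≤ 1 / 4

/-- (M) Convergence in probability of the moments of the model. -/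
def MomStmt : Prop :=
  ∀ (A : Type) [CStarAlgebra A] (sp : Sp A) (n : ℕ) (X : Fin n → A) (ξ : Fin n → CG)
    (σ : Fin n → ℝ), (∀ c, IsSelfAdjoint (X c)) → (∀ c, Herm (ξ c)) →
    (sp.SD X ξ fun c => σ c ^ 2) → ∀ (ap : Approx) (w : FreeMonoid (Fin n)) (ε : ℝ), 0 < ε →
    Tendsto (fun N => gue n (ap.d N)
      {x | ε ≤ ‖matrixMoment (model ap ξ σ N x) w - sp.τ (wordEval X w)‖}) atTop (𝓝 0)

/-- (Lo) The microstates entropy is not `-∞`. -/
def LowerStmt : Prop :=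
  ∀ (A : Type) [CStarAlgebra A] (sp : Sp A) (n : ℕ) (X : Fin n → A) (ξ : Fin n → CG)
    (σ : Fin n → ℝ), (∀ c, IsSelfAdjoint (X c)) → (∀ c, Herm (ξ c)) → (∀ c, 0 < σ c) →
    (sp.SD X ξ fun c => σ c ^ 2) → ⊥ < chi sp.τ X

end Crest.Agent.R89
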