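import Crest.Agent.R89.Basic

/-! Row 89: lower bound for the non-microstates entropy. -/

set_option autoImplicit false

namespace Crest.Agent.R89

open Crest.OpAlg MeasureTheory Filter Topology Set
open scoped Classical ENNReal

namespace Fisher

section alg
variable {A : Type} [CStarAlgebra A] (sp : Sp A) {n : ℕ} {Y : Fin n → A} {ξ : Fin n → CG}
  {v : Fin n → ℝ}

theorem sd_poly (h : sp.SD Y ξ v) (c : Fin n) (P : NCPoly n) :
    sp.τ ((Y c - sp.πA (ξ c)) * polyEval Y P) = v c * splitPairing sp.τ Y c P := by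
  rw [polyEval_eq_sum, Finset.mul_sum, map_sum, splitPairing, Finsupp.sum, Finset.mul_sum]
  refine Finset.sum_congr rfl fun w _ => ?_
  rw [mul_smul_comm, map_smul, smul_eq_mul, ← sp.ev_map_inr, h c,
    split_map Sum.inr Sum.inr_injective, mul_left_comm]
  congr 2
  refine Finset.sum_congr rfl fun k _ => ?_
  rw [← sp.ev_map_inr, ← sp.ev_map_inr]
  simp

theorem sd_πA (h : sp.SD Y ξ v) (c : Fin n) (x : CG) :
    sp.τ ((Y c - sp.πA (ξ c)) * sp.πA x) = 0 := by
  rw [sp.πA_apply x, Finset.mul_sum, map_sum]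
  refine Finset.sum_eq_zero fun g _ => ?_
  have := h c [Sum.inl g]
  rw [split_of_not_mem _ _ _ (by simp)] at this
  simp only [Sp.ev_inl, Sp.ev_nil, mul_one, mul_zero] at this
  rw [mul_smul_comm, map_smul, this, smul_zero]

theorem sd_Y (h : sp.SD Y ξ v) (c : Fin n) : sp.τ ((Y c - sp.πA (ξ c)) * Y c) = v c := by
  have := h c [Sum.inr c]
  simpa [split_cons, sp.τ_one] using this

theorem sd_T (h : sp.SD Y ξ v) (c : Fin n) :
    sp.τ ((Y c - sp.πA (ξ c)) * (Y c - sp.πA (ξ c))) = v c := by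
  rw [mul_sub, map_sub, sd_Y sp h, sd_πA sp h, sub_zero]

theorem sd_YY (h : sp.SD Y ξ v) (c : Fin n) :
    sp.τ (Y c * Y c) = v c + sp.τ (sp.πA (ξ c) * sp.πA (ξ c)) := by
  have h1 := sd_Y sp h c
  have h2 := sd_πA sp h c (ξ c)
  rw [sub_mul, map_sub] at h1 h2
  rw [sp.τ_comm (sp.πA (ξ c)) (Y c)] at h1
  linear_combination h1 + h2

/-- the generator as a polynomial -/
noncomputable def gen (c : Fin n) (t : ℝ) : NCPoly n := MonoidAlgebra.single (FreeMonoid.of c) t

theorem polyEval_gen (Y : Fin n → A) (c : Fin n) (t : ℝ) :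
    polyEval Y (gen c t) = (t : ℂ) • Y c := by
  simp [gen, polyEval]

theorem polyStar_gen (c : Fin n) (t : ℝ) : polyStar (gen c t) = gen c t := by
  unfold polyStar gen
  rw [MonoidAlgebra.coeff_single, Finsupp.sum_single_index (by simp)]
  simp only [Complex.conj_ofReal]
  rfl

theorem polyStar_zero : polyStar (0 : NCPoly n) = 0 := by simp [polyStar]

theorem term_eq (h : sp.SD Y ξ v) (hY : ∀ c, IsSelfAdjoint (Y c)) (hξ : ∀ c, Herm (ξ c))
    (c : Fin n) (hv : 0 < v c) {P : NCPoly n} (hP : polyStar P = P) :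
    (2 * splitPairing sp.τ Y c P - sp.τ (polyEval Y P * polyEval Y P)).re =
      (v c)⁻¹ - sp.n2 (polyEval Y (gen c 1 - (v c : ℂ) • P) - sp.πA (ξ c)) ^ 2 / v c ^ 2 := by
  have hp : star (polyEval Y P) = polyEval Y P := by rw [← polyEval_polyStar hY, hP]
  have hT : star (Y c - sp.πA (ξ c)) = Y c - sp.πA (ξ c) :=
    ((hY c).sub (sp.isSelfAdjoint_πA (hξ c))).star_eq
  have e : polyEval Y (gen c 1 - (v c : ℂ) • P) - sp.πA (ξ c) =
      (Y c - sp.πA (ξ c)) - (v c : ℂ) • polyEval Y P := by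
    have : polyEval Y (gen c 1 - (v c : ℂ) • P) = polyEval Y (gen c 1) - (v c : ℂ) • polyEval Y P := by
      simp only [polyEval, map_sub, map_smul]
    rw [this, polyEval_gen]; simp only [Complex.ofReal_one, one_smul]; abel
  rw [e, sp.n2_sub_sq, sp.n2_smul, mul_pow, sp.n2_sq, sp.n2_sq, hT, hp, sd_T sp h, mul_smul_comm,
    map_smul, sd_poly sp h]
  simp only [smul_eq_mul, Complex.sub_re, Complex.re_ofReal_mul, Complex.ofReal_re,
    Complex.norm_real, Real.norm_eq_abs, sq_abs]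
  have : (2 * splitPairing sp.τ Y c P).re = 2 * (splitPairing sp.τ Y c P).re := by simp
  rw [this]
  field_simp
  ring

theorem term_gen (h : sp.SD Y ξ v) (c : Fin n) (hv : 0 < v c) (t : ℝ) :
    (2 * splitPairing sp.τ Y c (gen c t) -
      sp.τ (polyEval Y (gen c t) * polyEval Y (gen c t))).re =
      2 * t - t ^ 2 * (v c + (sp.τ (sp.πA (ξ c) * sp.πA (ξ c))).re) := by
  have h1 := sd_poly sp h c (gen c t)
  rw [polyEval_gen, mul_smul_comm, map_smul, sd_Y sp h, smul_eq_mul, mul_comm] at h1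
  have hv' : (v c : ℂ) ≠ 0 := by exact_mod_cast hv.ne'
  rw [← mul_left_cancel₀ hv' h1, polyEval_gen, smul_mul_smul_comm, map_smul, sd_YY sp h]
  simp [sq]

theorem fisher_eq (τ : A →ₗ[ℂ] ℂ) (Y : Fin n → A) : freeFisher τ Y =
    ⨆ (P : Fin n → NCPoly n) (_ : ∀ i, polyStar (P i) = P i),
      ENNReal.ofReal (∑ i, (2 * splitPairing τ Y i (P i) -
        τ (polyEval Y (P i) * polyEval Y (P i))).re) := by
  simp only [freeFisher, Complex.re_sum]

theorem continuous_τ : Continuous sp.τ :=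
  AddMonoidHomClass.continuous_of_bound sp.τ 1 fun x => by simpa using sp.norm_τ_le x

theorem continuous_word {Z : ℝ → Fin n → A} (hZ : ∀ i, Continuous fun s => Z s i)
    (w : FreeMonoid (Fin n)) : Continuous fun s => wordEval (Z s) w := by
  induction w using FreeMonoid.inductionOn' with
  | one => simpa [wordEval] using continuous_const
  | of_mul b a ih =>
    simp only [wordEval, map_mul, FreeMonoid.lift_eval_of] at ih ⊢
    exact (hZ b).mul ih

theorem continuous_poly {Z : ℝ → Fin n → A} (hZ : ∀ i, Continuous fun s => Z s i)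
    (P : NCPoly n) : Continuous fun s => polyEval (Z s) P := by
  simp only [polyEval_eq_sum]
  exact continuous_finsetSum _ fun w _ => (continuous_word hZ w).const_smul _

theorem measurable_fisher {Z : ℝ → Fin n → A} (hZ : ∀ i, Continuous fun s => Z s i) :
    Measurable fun s => freeFisher sp.τ (Z s) := by
  refine LowerSemicontinuous.measurable ?_
  simp only [fisher_eq]
  refine lowerSemicontinuous_iSup fun P => lowerSemicontinuous_iSup fun _ =>
    Continuous.lowerSemicontinuous ?_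
  refine ENNReal.continuous_ofReal.comp (continuous_finsetSum _ fun i _ =>
    Complex.continuous_re.comp (Continuous.sub (continuous_const.mul ?_)
      ((continuous_τ sp).comp ((continuous_poly hZ _).mul (continuous_poly hZ _)))))
  unfold splitPairing Finsupp.sum
  refine continuous_finsetSum _ fun w _ => continuous_const.mul
    (continuous_finsetSum _ fun k _ => ?_)
  split_ifs
  · exact ((continuous_τ sp).comp (continuous_word hZ _)).mul
      ((continuous_τ sp).comp (continuous_word hZ _))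
  · exact continuous_const

end alg

section integrals

theorem int_log {b : ℝ} (hb : 0 < b) (hb1 : b ≤ 1) :
    IntegrableOn (fun s : ℝ => (1 + s)⁻¹ - (b + s)⁻¹) (Ioi 0) ∧
      ∫ s in Ioi (0 : ℝ), ((1 + s)⁻¹ - (b + s)⁻¹) = Real.log b := by
  have hd : ∀ x ∈ Ici (0 : ℝ), HasDerivAt (fun s : ℝ => Real.log (1 + s) - Real.log (b + s))
      ((1 + x)⁻¹ - (b + x)⁻¹) x := by
    intro x hx
    have hx' : (0 : ℝ) ≤ x := hx
    have h1 := ((hasDerivAt_id x).const_add 1).log (by simp only [id]; linarith)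
    have h2 := ((hasDerivAt_id x).const_add b).log (by simp only [id]; linarith)
    have h3 := h1.sub h2
    simp only [id, one_div] at h3
    exact h3
  have hn : ∀ x ∈ Ioi (0 : ℝ), (1 + x)⁻¹ - (b + x)⁻¹ ≤ 0 := by
    intro x hx
    have hx' : (0 : ℝ) < x := hx
    have : (1 + x)⁻¹ ≤ (b + x)⁻¹ := inv_anti₀ (by linarith) (by linarith)
    linarith
  have ht : Tendsto (fun s : ℝ => Real.log (1 + s) - Real.log (b + s)) atTop (𝓝 0) := by
    have h1 : Tendsto (fun s : ℝ => 1 + (1 - b) * (b + s)⁻¹) atTop (𝓝 (1 + (1 - b) * 0)) :=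
      ((tendsto_inv_atTop_zero.comp (tendsto_atTop_add_const_left _ b tendsto_id)).const_mul
        _).const_add _
    have h2 := h1.log (by simp)
    simp only [mul_zero, add_zero, Real.log_one] at h2
    refine h2.congr' ?_
    filter_upwards [eventually_gt_atTop 0] with s hs
    rw [← Real.log_div (by linarith) (by linarith)]
    congr 1
    field_simp
    ring
  refine ⟨integrableOn_Ioi_deriv_of_nonpos' hd hn ht, ?_⟩
  rw [integral_Ioi_of_hasDerivAt_of_nonpos' hd hn ht]
  simp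

theorem int_sq {a : ℝ} (ha : 0 ≤ a) :
    IntegrableOn (fun s : ℝ => ((1 + s) ^ 2)⁻¹) (Ioi a) ∧
      ∫ s in Ioi a, ((1 + s) ^ 2)⁻¹ = (1 + a)⁻¹ := by
  have hd : ∀ x ∈ Ici a, HasDerivAt (fun s : ℝ => -(1 + s)⁻¹) (((1 + x) ^ 2)⁻¹) x := by
    intro x hx
    have hx' : a ≤ x := hx
    have h1 := (((hasDerivAt_id x).const_add 1).inv (by simp only [id]; linarith)).neg
    simp only [id, neg_div, neg_neg, one_div] at h1
    exact h1
  have hn : ∀ x ∈ Ioi a, 0 ≤ ((1 + x) ^ 2)⁻¹ := fun x _ => by positivity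
  have ht : Tendsto (fun s : ℝ => -(1 + s)⁻¹) atTop (𝓝 (-0)) :=
    (tendsto_inv_atTop_zero.comp (tendsto_atTop_add_const_left _ 1 tendsto_id)).neg
  refine ⟨integrableOn_Ioi_deriv_of_nonneg' hd hn ht, ?_⟩
  rw [integral_Ioi_of_hasDerivAt_of_nonneg' hd hn ht]
  simp

theorem int_ind :
    IntegrableOn (fun s : ℝ => (Ioi (1 : ℝ)).indicator (fun s => ((1 + s) ^ 2)⁻¹) s) (Ioi 0) ∧
      ∫ s in Ioi (0 : ℝ), (Ioi (1 : ℝ)).indicator (fun s => ((1 + s) ^ 2)⁻¹) s = 1 / 2 := by
  refine ⟨(int_sq le_rfl).1.indicator measurableSet_Ioi, ?_⟩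
  rw [setIntegral_indicator measurableSet_Ioi, Ioi_inter_Ioi, max_eq_right zero_le_one,
    (int_sq zero_le_one).2]
  norm_num

end integrals

end Fisher

open Fisher in
theorem fisherStmt : FisherStmt := by
  intro A _ sp n X S ξ σ gain hX hS hξ hσ hg hSD hgain
  have hY : ∀ s c, IsSelfAdjoint (heatTuple X S s c) := fun s c =>
    (hX c).add (IsSelfAdjoint.smul (by simp [IsSelfAdjoint]) (hS c))
  set ind : ℝ → ℝ := (Ioi (1 : ℝ)).indicator fun s => ((1 + s) ^ 2)⁻¹ with hind
  have hv : ∀ s : ℝ, 0 < s → ∀ c, 0 < σ c ^ 2 + s := fun s hs c => by positivity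
  have hv1 : ∀ (s : ℝ) c, σ c ^ 2 + s ≤ 1 + s := fun s c => by nlinarith [(hσ c).1, (hσ c).2]
  have hup : ∀ s : ℝ, 0 < s → ∀ c (P : NCPoly n), polyStar P = P →
      (2 * splitPairing sp.τ (heatTuple X S s) c P -
        sp.τ (polyEval (heatTuple X S s) P * polyEval (heatTuple X S s) P)).re ≤
        (σ c ^ 2 + s)⁻¹ - gain c * ind s := by
    intro s hs c P hP
    rw [term_eq sp (hSD s hs) (hY s) hξ c (hv s hs c) hP]
    refine sub_le_sub_left ?_ _
    by_cases h1 : s ∈ Ioi (1 : ℝ)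
    · rw [hind, indicator_of_mem h1, ← div_eq_mul_inv]
      have h2 := hgain s (le_of_lt h1) c (gen c 1 - ((σ c ^ 2 + s : ℝ) : ℂ) • P)
      have h3 := hv s hs c
      have h4 := hv1 s c
      have h5 := hg c
      gcongr
    · rw [hind, indicator_of_notMem h1, mul_zero]; positivity
  set u : ℝ → ℝ := fun s => ∑ c, ((σ c ^ 2 + s)⁻¹ - gain c * ind s) with hu
  have hu0 : ∀ s : ℝ, 0 < s → 0 ≤ u s := fun s hs => Finset.sum_nonneg fun c _ => by
    have := hup s hs c 0 polyStar_zero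
    simpa [splitPairing, polyEval] using this
  have hle : ∀ s : ℝ, 0 < s → freeFisher sp.τ (heatTuple X S s) ≤ ENNReal.ofReal (u s) :=
    fun s hs => (fisher_eq _ _).trans_le <| iSup₂_le fun P hP => ENNReal.ofReal_le_ofReal
      (Finset.sum_le_sum fun c _ => hup s hs c (P c) (hP c))
  have hfin : ∀ s : ℝ, 0 < s → freeFisher sp.τ (heatTuple X S s) < ⊤ := fun s hs =>
    (hle s hs).trans_lt ENNReal.ofReal_lt_top
  set C : ℝ := ∑ c, (sp.τ (sp.πA (ξ c) * sp.πA (ξ c))).re with hC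
  have hlow : ∀ s : ℝ, 0 < s → (n : ℝ) / (1 + s) - (freeFisher sp.τ (heatTuple X S s)).toReal ≤
      C * ((1 + s) ^ 2)⁻¹ := by
    intro s hs
    have h1 : ENNReal.ofReal (∑ i, (2 * splitPairing sp.τ (heatTuple X S s) i (gen i (1 + s)⁻¹) -
        sp.τ (polyEval (heatTuple X S s) (gen i (1 + s)⁻¹) *
          polyEval (heatTuple X S s) (gen i (1 + s)⁻¹))).re) ≤ freeFisher sp.τ (heatTuple X S s) :=
      le_of_le_of_eq (le_iSup₂_of_le
        (f := fun (P : Fin n → NCPoly n) (_ : ∀ i, polyStar (P i) = P i) =>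
        ENNReal.ofReal (∑ i, (2 * splitPairing sp.τ (heatTuple X S s) i (P i) -
          sp.τ (polyEval (heatTuple X S s) (P i) * polyEval (heatTuple X S s) (P i))).re))
        (fun i => gen i (1 + s)⁻¹) (fun i => polyStar_gen i _) le_rfl) (fisher_eq _ _).symm
    rw [ENNReal.ofReal_le_iff_le_toReal (hfin s hs).ne] at h1
    simp only [term_gen sp (hSD s hs) _ (hv s hs _)] at h1
    have h2 : ∑ i : Fin n, ((1 + s)⁻¹ - (sp.τ (sp.πA (ξ i) * sp.πA (ξ i))).re * ((1 + s) ^ 2)⁻¹) ≤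
        ∑ i : Fin n, (2 * (1 + s)⁻¹ - (1 + s)⁻¹ ^ 2 *
          (σ i ^ 2 + s + (sp.τ (sp.πA (ξ i) * sp.πA (ξ i))).re)) := by
      refine Finset.sum_le_sum fun i _ => ?_
      have h3 : (1 + s)⁻¹ ^ 2 * (σ i ^ 2 + s) ≤ (1 + s)⁻¹ ^ 2 * (1 + s) := by
        have := hv1 s i
        gcongr
      have h4 : (1 + s)⁻¹ ^ 2 * (1 + s) = (1 + s)⁻¹ := by field_simp
      rw [← inv_pow]
      nlinarith
    rw [Finset.sum_sub_distrib, ← Finset.sum_mul, ← hC] at h2
    simp only [Finset.sum_const, Finset.card_univ, Fintype.card_fin, nsmul_eq_mul] at h2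
    rw [div_eq_mul_inv]
    linarith
  set g : ℝ → ℝ := fun s => ∑ c, (((1 + s)⁻¹ - (σ c ^ 2 + s)⁻¹) + gain c * ind s) with hgdef
  have hge : ∀ s : ℝ, 0 < s →
      g s ≤ (n : ℝ) / (1 + s) - (freeFisher sp.τ (heatTuple X S s)).toReal := by
    intro s hs
    have h1 := ENNReal.toReal_le_of_le_ofReal (hu0 s hs) (hle s hs)
    have h2 : g s = (n : ℝ) / (1 + s) - u s := by
      simp only [hgdef, hu, Finset.sum_add_distrib, Finset.sum_sub_distrib, Finset.sum_const,
        Finset.card_univ, Fintype.card_fin, nsmul_eq_mul, div_eq_mul_inv]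
      ring
    linarith
  have hσ2 : ∀ c, 0 < σ c ^ 2 ∧ σ c ^ 2 ≤ 1 := fun c =>
    ⟨pow_pos (hσ c).1 2, pow_le_one₀ (hσ c).1.le (hσ c).2⟩
  have hgc : ∀ c, IntegrableOn (fun s => ((1 + s)⁻¹ - (σ c ^ 2 + s)⁻¹) + gain c * ind s) (Ioi 0) :=
    fun c => (int_log (hσ2 c).1 (hσ2 c).2).1.add (int_ind.1.const_mul _)
  have hgi : IntegrableOn g (Ioi 0) := integrable_finsetSum _ fun c _ => hgc c
  have hgv : ∫ s in Ioi (0 : ℝ), g s = ∑ c, (Real.log (σ c ^ 2) + gain c / 2) := by
    rw [hgdef, integral_finsetSum _ fun c _ => hgc c]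
    refine Finset.sum_congr rfl fun c _ => ?_
    rw [integral_add (int_log (hσ2 c).1 (hσ2 c).2).1 (int_ind.1.const_mul _),
      (int_log (hσ2 c).1 (hσ2 c).2).2, integral_const_mul, int_ind.2]
    ring
  have hmeas : Measurable fun s : ℝ =>
      (n : ℝ) / (1 + s) - (freeFisher sp.τ (heatTuple X S s)).toReal := by
    refine Measurable.sub (by fun_prop) (measurable_fisher sp fun i => ?_).ennreal_toReal
    unfold heatTuple
    fun_prop
  have hint : IntegrableOn
      (fun s : ℝ => (n : ℝ) / (1 + s) - (freeFisher sp.τ (heatTuple X S s)).toReal) (Ioi 0) :=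
    integrable_of_le_of_le hmeas.aestronglyMeasurable
      ((ae_restrict_mem measurableSet_Ioi).mono fun s hs => hge s hs)
      ((ae_restrict_mem measurableSet_Ioi).mono fun s hs => hlow s hs) hgi
      ((int_sq le_rfl).1.const_mul C)
  refine ⟨hfin, hint, ?_⟩
  have := setIntegral_mono_on hgi hint measurableSet_Ioi fun s hs => hge s hs
  unfold chiStar
  rw [← hgv]
  linarith

end Crest.Agent.R89
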