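import Crest.Agent.R89.Basic

/-! Row 89: the Fock space model (`fock0`). -/

set_option autoImplicit false

namespace Crest.Agent.R89

open Crest.OpAlg
open scoped Classical InnerProductSpace

namespace Fock

section L2
variable {Ω : Type}

/-- The Hilbert space with basis `Ω`. -/
abbrev L2 (Ω : Type) : Type := lp (fun _ : Ω => ℂ) 2

/-- The standard basis. -/
noncomputable def bas (Ω : Type) : HilbertBasis Ω ℂ (L2 Ω) := default

/-- The isometry of an injective map. -/
noncomputable def iso (f : Ω → Ω) (hf : Function.Injective f) : L2 Ω →L[ℂ] L2 Ω :=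
  ((bas Ω).orthonormal.comp f hf).orthogonalFamily.linearIsometry.toContinuousLinearMap ∘L
    (bas Ω).repr.toContinuousLinearEquiv.toContinuousLinearMap

lemma iso_bas (f : Ω → Ω) (hf : Function.Injective f) (j : Ω) :
    iso f hf (bas Ω j) = bas Ω (f j) := by
  change ((bas Ω).orthonormal.comp f hf).orthogonalFamily.linearIsometry
    ((bas Ω).repr (bas Ω j)) = _
  rw [(bas Ω).repr_self, OrthogonalFamily.linearIsometry_apply_single]
  simp

lemma norm_iso_le (f : Ω → Ω) (hf : Function.Injective f) : ‖iso f hf‖ ≤ 1 := by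
  refine ContinuousLinearMap.opNorm_le_bound _ zero_le_one fun x => ?_
  change ‖((bas Ω).orthonormal.comp f hf).orthogonalFamily.linearIsometry
    ((bas Ω).repr x)‖ ≤ _
  rw [LinearIsometry.norm_map, LinearIsometryEquiv.norm_map, one_mul]

lemma ext_bas {S T : L2 Ω →L[ℂ] L2 Ω} (h : ∀ k, S (bas Ω k) = T (bas Ω k)) : S = T := by
  refine ContinuousLinearMap.ext_on (s := Set.range (bas Ω))
    (Submodule.dense_iff_topologicalClosure_eq_top.mpr (bas Ω).dense_span) ?_
  rintro _ ⟨k, rfl⟩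
  exact h k

lemma inner_bas (i j : Ω) : ⟪bas Ω i, bas Ω j⟫_ℂ = if i = j then 1 else 0 :=
  orthonormal_iff_ite.mp (bas Ω).orthonormal i j

lemma eq_of_inner {x y : L2 Ω} (h : ∀ j, ⟪bas Ω j, x⟫_ℂ = ⟪bas Ω j, y⟫_ℂ) : x = y :=
  (bas Ω).repr.injective (lp.ext (funext fun j => by
    rw [(bas Ω).repr_apply_apply, (bas Ω).repr_apply_apply, h]))

lemma inner_star_left (T : L2 Ω →L[ℂ] L2 Ω) (ξ η : L2 Ω) : ⟪star T ξ, η⟫_ℂ = ⟪ξ, T η⟫_ℂ := by
  rw [ContinuousLinearMap.star_eq_adjoint, ContinuousLinearMap.adjoint_inner_left]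

lemma inner_star_right (T : L2 Ω →L[ℂ] L2 Ω) (ξ η : L2 Ω) : ⟪ξ, star T η⟫_ℂ = ⟪T ξ, η⟫_ℂ := by
  rw [ContinuousLinearMap.star_eq_adjoint, ContinuousLinearMap.adjoint_inner_right]

lemma star_iso_bas (f : Ω → Ω) (hf : Function.Injective f) (j : Ω) :
    star (iso f hf) (bas Ω (f j)) = bas Ω j :=
  eq_of_inner fun i => by rw [inner_star_right, iso_bas, inner_bas, inner_bas, hf.eq_iff]

lemma star_iso_zero (f : Ω → Ω) (hf : Function.Injective f) {j : Ω} (h : ∀ i, f i ≠ j) :
    star (iso f hf) (bas Ω j) = 0 :=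
  eq_of_inner fun i => by rw [inner_star_right, iso_bas, inner_bas, if_neg (h i), inner_zero_right]

lemma star_iso_inv (f f' : Ω → Ω) (hf : Function.Injective f) (hf' : Function.Injective f')
    (h : ∀ j, f (f' j) = j) : star (iso f hf) = iso f' hf' :=
  ext_bas fun j => by
    conv_lhs => rw [← h j]
    rw [star_iso_bas, iso_bas]

lemma commute_iso (f f' : Ω → Ω) (hf : Function.Injective f) (hf' : Function.Injective f')
    (h : ∀ j, f (f' j) = f' (f j)) : Commute (iso f hf) (iso f' hf') :=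
  ext_bas fun j => by simp only [mul_apply_eq_comp, iso_bas, h]

end L2

/-- Alternating words `g₀ k₁ g₁ ⋯ k_j g_j`. -/
inductive W (κ : Type) : Type
  | nil (g : Γ) : W κ
  | cons (g : Γ) (k : κ) (w : W κ) : W κ

namespace W
variable {κ : Type}

/-- left multiplication by a group element -/
def lg (g : Γ) : W κ → W κ
  | nil h => nil (g * h)
  | cons h k w => cons (g * h) k w

/-- right multiplication by a group element -/
def rg (g : Γ) : W κ → W κ
  | nil h => nil (h * g)
  | cons h k w => cons h k (rg g w)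

/-- right multiplication by a letter -/
def rk (c : κ) : W κ → W κ
  | nil h => cons h c (nil 1)
  | cons h k w => cons h k (rk c w)

lemma lg_lg (g h : Γ) (w : W κ) : lg g (lg h w) = lg (g * h) w := by
  cases w <;> simp [lg, mul_assoc]

lemma lg_one (w : W κ) : lg 1 w = w := by cases w <;> simp [lg]

lemma rg_rg (g h : Γ) (w : W κ) : rg g (rg h w) = rg (h * g) w := by
  induction w <;> simp [rg, mul_assoc, *]

lemma rg_one (w : W κ) : rg 1 w = w := by induction w <;> simp [rg, *]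

lemma lg_inj (g : Γ) : Function.Injective (lg g : W κ → W κ) :=
  Function.LeftInverse.injective (g := lg g⁻¹) fun w => by rw [lg_lg, inv_mul_cancel, lg_one]

lemma rg_inj (g : Γ) : Function.Injective (rg g : W κ → W κ) :=
  Function.LeftInverse.injective (g := rg g⁻¹) fun w => by rw [rg_rg, mul_inv_cancel, rg_one]

lemma lk_inj (k : κ) : Function.Injective (cons 1 k : W κ → W κ) := fun _ _ h => by
  simpa using h

lemma rk_ne (c : κ) (w : W κ) (g : Γ) : rk c w ≠ nil g := by cases w <;> simp [rk]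

lemma rk_inj (c : κ) : Function.Injective (rk c : W κ → W κ) := fun w => by
  induction w with
  | nil g =>
    rintro (h | ⟨h, k, w⟩) e
    · simpa [rk] using e
    · simp only [rk, cons.injEq] at e
      exact absurd e.2.2.symm (rk_ne _ _ _)
  | cons g k w ih =>
    rintro (h | ⟨h, k', w'⟩) e
    · simp only [rk, cons.injEq] at e
      exact absurd e.2.2 (rk_ne _ _ _)
    · simp only [rk, cons.injEq] at e
      rw [e.1, e.2.1, ih e.2.2]

end W

open W

variable {κ : Type}

/-- operators on the Fock space -/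
abbrev Op (κ : Type) : Type := L2 (W κ) →L[ℂ] L2 (W κ)

/-- the vacuum -/
noncomputable def vac (κ : Type) : L2 (W κ) := bas (W κ) (nil 1)
/-- left group action -/
noncomputable def pl (g : Γ) : Op κ := iso (lg g) (lg_inj g)
/-- right group action -/
noncomputable def pr (g : Γ) : Op κ := iso (rg g) (rg_inj g)
/-- left creation -/
noncomputable def cl (k : κ) : Op κ := iso (cons 1 k) (lk_inj k)
/-- right creation -/
noncomputable def cr (k : κ) : Op κ := iso (rk k) (rk_inj k)
/-- left semicircular -/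
noncomputable def sl (k : κ) : Op κ := cl k + star (cl k)
/-- right semicircular -/
noncomputable def sr (k : κ) : Op κ := cr k + star (cr k)
/-- vacuum projection -/
noncomputable def P (κ : Type) : Op κ := InnerProductSpace.rankOne ℂ (vac κ) (vac κ)

lemma star_pl (g : Γ) : star (pl g : Op κ) = pl g⁻¹ :=
  star_iso_inv _ _ _ _ fun w => by rw [lg_lg, mul_inv_cancel, lg_one]

lemma star_pr (g : Γ) : star (pr g : Op κ) = pr g⁻¹ :=
  star_iso_inv _ _ _ _ fun w => by rw [rg_rg, inv_mul_cancel, rg_one]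

lemma star_sl (k : κ) : star (sl k) = sl k := by rw [sl, star_add, star_star, add_comm]
lemma star_sr (k : κ) : star (sr k) = sr k := by rw [sr, star_add, star_star, add_comm]

lemma P_apply (x : L2 (W κ)) : P κ x = ⟪vac κ, x⟫_ℂ • vac κ := rfl

lemma star_P : star (P κ) = P κ := by
  ext1 x
  refine ext_inner_left ℂ fun y => ?_
  rw [inner_star_right, P_apply, P_apply, inner_smul_left, inner_smul_right, inner_conj_symm,
    mul_comm]

lemma pl_one : (pl 1 : Op κ) = 1 := ext_bas fun w => by rw [pl, iso_bas, lg_one]; rfl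

lemma pl_mul (g h : Γ) : (pl (g * h) : Op κ) = pl g * pl h := ext_bas fun w => by
  simp only [pl, mul_apply_eq_comp, iso_bas, lg_lg]

lemma pl_pr (g h : Γ) : Commute (pl g : Op κ) (pr h) :=
  commute_iso _ _ _ _ fun w => by cases w <;> simp [lg, rg, mul_assoc]

lemma pl_cr (g : Γ) (k : κ) : Commute (pl g) (cr k) :=
  commute_iso _ _ _ _ fun w => by cases w <;> simp [lg, rk]

lemma cl_pr (k : κ) (g : Γ) : Commute (cl k) (pr g) :=
  commute_iso _ _ _ _ fun _ => rfl

lemma cl_cr (k c : κ) : Commute (cl k) (cr c) :=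
  commute_iso _ _ _ _ fun _ => rfl

lemma pl_star_cr (g : Γ) (k : κ) : Commute (pl g) (star (cr k)) := by
  simpa [star_pl] using (pl_cr g⁻¹ k).star_star

lemma star_cl_pr (k : κ) (g : Γ) : Commute (star (cl k)) (pr g) := by
  simpa [star_pr] using (cl_pr k g⁻¹).star_star

lemma star_cl_nil (k : κ) (g : Γ) : star (cl k) (bas (W κ) (nil g)) = 0 :=
  star_iso_zero _ _ fun _ => by simp

lemma star_cl_cons (k c : κ) (g : Γ) (w : W κ) :
    star (cl k) (bas (W κ) (cons g c w)) = if g = 1 ∧ c = k then bas (W κ) w else 0 := by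
  split_ifs with h
  · rw [h.1, h.2]; exact star_iso_bas _ _ _
  · refine star_iso_zero _ _ fun i hi => h ?_
    simp only [cons.injEq] at hi
    exact ⟨hi.1.symm, hi.2.1.symm⟩

lemma star_cr_vac (k : κ) : star (cr k) (vac κ) = 0 :=
  star_iso_zero _ _ fun _ => rk_ne _ _ _

lemma star_cl_cr (k c : κ) :
    star (cl k) * cr c = cr c * star (cl k) + if c = k then P κ else 0 := by
  refine ext_bas fun w => ?_
  rw [_root_.add_apply, mul_apply_eq_comp, mul_apply_eq_comp, cr, iso_bas]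
  cases w with
  | nil g =>
    rw [rk, star_cl_cons, star_cl_nil, map_zero, zero_add]
    by_cases h : c = k
    · rw [if_pos h, P_apply, vac, inner_bas]
      by_cases hg : g = 1
      · simp [hg, h]
      · simp [hg, Ne.symm hg]
    · simp [h]
  | cons g d w =>
    rw [rk, star_cl_cons, star_cl_cons]
    have : (if c = k then P κ else 0) (bas (W κ) (cons g d w)) = 0 := by
      split_ifs
      · rw [P_apply, vac, inner_bas]; simp
      · rfl
    rw [this, add_zero]
    split_ifs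
    · rw [iso_bas]
    · rw [map_zero]

lemma star_cr_cl (k c : κ) :
    star (cr c) * cl k = cl k * star (cr c) + if c = k then P κ else 0 := by
  have := congrArg star (star_cl_cr k c)
  rw [star_mul, star_star, star_add, star_mul, star_star] at this
  rw [this]
  split_ifs
  · rw [star_P]
  · rw [star_zero]

lemma star_cr_sl (k c : κ) :
    star (cr c) * sl k = sl k * star (cr c) + if c = k then P κ else 0 := by
  rw [sl, mul_add, add_mul, star_cr_cl, (cl_cr k c).star_star.eq]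
  abel

lemma sl_sr (k c : κ) : Commute (sl k) (sr c) := by
  change sl k * sr c = sr c * sl k
  rw [sr, add_mul, star_cr_sl, mul_add, sl, add_mul, mul_add, star_cl_cr, (cl_cr k c).eq]
  abel

lemma pl_vac (g : Γ) : pl g (vac κ) = bas (W κ) (nil g) := by
  rw [pl, vac, iso_bas, lg, mul_one]

lemma pr_vac (g : Γ) : pr g (vac κ) = bas (W κ) (nil g) := by
  rw [pr, vac, iso_bas, rg, one_mul]

lemma sl_vac (k : κ) : sl k (vac κ) = cr k (vac κ) := by
  rw [sl, _root_.add_apply, vac, star_cl_nil, add_zero, cl, cr, iso_bas, iso_bas, rk]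

lemma sr_vac (k : κ) : sr k (vac κ) = cr k (vac κ) := by
  rw [sr, _root_.add_apply, star_cr_vac, add_zero]

/-- the generators -/
def gens (κ : Type) : Set (Op κ) := Set.range pl ∪ Set.range sl

/-- the C⋆-algebra -/
noncomputable def alg (κ : Type) : StarSubalgebra ℂ (Op κ) :=
  (StarAlgebra.adjoin ℂ (gens κ)).topologicalClosure

instance : IsClosed (alg κ : Set (Op κ)) := StarSubalgebra.isClosed_topologicalClosure _

lemma star_gens {x : Op κ} (hx : x ∈ gens κ) : star x ∈ gens κ := by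
  rcases hx with ⟨g, rfl⟩ | ⟨k, rfl⟩
  · exact Or.inl ⟨_, (star_pl g).symm⟩
  · exact Or.inr ⟨_, (star_sl k).symm⟩

lemma comm_of_gens {y : Op κ} (hy : ∀ x ∈ gens κ, x * y = y * x) :
    ∀ a ∈ alg κ, a * y = y * a := by
  have h1 : ∀ a ∈ StarAlgebra.adjoin ℂ (gens κ), a * y = y * a ∧ star a * y = y * star a := by
    intro a ha
    induction ha using StarAlgebra.adjoin_induction with
    | mem x hx => exact ⟨hy x hx, hy _ (star_gens hx)⟩
    | algebraMap r =>
      exact ⟨Algebra.commutes r y, by rw [← algebraMap_star_comm]; exact Algebra.commutes _ y⟩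
    | add a b _ _ ha hb =>
      exact ⟨by rw [add_mul, mul_add, ha.1, hb.1], by rw [star_add, add_mul, mul_add, ha.2, hb.2]⟩
    | mul a b _ _ ha hb =>
      exact ⟨by rw [mul_assoc, hb.1, ← mul_assoc, ha.1, mul_assoc],
        by rw [star_mul, mul_assoc, ha.2, ← mul_assoc, hb.2, mul_assoc]⟩
    | star a _ ha => exact ⟨ha.2, by rw [star_star]; exact ha.1⟩
  intro a ha
  exact closure_minimal (s := (StarAlgebra.adjoin ℂ (gens κ) : Set (Op κ)))
    (t := {a | a * y = y * a}) (fun a ha => (h1 a ha).1)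
    (isClosed_eq (by fun_prop) (by fun_prop)) ha

lemma mem_alg {a : Op κ} (ha : a ∈ StarAlgebra.adjoin ℂ (gens κ)) : a ∈ alg κ :=
  StarSubalgebra.le_topologicalClosure _ ha

/-- every polynomial has a partner in the commutant -/
lemma exists_op {b : Op κ} (hb : b ∈ StarAlgebra.adjoin ℂ (gens κ)) :
    ∃ b' : Op κ, (∀ a ∈ alg κ, a * b' = b' * a) ∧ b (vac κ) = b' (vac κ) ∧
      star b (vac κ) = star b' (vac κ) := by
  have hs : ∀ b' : Op κ, (∀ a ∈ alg κ, a * b' = b' * a) →
      ∀ a ∈ alg κ, a * star b' = star b' * a := fun b' h a ha => by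
    simpa using congrArg star (h _ (star_mem ha)).symm
  induction hb using StarAlgebra.adjoin_induction with
  | mem x hx =>
    rcases hx with ⟨g, rfl⟩ | ⟨k, rfl⟩
    · refine ⟨pr g, comm_of_gens ?_, by rw [pl_vac, pr_vac], by
        rw [star_pl, star_pr, pl_vac, pr_vac]⟩
      rintro _ (⟨h, rfl⟩ | ⟨c, rfl⟩)
      · exact pl_pr h g
      · exact (cl_pr c g).add_left (star_cl_pr c g)
    · refine ⟨sr k, comm_of_gens ?_, by rw [sl_vac, sr_vac], by
        rw [star_sl, star_sr, sl_vac, sr_vac]⟩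
      rintro _ (⟨h, rfl⟩ | ⟨c, rfl⟩)
      · exact (pl_cr h k).add_right (pl_star_cr h k)
      · exact sl_sr c k
  | algebraMap r => exact ⟨_, fun a _ => (Algebra.commutes r a).symm, rfl, rfl⟩
  | add a b _ _ ha hb =>
    obtain ⟨a', ha1, ha2, ha3⟩ := ha
    obtain ⟨b', hb1, hb2, hb3⟩ := hb
    refine ⟨a' + b', fun x hx => by rw [add_mul, mul_add, ha1 x hx, hb1 x hx], ?_, ?_⟩
    · rw [_root_.add_apply, _root_.add_apply, ha2, hb2]
    · rw [star_add, star_add, _root_.add_apply, _root_.add_apply, ha3, hb3]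
  | mul a b ha0 hb0 ha hb =>
    obtain ⟨a', ha1, ha2, ha3⟩ := ha
    obtain ⟨b', hb1, hb2, hb3⟩ := hb
    refine ⟨b' * a', fun x hx => by
      rw [← mul_assoc, hb1 x hx, mul_assoc, ha1 x hx, mul_assoc], ?_, ?_⟩
    · rw [mul_apply_eq_comp, hb2, ← mul_apply_eq_comp, hb1 a (mem_alg ha0), mul_apply_eq_comp,
        ha2, mul_apply_eq_comp]
    · rw [star_mul, star_mul, mul_apply_eq_comp, ha3, ← mul_apply_eq_comp,
        hs a' ha1 _ (star_mem (mem_alg hb0)), mul_apply_eq_comp, hb3, mul_apply_eq_comp]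
  | star a _ ha =>
    obtain ⟨a', ha1, ha2, ha3⟩ := ha
    exact ⟨star a', hs a' ha1, ha3, by rw [star_star, star_star, ha2]⟩

lemma trace {a b : Op κ} (ha : a ∈ alg κ) (hb : b ∈ alg κ) :
    ⟪vac κ, (a * b) (vac κ)⟫_ℂ = ⟪vac κ, (b * a) (vac κ)⟫_ℂ := by
  refine closure_minimal (s := (StarAlgebra.adjoin ℂ (gens κ) : Set (Op κ)))
    (t := {b | ⟪vac κ, (a * b) (vac κ)⟫_ℂ = ⟪vac κ, (b * a) (vac κ)⟫_ℂ}) (fun b hb => ?_)
    (isClosed_eq (by fun_prop) (by fun_prop)) hb
  obtain ⟨b', h1, h2, h3⟩ := exists_op hb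
  change ⟪vac κ, a (b (vac κ))⟫_ℂ = ⟪vac κ, b (a (vac κ))⟫_ℂ
  rw [h2, ← mul_apply_eq_comp, h1 a ha, mul_apply_eq_comp, ← inner_star_left b',
    ← inner_star_left b, h3]

lemma cyclic (w : W κ) : (∃ b ∈ StarAlgebra.adjoin ℂ (gens κ), b (vac κ) = bas (W κ) w) ∧
    ∀ k, ∃ b ∈ StarAlgebra.adjoin ℂ (gens κ), b (vac κ) = star (cl k) (bas (W κ) w) := by
  have hp : ∀ g, pl g ∈ StarAlgebra.adjoin ℂ (gens κ) := fun g =>
    StarAlgebra.subset_adjoin ℂ _ (Or.inl ⟨g, rfl⟩)
  induction w with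
  | nil g => exact ⟨⟨pl g, hp g, pl_vac g⟩, fun k => ⟨0, zero_mem _, by rw [star_cl_nil]; rfl⟩⟩
  | cons g c w ih =>
    obtain ⟨⟨b, hb, hb'⟩, h2⟩ := ih
    obtain ⟨d, hd, hd'⟩ := h2 c
    refine ⟨⟨pl g * (sl c * b - d), mul_mem (hp g) (sub_mem (mul_mem
      (StarAlgebra.subset_adjoin ℂ _ (Or.inr ⟨c, rfl⟩)) hb) hd), ?_⟩, fun k => ?_⟩
    · rw [mul_apply_eq_comp, _root_.sub_apply, mul_apply_eq_comp, hb', hd', sl, _root_.add_apply,
        add_sub_cancel_right, cl, iso_bas, pl, iso_bas, lg, mul_one]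
    · rw [star_cl_cons]
      split_ifs
      · exact ⟨b, hb, hb'⟩
      · exact ⟨0, zero_mem _, rfl⟩

lemma faithful {a : Op κ} (ha : a ∈ alg κ) (h : a (vac κ) = 0) : a = 0 := by
  refine ext_bas fun w => ?_
  obtain ⟨b, hb, hb'⟩ := (cyclic w).1
  obtain ⟨b', h1, h2, -⟩ := exists_op hb
  rw [← hb', h2, ← mul_apply_eq_comp, h1 a ha, mul_apply_eq_comp, h, map_zero]
  rfl

/-- evaluation of words -/
noncomputable def ev (Q : List (Γ ⊕ κ)) : Op κ := (Q.map (Sum.elim pl sl)).prod

lemma sd (k : κ) (Q : List (Γ ⊕ κ)) (η : L2 (W κ)) :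
    ⟪η, star (cr k) (ev Q (vac κ))⟫_ℂ = split (Sum.inr k) (fun R => ⟪η, ev R (vac κ)⟫_ℂ)
      (fun R => ⟪vac κ, ev R (vac κ)⟫_ℂ) Q := by
  induction Q generalizing η with
  | nil => simp [ev, star_cr_vac]
  | cons l Q ih =>
    have h : ∀ R, ev (l :: R) = Sum.elim pl sl l * ev R := fun R => by simp [ev]
    have h0 : ev ([] : List (Γ ⊕ κ)) (vac κ) = vac κ := rfl
    simp only [split_cons, h, mul_apply_eq_comp, ← inner_star_left (Sum.elim pl sl l), h0]
    rw [← ih, inner_star_left (Sum.elim pl sl l), ← mul_apply_eq_comp (star (cr k))]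
    cases l with
    | inl g =>
      rw [Sum.elim_inl, ← (pl_star_cr g k).eq, mul_apply_eq_comp]
      simp
    | inr c =>
      rw [Sum.elim_inr, star_cr_sl, _root_.add_apply, inner_add_right, mul_apply_eq_comp, add_comm]
      congr 1
      by_cases hc : k = c
      · rw [if_pos hc, if_pos (by rw [hc]), P_apply, inner_smul_right, smul_eq_mul, mul_comm]
      · rw [if_neg hc, if_neg (by simpa using Ne.symm hc)]
        simp

lemma pl_mem (g : Γ) : pl g ∈ alg κ := mem_alg (StarAlgebra.subset_adjoin ℂ _ (Or.inl ⟨g, rfl⟩))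
lemma sl_mem (k : κ) : sl k ∈ alg κ := mem_alg (StarAlgebra.subset_adjoin ℂ _ (Or.inr ⟨k, rfl⟩))

lemma inner_vac : ⟪vac κ, vac κ⟫_ℂ = 1 := by rw [vac, inner_bas, if_pos rfl]

/-- the tracial probability space -/
noncomputable def sp (κ : Type) : Sp (alg κ) where
  τ :=
    { toFun := fun a => ⟪vac κ, (a : Op κ) (vac κ)⟫_ℂ
      map_add' := fun a b => by simp
      map_smul' := fun c a => by simp }
  hτ := by
    have h : ∀ a : alg κ, ⟪vac κ, ((star a * a : alg κ) : Op κ) (vac κ)⟫_ℂ =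
        ((‖(a : Op κ) (vac κ)‖ ^ 2 : ℝ) : ℂ) := fun a => by
      change ⟪vac κ, star (a : Op κ) ((a : Op κ) (vac κ))⟫_ℂ = _
      rw [inner_star_right, inner_self_eq_norm_sq_to_K]
      simp
    refine ⟨inner_vac, fun a => ?_, fun a ha => ?_, fun a b => trace a.2 b.2⟩
    · change (⟪vac κ, _⟫_ℂ).im = 0 ∧ 0 ≤ (⟪vac κ, _⟫_ℂ).re
      rw [h, Complex.ofReal_im, Complex.ofReal_re]
      exact ⟨rfl, by positivity⟩
    · change ⟪vac κ, _⟫_ℂ = 0 at ha
      rw [h] at ha
      exact Subtype.ext (faithful a.2 (by simpa using ha))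
  π :=
    { toFun := fun g => ⟨pl g, pl_mem g⟩
      map_one' := Subtype.ext pl_one
      map_mul' := fun g h => Subtype.ext (pl_mul g h) }
  star_π := fun g => Subtype.ext (star_pl g)
  τ_π := fun g => by
    change ⟪vac κ, pl g (vac κ)⟫_ℂ = _
    rw [pl_vac, vac, inner_bas]
    simp [eq_comm]

lemma coe_ev (Q : List (Γ ⊕ κ)) :
    (((sp κ).ev (fun k => (⟨sl k, sl_mem k⟩ : alg κ)) Q : alg κ) : Op κ) = ev Q := by
  induction Q with
  | nil => rfl
  | cons l Q ih =>
    have h : ev (l :: Q) = Sum.elim pl sl l * ev Q := by simp [ev]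
    cases l with
    | inl g => rw [Sp.ev_inl, h, ← ih]; rfl
    | inr c => rw [Sp.ev_inr, h, ← ih]; rfl

end Fock

open Fock in
theorem fock0 : Fock0Stmt := by
  intro n
  refine ⟨alg (Fin n ⊕ Fin n), inferInstance, sp _, fun k => ⟨sl k, sl_mem k⟩,
    fun k => ⟨Subtype.ext (star_sl k), ?_⟩, fun c Q => ?_⟩
  · change ‖sl k‖ ≤ 2
    have h1 : ‖cl k‖ ≤ 1 := norm_iso_le _ _
    have h2 := norm_add_le (cl k) (star (cl k))
    have h3 : ‖star (cl k)‖ = ‖cl k‖ := norm_star (E := Op _) _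
    unfold sl
    linarith
  · have h : ∀ a : alg (Fin n ⊕ Fin n), (sp _).τ a =
        ⟪vac (Fin n ⊕ Fin n), (a : Op (Fin n ⊕ Fin n)) (vac _)⟫_ℂ := fun _ => rfl
    simp only [map_zero, sub_zero, Complex.ofReal_one, one_mul, h, coe_ev]
    rw [← sd, inner_star_right, ← sl_vac, ← inner_star_right, star_sl, ← coe_ev]
    rfl

end Crest.Agent.R89
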