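import Crest.Agent.R89.Basic

/-!
Row 89: freeness from the Schwinger-Dyson equations.

We record free difference quotients as bilinear forms `Φ x y = (τ ⊗ τ) ((x ⊗ 1) ∂a (1 ⊗ y))` and use
the Chebyshev polynomials `U n` of a semicircular variable, for which `τ (U (n+1) b) = Φ_b (U n) 1`.
-/

set_option autoImplicit false
set_option linter.unusedSectionVars false

namespace Crest.Agent.R89

open Crest.OpAlg
open scoped Classical

namespace FreeAux

variable {A : Type} [CStarAlgebra A] (sp : Sp A) {κ : Type} (s : κ → A) (k : κ)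

/-- The difference quotient of a word, as a bilinear form. -/
noncomputable def Φw (Q : List (Γ ⊕ κ)) : A →ₗ[ℂ] A →ₗ[ℂ] ℂ :=
  LinearMap.mk₂ ℂ (fun x y => split (Sum.inr k) (fun P => sp.τ (x * sp.ev s P))
      (fun P => sp.τ (sp.ev s P * y)) Q)
    (fun x x' y => by simp only [add_mul, map_add, split_add_left])
    (fun c x y => by
      rw [← split_smul_left]; simp only [smul_mul_assoc, map_smul, smul_eq_mul])
    (fun x y y' => by simp only [mul_add, map_add, split_add_right])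
    (fun c x y => by
      rw [← split_smul_right]; simp only [mul_smul_comm, map_smul])

theorem Φw_apply (Q : List (Γ ⊕ κ)) (x y : A) :
    Φw sp s k Q x y = split (Sum.inr k) (fun P => sp.τ (x * sp.ev s P))
      (fun P => sp.τ (sp.ev s P * y)) Q := rfl

/-- `Φ` is a difference quotient of `a`. -/
inductive Der : A → (A →ₗ[ℂ] A →ₗ[ℂ] ℂ) → Prop
  | word (Q : List (Γ ⊕ κ)) : Der (sp.ev s Q) (Φw sp s k Q)
  | add {a b : A} {Φ Ψ : A →ₗ[ℂ] A →ₗ[ℂ] ℂ} : Der a Φ → Der b Ψ → Der (a + b) (Φ + Ψ)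
  | smul (c : ℂ) {a : A} {Φ : A →ₗ[ℂ] A →ₗ[ℂ] ℂ} : Der a Φ → Der (c • a) (c • Φ)

/-- The Leibniz rule. -/
noncomputable def Lb (a b : A) (Φ Ψ : A →ₗ[ℂ] A →ₗ[ℂ] ℂ) : A →ₗ[ℂ] A →ₗ[ℂ] ℂ :=
  Φ.compl₂ (LinearMap.mulLeft ℂ b) + Ψ ∘ₗ LinearMap.mulRight ℂ a

theorem Lb_apply (a b : A) (Φ Ψ : A →ₗ[ℂ] A →ₗ[ℂ] ℂ) (x y : A) :
    Lb a b Φ Ψ x y = Φ x (b * y) + Ψ (x * a) y := rfl

variable {sp s k}

theorem Der.congr {a b : A} {Φ Ψ : A →ₗ[ℂ] A →ₗ[ℂ] ℂ} (h : Der sp s k a Φ) (hab : a = b)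
    (hΦ : ∀ x y, Φ x y = Ψ x y) : Der sp s k b Ψ := by
  obtain rfl : Φ = Ψ := LinearMap.ext₂ hΦ
  exact hab ▸ h

theorem Der.mul {a b : A} {Φ Ψ : A →ₗ[ℂ] A →ₗ[ℂ] ℂ} (ha : Der sp s k a Φ) (hb : Der sp s k b Ψ) :
    Der sp s k (a * b) (Lb a b Φ Ψ) := by
  induction ha with
  | word P =>
    induction hb with
    | word Q =>
      refine (Der.word (P ++ Q)).congr (sp.ev_append s P Q) fun x y => ?_
      simp only [Lb_apply, Φw_apply, split_append, sp.ev_append, mul_assoc]
    | add _ _ h1 h2 =>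
      refine (h1.add h2).congr (mul_add _ _ _).symm fun x y => ?_
      simp only [Lb_apply, LinearMap.add_apply, add_mul, map_add]; ring
    | smul c _ h1 =>
      refine (h1.smul c).congr (mul_smul_comm _ _ _).symm fun x y => ?_
      simp only [Lb_apply, LinearMap.smul_apply, smul_mul_assoc, map_smul, smul_eq_mul]; ring
  | add _ _ h1 h2 =>
    refine (h1.add h2).congr (add_mul _ _ _).symm fun x y => ?_
    simp only [Lb_apply, LinearMap.add_apply, mul_add, map_add]; ring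
  | smul c _ h1 =>
    refine (h1.smul c).congr (smul_mul_assoc _ _ _).symm fun x y => ?_
    simp only [Lb_apply, LinearMap.smul_apply, mul_smul_comm, map_smul, smul_eq_mul]; ring

theorem Der.one : Der sp s k 1 0 :=
  (Der.word []).congr rfl fun x y => by simp [Φw_apply]

theorem Der.zero : Der sp s k 0 0 :=
  (Der.one.smul 0).congr (zero_smul _ _) fun x y => by simp

theorem Der.algebraMap (c : ℂ) : Der sp s k (algebraMap ℂ A c) 0 :=
  (Der.one.smul c).congr (Algebra.algebraMap_eq_smul_one c).symm fun x y => by simp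

theorem Der.π (g : Γ) : Der sp s k (sp.π g) 0 :=
  (Der.word [Sum.inl g]).congr (by simp) fun x y => by simp [Φw_apply, split_cons]

theorem Der.ne {k' : κ} (h : k' ≠ k) : Der sp s k (s k') 0 :=
  (Der.word [Sum.inr k']).congr (by simp) fun x y => by simp [Φw_apply, split_cons, h]

theorem Der.self : ∃ Φ, Der sp s k (s k) Φ ∧ ∀ x y, Φ x y = sp.τ x * sp.τ y :=
  ⟨_, (Der.word [Sum.inr k]).congr (by simp) fun _ _ => rfl, fun x y => by
    simp [Φw_apply, split_cons]⟩

theorem Der.add₀ {a b : A} (ha : Der sp s k a 0) (hb : Der sp s k b 0) : Der sp s k (a + b) 0 :=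
  (ha.add hb).congr rfl fun x y => by simp

theorem Der.smul₀ (c : ℂ) {a : A} (ha : Der sp s k a 0) : Der sp s k (c • a) 0 :=
  (ha.smul c).congr rfl fun x y => by simp

theorem Der.mul₀ {a b : A} (ha : Der sp s k a 0) (hb : Der sp s k b 0) : Der sp s k (a * b) 0 :=
  (ha.mul hb).congr rfl fun x y => by simp [Lb_apply]

theorem Der.πA (x : CG) : Der sp s k (sp.πA x) 0 := by
  rw [sp.πA_apply]
  exact Finset.sum_induction _ (fun a => Der sp s k a 0) (fun _ _ => Der.add₀) Der.zero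
    fun g _ => (Der.π g).smul₀ _

theorem Der.adjoin₀ {T : Set A} (hT : ∀ a ∈ T, Der sp s k a 0) {a : A}
    (ha : a ∈ Algebra.adjoin ℂ T) : Der sp s k a 0 := by
  induction ha using Algebra.adjoin_induction with
  | mem a h => exact hT a h
  | algebraMap c => exact Der.algebraMap c
  | add _ _ _ _ h1 h2 => exact h1.add₀ h2
  | mul _ _ _ _ h1 h2 => exact h1.mul₀ h2

theorem Der.adjoin_self {a : A} (ha : a ∈ Algebra.adjoin ℂ {s k}) :
    ∃ Φ, Der sp s k a Φ ∧
      ∀ x, (∀ q ∈ Algebra.adjoin ℂ {s k}, sp.τ (x * q) = 0) → ∀ y, Φ x y = 0 := by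
  induction ha using Algebra.adjoin_induction with
  | mem a h =>
    obtain rfl : a = s k := h
    obtain ⟨Φ, h1, h2⟩ := Der.self (sp := sp) (s := s) (k := k)
    refine ⟨Φ, h1, fun x hx y => ?_⟩
    have := hx 1 (one_mem _)
    rw [mul_one] at this
    rw [h2, this, zero_mul]
  | algebraMap c => exact ⟨0, Der.algebraMap c, fun _ _ _ => rfl⟩
  | add _ _ _ _ h1 h2 =>
    obtain ⟨Φ, h1, h1'⟩ := h1
    obtain ⟨Ψ, h2, h2'⟩ := h2
    exact ⟨_, h1.add h2, fun x hx y => by simp [h1' x hx, h2' x hx]⟩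
  | mul a b ha _ h1 h2 =>
    obtain ⟨Φ, h1, h1'⟩ := h1
    obtain ⟨Ψ, h2, h2'⟩ := h2
    refine ⟨_, h1.mul h2, fun x hx y => ?_⟩
    rw [Lb_apply, h1' x hx, h2' (x * a) (fun q hq => by rw [mul_assoc]; exact hx _ (mul_mem ha hq)),
      add_zero]

theorem Der.sd (hSD : sp.SD s (fun _ => 0) fun _ => 1) {a : A} {Φ : A →ₗ[ℂ] A →ₗ[ℂ] ℂ}
    (ha : Der sp s k a Φ) : sp.τ (s k * a) = Φ 1 1 := by
  induction ha with
  | word Q => simpa [Φw_apply] using hSD k Q
  | add _ _ h1 h2 => simp [mul_add, h1, h2]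
  | smul c _ h1 => simp [h1]

/-- Chebyshev polynomials. -/
noncomputable def U (x : A) : ℕ → A
  | 0 => 1
  | 1 => x
  | n + 2 => U x (n + 1) * x - U x n

theorem U_succ_mul (x : A) (n : ℕ) : U x (n + 1) * x = U x (n + 2) + U x n := by
  simp [U]

theorem mem_span_U (x : A) {a : A} (ha : a ∈ Algebra.adjoin ℂ {x}) :
    a ∈ Submodule.span ℂ (Set.range (U x)) := by
  have hU : ∀ n, U x n ∈ Submodule.span ℂ (Set.range (U x)) :=
    fun n => Submodule.subset_span ⟨n, rfl⟩
  suffices h : ∀ u ∈ Submodule.span ℂ (Set.range (U x)),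
      u * a ∈ Submodule.span ℂ (Set.range (U x)) by simpa [U] using h _ (hU 0)
  induction ha using Algebra.adjoin_induction with
  | mem a h =>
    obtain rfl : a = x := h
    intro u hu
    induction hu using Submodule.span_induction with
    | mem u hu =>
      obtain ⟨n, rfl⟩ := hu
      cases n with
      | zero => simpa [U] using hU 1
      | succ n => rw [U_succ_mul]; exact add_mem (hU _) (hU _)
    | zero => simp
    | add _ _ _ _ h1 h2 => rw [add_mul]; exact add_mem h1 h2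
    | smul c _ _ h1 => rw [smul_mul_assoc]; exact Submodule.smul_mem _ _ h1
  | algebraMap c =>
    intro u hu
    rw [Algebra.algebraMap_eq_smul_one, mul_smul_comm, mul_one]
    exact Submodule.smul_mem _ _ hu
  | add _ _ _ _ h1 h2 => intro u hu; rw [mul_add]; exact add_mem (h1 u hu) (h2 u hu)
  | mul _ _ _ _ h1 h2 => intro u hu; rw [← mul_assoc]; exact h2 _ (h1 u hu)

theorem τ_U_mul (hSD : sp.SD s (fun _ => 0) fun _ => 1) (n : ℕ) :
    ∀ {b : A} {Ψ : A →ₗ[ℂ] A →ₗ[ℂ] ℂ}, Der sp s k b Ψ →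
      sp.τ (U (s k) (n + 1) * b) = Ψ (U (s k) n) 1 := by
  obtain ⟨Φ, hΦ, hΦ'⟩ := Der.self (sp := sp) (s := s) (k := k)
  induction n using Nat.twoStepInduction with
  | zero => intro b Ψ hb; exact hb.sd hSD
  | one =>
    intro b Ψ hb
    have h1 := (hΦ.mul hb).sd hSD
    rw [Lb_apply, hΦ', sp.τ_one] at h1
    simp only [U, sub_mul, map_sub, mul_assoc, h1]
    simp
  | more n ih0 ih1 =>
    intro b Ψ hb
    have h1 := ih1 (hΦ.mul hb)
    have h2 := ih0 hb
    have h3 := ih0 (Der.one (sp := sp) (s := s) (k := k))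
    rw [mul_one, LinearMap.zero_apply, LinearMap.zero_apply] at h3
    rw [Lb_apply, hΦ', h3, U_succ_mul, map_add, LinearMap.add_apply] at h1
    rw [show U (s k) (n + 2 + 1) = U (s k) (n + 1 + 1) * s k - U (s k) (n + 1) from rfl, sub_mul,
      map_sub, mul_assoc, h1, h2]
    ring

section Main
variable {ι : Type} (Alg : ι → Subalgebra ℂ A)

/-- Product of the entries. -/
def pr (l : List (ι × A)) : A := (l.map Prod.snd).prod

@[simp] theorem pr_nil : pr ([] : List (ι × A)) = 1 := rfl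
@[simp] theorem pr_cons (e : ι × A) (l : List (ι × A)) : pr (e :: l) = e.2 * pr l := by simp [pr]
theorem pr_append (l l' : List (ι × A)) : pr (l ++ l') = pr l * pr l' := by simp [pr]

variable (sp) in
/-- Alternating lists of centred elements. -/
def Alt (l : List (ι × A)) : Prop :=
  l.IsChain (fun a b => a.1 ≠ b.1) ∧ ∀ e ∈ l, e.2 ∈ Alg e.1 ∧ sp.τ e.2 = 0

variable {Alg}

theorem der_list {i : ι} (hi : Alg i = Algebra.adjoin ℂ {s k})
    (hne : ∀ t, t ≠ i → ∀ a ∈ Alg t, Der sp s k a 0) (R : List (ι × A))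
    (hR : ∀ e ∈ R, e.2 ∈ Alg e.1) :
    ∃ Ψ, Der sp s k (pr R) Ψ ∧ ∀ x, (∀ R1 e R2, R = R1 ++ e :: R2 → e.1 = i →
      ∀ q ∈ Alg i, sp.τ (x * pr R1 * q) = 0) → ∀ y, Ψ x y = 0 := by
  induction R with
  | nil => exact ⟨0, Der.one, fun _ _ _ => rfl⟩
  | cons e R ih =>
    obtain ⟨Ψ, h1, h2⟩ := ih fun e' he' => hR e' (List.mem_cons_of_mem _ he')
    have he := hR e List.mem_cons_self
    have h3 : ∃ Φ, Der sp s k e.2 Φ ∧
        ∀ x, (e.1 = i → ∀ q ∈ Alg i, sp.τ (x * q) = 0) → ∀ y, Φ x y = 0 := by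
      by_cases hei : e.1 = i
      · rw [hei, hi] at he
        obtain ⟨Φ, h4, h5⟩ := Der.adjoin_self (sp := sp) he
        exact ⟨Φ, h4, fun x hx => h5 x (hi ▸ hx hei)⟩
      · exact ⟨0, hne _ hei _ he, fun _ _ _ => rfl⟩
    obtain ⟨Φ, h4, h5⟩ := h3
    refine ⟨_, pr_cons e R ▸ h4.mul h1, fun x hx y => ?_⟩
    rw [Lb_apply, h5 x (fun hei q hq => by simpa using hx [] e R rfl hei q hq),
      h2 (x * e.2) (fun R1 e' R2 hR' hei q hq => by
        have := hx (e :: R1) e' R2 (by rw [hR']; rfl) hei q hq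
        rwa [pr_cons, ← mul_assoc] at this), add_zero]

theorem Alt.prefix {R1 R2 : List (ι × A)} (h : Alt sp Alg (R1 ++ R2)) : Alt sp Alg R1 :=
  ⟨h.1.left_of_append, fun e he => h.2 e (List.mem_append_left _ he)⟩

theorem Alt.tail {e : ι × A} {R : List (ι × A)} (h : Alt sp Alg (e :: R)) : Alt sp Alg R :=
  ⟨h.1.tail, fun e he => h.2 e (List.mem_cons_of_mem _ he)⟩

theorem Alt.replace {R1 R2 : List (ι × A)} {e : ι × A} (h : Alt sp Alg (R1 ++ e :: R2)) {q : A}
    (hq : q ∈ Alg e.1) (hq0 : sp.τ q = 0) : Alt sp Alg (R1 ++ [(e.1, q)]) := by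
  refine ⟨?_, fun e' he' => ?_⟩
  · have h1 := h.1
    rw [List.isChain_append] at h1 ⊢
    refine ⟨h1.1, List.isChain_singleton _, ?_⟩
    simpa using h1.2.2
  · rcases List.mem_append.1 he' with he' | he'
    · exact h.2 e' (List.mem_append_left _ he')
    · obtain rfl := List.mem_singleton.1 he'
      exact ⟨hq, hq0⟩

theorem step (hSD : sp.SD s (fun _ => 0) fun _ => 1) {i : ι}
    (hi : Alg i = Algebra.adjoin ℂ {s k}) (hne : ∀ t, t ≠ i → ∀ a ∈ Alg t, Der sp s k a 0) {m : ℕ}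
    (hP : ∀ l : List (ι × A), l ≠ [] → Alt sp Alg l → l.length ≤ m → sp.τ (pr l) = 0) (n : ℕ) :
    ∀ R : List (ι × A), Alt sp Alg R → (∀ e ∈ R.head?, e.1 ≠ i) → R.length ≤ m →
      ∀ c, Der sp s k c 0 → sp.τ (U (s k) (n + 1) * (pr R * c)) = 0 := by
  have key : ∀ n, (∀ R : List (ι × A), R ≠ [] → Alt sp Alg R → (∀ e ∈ R.head?, e.1 ≠ i) →
      R.length ≤ m → sp.τ (U (s k) n * pr R) = 0) →
      ∀ R : List (ι × A), Alt sp Alg R → (∀ e ∈ R.head?, e.1 ≠ i) → R.length ≤ m →
      ∀ c, Der sp s k c 0 → sp.τ (U (s k) (n + 1) * (pr R * c)) = 0 := by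
    intro n hK R hR hhead hlen c hc
    obtain ⟨Ψ, h1, h2⟩ := der_list hi hne R fun e he => (hR.2 e he).1
    rw [τ_U_mul hSD n (h1.mul hc), Lb_apply, h2 _ ?_]
    · simp
    rintro R1 e R2 rfl hei q hq
    have hR1 : R1 ≠ [] := by
      rintro rfl
      exact hhead e (by simp) hei
    have hhead1 : ∀ R' : List (ι × A), ∀ e' ∈ (R1 ++ R').head?, e'.1 ≠ i := by
      obtain ⟨a, R1', rfl⟩ := List.exists_cons_of_ne_nil hR1
      intro R' e' he'
      exact hhead e' (by simpa using he')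
    have hlen' : R1.length + 1 ≤ m := by
      simp only [List.length_append, List.length_cons] at hlen; omega
    have h3 := hK R1 hR1 hR.prefix (by simpa using hhead1 []) (by omega)
    have h4 := hK (R1 ++ [(e.1, q - sp.τ q • 1)]) (by simp)
      (hR.replace (hei ▸ sub_mem hq (Subalgebra.smul_mem _ (one_mem _) _)) (by simp [sp.τ_one]))
      (hhead1 _) (by simpa using hlen')
    simp only [pr_append, pr_cons, pr_nil, mul_one, mul_sub, mul_smul_comm, map_sub, map_smul, h3,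
      smul_zero, sub_zero] at h4
    rw [mul_assoc, h4]
  induction n with
  | zero => exact key 0 fun R h1 h2 _ h4 => by simpa [U] using hP R h1 h2 h4
  | succ n ih => exact key (n + 1) fun R _ h2 h3 h4 => by simpa using ih R h2 h3 h4 1 Der.one

theorem step' (hSD : sp.SD s (fun _ => 0) fun _ => 1) {i : ι}
    (hi : Alg i = Algebra.adjoin ℂ {s k}) (hne : ∀ t, t ≠ i → ∀ a ∈ Alg t, Der sp s k a 0) {m : ℕ}
    (hP : ∀ l : List (ι × A), l ≠ [] → Alt sp Alg l → l.length ≤ m → sp.τ (pr l) = 0)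
    (R : List (ι × A)) (hR : Alt sp Alg R) (hhead : ∀ e ∈ R.head?, e.1 ≠ i) (hlen : R.length ≤ m)
    (c : A) (hc : Der sp s k c 0) {a : A} (ha : a ∈ Alg i) :
    sp.τ (a * (pr R * c)) = sp.τ a * sp.τ (pr R * c) := by
  rw [hi] at ha
  have ha' := mem_span_U _ ha
  clear ha
  induction ha' using Submodule.span_induction with
  | mem u hu =>
    obtain ⟨n, rfl⟩ := hu
    cases n with
    | zero => simp [U, sp.τ_one]
    | succ n =>
      have h3 := τ_U_mul hSD n (Der.one (sp := sp) (s := s) (k := k))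
      rw [mul_one, LinearMap.zero_apply, LinearMap.zero_apply] at h3
      rw [step hSD hi hne hP n R hR hhead hlen c hc, h3, zero_mul]
  | zero => simp
  | add _ _ _ _ h1 h2 => rw [add_mul, map_add, map_add, h1, h2, add_mul]
  | smul c _ _ h1 => rw [smul_mul_assoc, map_smul, map_smul, h1, smul_eq_mul, smul_eq_mul, mul_assoc]

end Main

theorem free_main (hSD : sp.SD s (fun _ => 0) fun _ => 1) {J : Type}
    (Alg : Option J → Subalgebra ℂ A) (kk : J → κ)
    (hi : ∀ i, Alg (some i) = Algebra.adjoin ℂ {s (kk i)})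
    (hne : ∀ i t, t ≠ some i → ∀ a ∈ Alg t, Der sp s (kk i) a 0) (m : ℕ) :
    ∀ l : List (Option J × A), l ≠ [] → Alt sp Alg l → l.length ≤ m → sp.τ (pr l) = 0 := by
  induction m with
  | zero => intro l hl _ h; exact absurd (List.length_eq_zero_iff.1 (by omega)) hl
  | succ m hP =>
    intro l hl hA hlen
    have hhead : ∀ {e : Option J × A} {R : List (Option J × A)}, Alt sp Alg (e :: R) →
        ∀ e' ∈ R.head?, e'.1 ≠ e.1 := fun {e R} h e' he' =>
      ((List.isChain_cons.1 h.1).1 e' he').symm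
    obtain ⟨⟨t, a⟩, R, rfl⟩ := List.exists_cons_of_ne_nil hl
    have ha := hA.2 _ List.mem_cons_self
    cases t with
    | some i =>
      have := step' hSD (hi i) (hne i) hP R hA.tail (hhead hA) (by simpa using hlen) 1 Der.one ha.1
      rw [mul_one] at this
      rw [pr_cons, this, ha.2, zero_mul]
    | none =>
      cases R with
      | nil => simpa using ha.2
      | cons e R =>
        obtain ⟨t', a'⟩ := e
        have ha' := hA.tail.2 _ List.mem_cons_self
        cases t' with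
        | none => exact absurd rfl (hhead hA (none, a') (by simp))
        | some i =>
          have := step' hSD (hi i) (hne i) hP R hA.tail.tail (hhead hA.tail)
            (by simp only [List.length_cons] at hlen; omega) a (hne i none (by simp) a ha.1) ha'.1
          rw [pr_cons, pr_cons, sp.τ_comm, mul_assoc, this, ha'.2, zero_mul]

theorem polyEval_mem {n : ℕ} (Y : Fin n → A) (S : Subalgebra ℂ A) (hY : ∀ i, Y i ∈ S)
    (P : NCPoly n) : polyEval Y P ∈ S := by
  rw [polyEval_eq_sum]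
  refine sum_mem fun w _ => Subalgebra.smul_mem _ ?_ _
  rw [wordEval, FreeMonoid.lift_apply]
  refine list_prod_mem fun a ha => ?_
  obtain ⟨i, -, rfl⟩ := List.mem_map.1 ha
  exact hY i

end FreeAux

open FreeAux in
theorem freeStmt : FreeStmt := by
  intro A _ sp n s hSD ξ σ l hl hc h0
  let X : Fin n → A := fun c => sp.πA (ξ c) + (σ c : ℂ) • s (Sum.inl c)
  let Alg : Option (Fin n) → Subalgebra ℂ A := fun t =>
    t.elim (Algebra.adjoin ℂ (Set.range X)) fun i => Algebra.adjoin ℂ {s (Sum.inr i)}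
  let f : Option (Fin n) × NCPoly n → Option (Fin n) × A := fun e =>
    (e.1, polyEval (withNoise X (fun i => s (Sum.inr i)) e.1) e.2)
  have := free_main hSD Alg Sum.inr (fun _ => rfl) ?_ _ (l.map f) (by simpa using hl) ⟨?_, ?_⟩ le_rfl
  · rw [pr, List.map_map] at this
    exact this
  · intro i t ht a ha
    cases t with
    | none =>
      refine Der.adjoin₀ ?_ ha
      rintro _ ⟨c, rfl⟩
      exact (Der.πA _).add₀ ((Der.ne (by simp)).smul₀ _)
    | some j =>
      refine Der.adjoin₀ ?_ ha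
      rintro _ rfl
      exact Der.ne (by simpa using ht)
  · rw [List.isChain_map]
    exact hc
  · intro e he
    obtain ⟨e', he', rfl⟩ := List.mem_map.1 he
    refine ⟨?_, h0 e' he'⟩
    obtain ⟨t, P⟩ := e'
    cases t with
    | none =>
      exact polyEval_mem X (Algebra.adjoin ℂ (Set.range X))
        (fun i => Algebra.subset_adjoin ⟨i, rfl⟩) P
    | some j =>
      exact polyEval_mem (fun _ => s (Sum.inr j)) (Algebra.adjoin ℂ {s (Sum.inr j)})
        (fun _ => Algebra.subset_adjoin (Set.mem_singleton _)) P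

end Crest.Agent.R89
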