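import Crest.Agent.R89.Basic

/-! Row 89, part D: the geometry of the coset graph.

All separating functions come from one fact: on the Cayley tree of a free group every
`1`-cochain is a coboundary. -/

set_option autoImplicit false

namespace Crest.Agent.R89

open scoped Classical

namespace GeomAux

abbrev Z2 : Type := ZMod 2

/-- Indicator of a proposition in `ZMod 2`. -/
noncomputable def ind (p : Prop) : Z2 := if p then 1 else 0

theorem ind_pos {p : Prop} (h : p) : ind p = 1 := if_pos h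
theorem ind_neg {p : Prop} (h : ¬ p) : ind p = 0 := if_neg h
theorem ind_congr {p q : Prop} (h : p ↔ q) : ind p = ind q := by rw [propext h]
theorem of_ind_ne {p : Prop} (h : ind p ≠ 0) : p := by
  by_contra hp; exact h (ind_neg hp)

/-- Every cochain on the Cayley tree is a coboundary. -/
theorem cocycle (φ : Fin 3 → Γ → Z2) :
    ∃ χ : Γ → Z2, ∀ s g, χ (FreeGroup.of s * g) = χ g + φ s g := by
  let e : Fin 3 → Equiv.Perm (Γ × Z2) := fun s =>
    { toFun := fun w => (FreeGroup.of s * w.1, w.2 + φ s w.1)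
      invFun := fun w => ((FreeGroup.of s)⁻¹ * w.1, w.2 - φ s ((FreeGroup.of s)⁻¹ * w.1))
      left_inv := fun w => by simp
      right_inv := fun w => by simp }
  let ρ : Γ →* Equiv.Perm (Γ × Z2) := FreeGroup.lift e
  have h1 : ∀ h : Γ, ∀ w, (ρ h w).1 = h * w.1 := by
    intro h
    induction h using FreeGroup.induction_on with
    | C1 => intro w; simp
    | of s => intro w; simp [ρ, e]
    | inv_of s ih =>
      intro w
      have := ih (ρ (FreeGroup.of s)⁻¹ w)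
      rw [← Equiv.Perm.mul_apply, ← map_mul, mul_inv_cancel, map_one, Equiv.Perm.one_apply] at this
      rw [this, inv_mul_cancel_left]
    | mul x y hx hy => intro w; rw [map_mul, Equiv.Perm.mul_apply, hx, hy, mul_assoc]
  refine ⟨fun g => (ρ g (1, 0)).2, fun s g => ?_⟩
  have h2 := h1 g (1, 0)
  simp only [map_mul, Equiv.Perm.mul_apply]
  rw [mul_one] at h2
  have h3 : ρ (FreeGroup.of s) = e s := by simp [ρ]
  rw [h3]
  show (ρ g (1, 0)).2 + φ s (ρ g (1, 0)).1 = _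
  rw [h2]

theorem vx_eq {g g' : Γ} : vx g = vx g' ↔ g' * g⁻¹ ∈ Λ0 := by
  rw [vx, vx, Quotient.eq, QuotientGroup.rightRel_apply]

theorem vx_mul {l : Γ} (hl : l ∈ Λ0) (g : Γ) : vx (l * g) = vx g := by
  rw [eq_comm, vx_eq]; simpa using hl

theorem exists_of_vx_eq {g g' : Γ} (h : vx g = vx g') : ∃ l ∈ Λ0, g' = l * g :=
  ⟨g' * g⁻¹, vx_eq.1 h, by simp⟩

theorem ga_mem : ga ∈ Λ0 := Subgroup.subset_closure (by simp)
theorem gc_mem : gc ∈ Λ0 := Subgroup.subset_closure (by simp)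
theorem gf_mem (m : ℕ) : gf m ∈ Λ0 :=
  Λ0.mul_mem (Λ0.mul_mem (Λ0.pow_mem ga_mem m) gc_mem) (Λ0.inv_mem (Λ0.pow_mem ga_mem m))

theorem inv_of_gen {M : Type} (χ : Γ → M) (ha : ∀ g, χ (ga * g) = χ g)
    (hc : ∀ g, χ (gc * g) = χ g) {l : Γ} (hl : l ∈ Λ0) : ∀ g, χ (l * g) = χ g := by
  induction hl using Subgroup.closure_induction with
  | mem x hx =>
    rcases hx with rfl | rfl
    · exact ha
    · exact hc
  | one => simp
  | mul x y _ _ hx hy => intro g; rw [mul_assoc, hx, hy]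
  | inv x _ hx => intro g; rw [← hx (x⁻¹ * g), mul_inv_cancel_left]

/-- A `Λ0`-invariant function with prescribed jumps along `u`. -/
theorem cocycle_u (φ : Γ → Z2) :
    ∃ χ : Γ → Z2, (∀ g, χ (gu * g) = χ g + φ g) ∧ ∀ l ∈ Λ0, ∀ g, χ (l * g) = χ g := by
  obtain ⟨χ, hχ⟩ := cocycle fun s g => if s = 0 then φ g else 0
  refine ⟨χ, fun g => by simpa [gu] using hχ 0 g,
    fun l hl => inv_of_gen χ (fun g => ?_) (fun g => ?_) hl⟩
  · simpa [ga] using hχ 1 g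
  · simpa [gc] using hχ 2 g

/-- The exponent sum of the `s`-th generator. -/
noncomputable def ex (s : Fin 3) (g : Γ) : ℤ :=
  Multiplicative.toAdd (FreeGroup.lift
    (fun t => Multiplicative.ofAdd (if t = s then (1 : ℤ) else 0)) g)

@[simp] theorem ex_mul (s : Fin 3) (g h : Γ) : ex s (g * h) = ex s g + ex s h := by simp [ex]
@[simp] theorem ex_inv (s : Fin 3) (g : Γ) : ex s g⁻¹ = -ex s g := by simp [ex]
@[simp] theorem ex_pow (s : Fin 3) (g : Γ) (m : ℕ) : ex s (g ^ m) = m * ex s g := by simp [ex]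
theorem ex_of (s t : Fin 3) : ex s (FreeGroup.of t) = if t = s then 1 else 0 := by simp [ex]
@[simp] theorem ex0_u : ex 0 gu = 1 := by simp [gu, ex_of]
@[simp] theorem ex0_a : ex 0 ga = 0 := by simp [ga, ex_of]
@[simp] theorem ex0_c : ex 0 gc = 0 := by simp [gc, ex_of]
@[simp] theorem ex1_a : ex 1 ga = 1 := by simp [ga, ex_of]
@[simp] theorem ex_f (s : Fin 3) (m : ℕ) : ex s (gf m) = ex s gc := by simp [gf]
@[simp] theorem ex1_c : ex 1 gc = 0 := by simp [gc, ex_of]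
@[simp] theorem ex0_b (j : ℕ) : ex 0 (gb j) = 3 := by simp [gb]

theorem ex_of_vx_eq {g g' : Γ} (h : vx g = vx g') : ex 0 g = ex 0 g' := by
  obtain ⟨l, hl, rfl⟩ := exists_of_vx_eq h
  exact (inv_of_gen (ex 0) (by simp) (by simp) hl g).symm

/-- The vertex cut at the base point `B` in the direction `gf m`. -/
theorem vcut (B : Γ) (m : ℕ) : ∃ ω : Γ → Z2, (∀ g, ω (gu * g) = ω g) ∧
    (∀ g g', vx g = vx g' → vx g ≠ vx B → ω g = ω g') ∧
    ∀ m' g, ω (gf m' * g) = ω g + ind (g = B ∧ m' = m) := by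
  obtain ⟨s, hs⟩ := cocycle fun t g => if t = 2 then ind (g = (ga ^ m)⁻¹ * B) else 0
  have hsa : ∀ g, s (ga * g) = s g := fun g => by simpa [ga] using hs 1 g
  have hsc : ∀ g, s (gc * g) = s g + ind (g = (ga ^ m)⁻¹ * B) := fun g => by
    simpa [gc] using hs 2 g
  have hsp : ∀ (k : ℕ) g, s (ga ^ k * g) = s g := by
    intro k
    induction k with
    | zero => simp
    | succ k ih => intro g; rw [pow_succ', mul_assoc, hsa, ih]
  have hsf : ∀ m' g, s (gf m' * g) = s g + ind ((ga ^ m')⁻¹ * g = (ga ^ m)⁻¹ * B) := by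
    intro m' g
    rw [gf, mul_assoc, mul_assoc, hsp, hsc, ← hsp m' ((ga ^ m')⁻¹ * g), mul_inv_cancel_left]
  let S : Γ → Z2 := fun g => if ex 1 g = ex 1 B ∧ vx g = vx B then s g else 0
  have hS : ∀ m' g, S (gf m' * g) = S g + ind (g = B ∧ m' = m) := by
    intro m' g
    simp only [S, ex_mul, ex_f, ex1_c, zero_add, vx_mul (gf_mem m')]
    split_ifs with h
    · rw [hsf]
      congr 1
      refine ind_congr ⟨fun h' => ?_, ?_⟩
      · have h2 := congrArg (ex 1) h'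
        simp only [ex_mul, ex_inv, ex_pow, ex1_a, h.1] at h2
        have h3 : m' = m := by omega
        subst h3
        exact ⟨mul_left_cancel h', rfl⟩
      · rintro ⟨rfl, rfl⟩; rfl
    · rw [ind_neg, add_zero]
      rintro ⟨rfl, -⟩
      exact h ⟨rfl, rfl⟩
  obtain ⟨χ, hu, hl⟩ := cocycle_u fun g => S g - S (gu * g)
  refine ⟨fun g => χ g + S g, fun g => by simp only [hu]; ring, fun g g' h h' => ?_, fun m' g => ?_⟩
  · have h1 : S g = 0 := if_neg fun h2 => h' h2.2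
    have h2 : S g' = 0 := if_neg fun h2 => h' (h.trans h2.2)
    obtain ⟨l, hl', rfl⟩ := exists_of_vx_eq h
    simp only [h1, h2, hl l hl']
  · simp only [hl _ (gf_mem m'), hS, add_assoc]

variable {k : ℕ}

theorem cv_zero (x : Γ × Fin k) : cv x 0 = vx (cn x 0) := rfl
theorem cv_one (x : Γ × Fin k) : cv x 1 = vx (gu * cn x 0) := rfl
theorem cv_one' (x : Γ × Fin k) : cv x 1 = vx (cn x 1) := by
  show vx (gu * x.1) = vx (gf (2 * x.2 + 1) * gu * x.1)
  rw [mul_assoc, vx_mul (gf_mem _)]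
theorem cv_two (x : Γ × Fin k) : cv x 2 = vx (gu * cn x 1) := by
  show vx (gu * gf (2 * x.2 + 1) * gu * x.1) = vx (gu * (gf (2 * x.2 + 1) * gu * x.1))
  simp only [mul_assoc]
theorem cv_two' (x : Γ × Fin k) : cv x 2 = vx (cn x 2) := by
  show vx (gu * gf (2 * x.2 + 1) * gu * x.1) =
    vx (gf (2 * x.2) * gu * gf (2 * x.2 + 1) * gu * x.1)
  simp only [mul_assoc]
  rw [vx_mul (gf_mem (2 * x.2))]
theorem gb_mul (x : Γ × Fin k) : gb x.2 * x.1 = gu * cn x 2 := by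
  show _ = gu * (gf (2 * x.2) * gu * gf (2 * x.2 + 1) * gu * x.1)
  simp only [gb, mul_assoc]
theorem cv_three (x : Γ × Fin k) : cv x 3 = vx (gu * cn x 2) := by
  rw [← gb_mul]; rfl
theorem cn_one (x : Γ × Fin k) : cn x 1 = gf (2 * x.2 + 1) * (gu * cn x 0) := by
  show gf (2 * x.2 + 1) * gu * x.1 = gf (2 * x.2 + 1) * (gu * x.1)
  rw [mul_assoc]
theorem cn_two (x : Γ × Fin k) : cn x 2 = gf (2 * x.2) * (gu * cn x 1) := by
  show gf (2 * x.2) * gu * gf (2 * x.2 + 1) * gu * x.1 =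
    gf (2 * x.2) * (gu * (gf (2 * x.2 + 1) * gu * x.1))
  simp only [mul_assoc]

theorem src_cn (x : Γ × Fin k) (i : Fin 3) : vx (cn x i) = cv x i.castSucc := by
  fin_cases i
  · exact (cv_zero x).symm
  · exact (cv_one' x).symm
  · exact (cv_two' x).symm

theorem tgt_cn (x : Γ × Fin k) (i : Fin 3) : vx (gu * cn x i) = cv x i.succ := by
  fin_cases i
  · exact (cv_one x).symm
  · exact (cv_two x).symm
  · exact (cv_three x).symm

/-- The height of a vertex. -/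
noncomputable def ht (v : V) : ℤ := ex 0 v.out

theorem vx_out (v : V) : vx v.out = v := Quotient.out_eq v

theorem ht_vx (g : Γ) : ht (vx g) = ex 0 g := ex_of_vx_eq (vx_out _)

theorem ht_cv (x : Γ × Fin k) (i : Fin 4) : ht (cv x i) = ex 0 x.1 + i := by
  fin_cases i
  · simp [cv, ht_vx]
  · simp [cv, ht_vx, add_comm]
  · simp [cv, ht_vx]; ring
  · simp [cv, ht_vx, add_comm]

theorem cv_inj (x : Γ × Fin k) : Function.Injective (cv x) := by
  intro i j h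
  have := congrArg ht h
  rw [ht_cv, ht_cv] at this
  ext; omega

theorem adj_cases {p q : V} (h : adj k p q) :
    (∃ g, p = vx g ∧ q = vx (gu * g) ∨ q = vx g ∧ p = vx (gu * g)) ∨
      ∃ x : Γ × Fin k, p = cv x 0 ∧ q = cv x 3 ∨ q = cv x 0 ∧ p = cv x 3 := by
  obtain ⟨⟨_ | j, _ | _⟩, g, rfl, rfl⟩ := h
  · exact Or.inl ⟨gu⁻¹ * g, Or.inl ⟨rfl, by simp⟩⟩
  · exact Or.inl ⟨g, Or.inr ⟨rfl, rfl⟩⟩
  · exact Or.inr ⟨((gb j)⁻¹ * g, j), Or.inl ⟨rfl, by simp [cv]⟩⟩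
  · exact Or.inr ⟨(g, j), Or.inr ⟨rfl, rfl⟩⟩

theorem adj_symm (p q : V) (h : adj k p q) : adj k q p := by
  obtain ⟨⟨o, s⟩, g, rfl, rfl⟩ := h
  refine ⟨(o, !s), hel (o, s) * g, ?_, rfl⟩
  rcases o with _ | j <;> rcases s with _ | _ <;> simp [hel]

theorem ht_adj {p q : V} (h : adj k p q) : Odd (ht p - ht q) := by
  rcases adj_cases h with ⟨g, ⟨rfl, rfl⟩ | ⟨rfl, rfl⟩⟩ | ⟨x, ⟨rfl, rfl⟩ | ⟨rfl, rfl⟩⟩ <;>
    simp only [ht_vx, ht_cv, ex_mul, ex0_u, Int.odd_iff] <;> simp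

theorem conn_inv {M : Type} {S : Set V} (Ω : V → M)
    (h : ∀ p ∈ S, ∀ q ∈ S, adj k p q → Ω p = Ω q) {p q : V} (hc : Conn (adj k) S p q) :
    Ω p = Ω q := by
  induction hc with
  | refl => rfl
  | tail _ h2 ih => exact ih.trans (h _ h2.1 _ h2.2.1 h2.2.2)

/-- The edge cut at the node `G`. -/
theorem ecut (G : Γ) : ∃ Ω : V → Z2, (∀ g, Ω (vx (gu * g)) = Ω (vx g) + ind (g = G)) ∧
    ∀ p q, adj k p q → Ω p = Ω q ∨ (p = vx G ∧ q = vx (gu * G) ∨ q = vx G ∧ p = vx (gu * G)) ∨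
      ∃ x : Γ × Fin k, (∃ i, cn x i = G) ∧ p ∈ Set.range (cv x) ∧ q ∈ Set.range (cv x) := by
  obtain ⟨χ, hu, hl⟩ := cocycle_u fun g => ind (g = G)
  have h0 : ∀ g, χ (vx g).out = χ g := fun g => by
    obtain ⟨l, hl', h⟩ := exists_of_vx_eq (vx_out (vx g))
    conv_rhs => rw [h, hl l hl']
  have h1 : ∀ g, χ (vx (gu * g)).out = χ (vx g).out + ind (g = G) := fun g => by
    rw [h0, h0, hu]
  have h2 : ∀ x : Γ × Fin k, (¬ ∃ i, cn x i = G) → χ (cv x 3).out = χ (cv x 0).out := by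
    intro x hx
    rw [cv_three, h1, ind_neg fun h => hx ⟨2, h⟩, add_zero, ← cv_two', cv_two, h1,
      ind_neg fun h => hx ⟨1, h⟩, add_zero, ← cv_one', cv_one, h1, ind_neg fun h => hx ⟨0, h⟩,
      add_zero, cv_zero]
  refine ⟨fun v => χ v.out, h1, fun p q h => ?_⟩
  rcases adj_cases h with ⟨g, hg⟩ | ⟨x, hx⟩
  · by_cases hG : g = G
    · subst hG; exact Or.inr (Or.inl hg)
    · left
      rcases hg with ⟨rfl, rfl⟩ | ⟨rfl, rfl⟩ <;> simp only [h1, ind_neg hG, add_zero]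
  · by_cases hG : ∃ i, cn x i = G
    · refine Or.inr (Or.inr ⟨x, hG, ?_⟩)
      rcases hx with ⟨rfl, rfl⟩ | ⟨rfl, rfl⟩ <;> simp
    · left
      rcases hx with ⟨rfl, rfl⟩ | ⟨rfl, rfl⟩ <;> simp only [h2 x hG]

/-- The cuts of the cell `x` at its interior vertices. -/
theorem ccut (x : Γ × Fin k) (e1 e2 : Z2) : ∃ (Ω : V → Z2) (ω : Γ → Z2),
    (∀ g, (e1 = 0 ∨ vx g ≠ cv x 1) → (e2 = 0 ∨ vx g ≠ cv x 2) → Ω (vx g) = ω g) ∧
    (∀ g, ω (gu * g) = ω g) ∧
    (∀ y : Γ × Fin k, ω (cn y 1) = ω (cn y 0) + e1 * ind (y = x)) ∧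
    (∀ y : Γ × Fin k, ω (cn y 2) = ω (cn y 1) + e2 * ind (y = x)) := by
  obtain ⟨ω1, u1, v1, f1⟩ := vcut (gu * cn x 0) (2 * x.2 + 1)
  obtain ⟨ω2, u2, v2, f2⟩ := vcut (gu * cn x 1) (2 * x.2)
  refine ⟨fun v => e1 * ω1 v.out + e2 * ω2 v.out, fun g => e1 * ω1 g + e2 * ω2 g,
    fun g h1 h2 => ?_, fun g => by simp only [u1, u2], fun y => ?_, fun y => ?_⟩
  · have a1 : e1 * ω1 (vx g).out = e1 * ω1 g := by
      rcases h1 with rfl | h1
      · simp
      · rw [v1 g _ (vx_out _).symm (by rwa [← cv_one])]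
    have a2 : e2 * ω2 (vx g).out = e2 * ω2 g := by
      rcases h2 with rfl | h2
      · simp
      · rw [v2 g _ (vx_out _).symm (by rwa [← cv_two])]
    simp only [a1, a2]
  · have a1 : ind (gu * cn y 0 = gu * cn x 0 ∧ 2 * (y.2 : ℕ) + 1 = 2 * x.2 + 1) = ind (y = x) := by
      refine ind_congr ⟨fun h => Prod.ext (mul_left_cancel h.1) (Fin.ext (by omega)), ?_⟩
      rintro rfl; exact ⟨rfl, rfl⟩
    have a2 : ind (gu * cn y 0 = gu * cn x 1 ∧ 2 * (y.2 : ℕ) + 1 = 2 * x.2) = 0 :=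
      ind_neg fun h => by omega
    simp only [cn_one y, f1, f2, u1, u2, a1, a2]
    ring
  · have a1 : ind (gu * cn y 1 = gu * cn x 0 ∧ 2 * (y.2 : ℕ) = 2 * x.2 + 1) = 0 :=
      ind_neg fun h => by omega
    have a2 : ind (gu * cn y 1 = gu * cn x 1 ∧ 2 * (y.2 : ℕ) = 2 * x.2) = ind (y = x) := by
      refine ind_congr ⟨fun h => ?_, ?_⟩
      · have h2 : y.2 = x.2 := Fin.ext (by omega)
        have h1 := mul_left_cancel h.1
        rw [cn_one, cn_one, h2] at h1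
        exact Prod.ext (mul_left_cancel (mul_left_cancel h1)) h2
      · rintro rfl; exact ⟨rfl, rfl⟩
    simp only [cn_two y, f1, f2, u1, u2, a1, a2]
    ring

/-- The cuts of a cell, at the level of vertices. -/
theorem ccut' (x : Γ × Fin k) (e1 e2 : Z2) (T : Set V) (h1 : e1 = 0 ∨ cv x 1 ∉ T)
    (h2 : e2 = 0 ∨ cv x 2 ∉ T) : ∃ (Ω : V → Z2) (ω : Γ → Z2),
    (∀ (y : Γ × Fin k) i, ω (cn y i) = ω y.1 + ![0, e1, e1 + e2] i * ind (y = x)) ∧
    (∀ (y : Γ × Fin k) i, cv y i ∈ T →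
      Ω (cv y i) = ω y.1 + ![0, 0, e1, e1 + e2] i * ind (y = x)) ∧
    ∀ p ∈ T, ∀ q ∈ T, adj k p q → Ω p = Ω q ∨
      (e1 + e2 ≠ 0 ∧ (p = cv x 0 ∧ q = cv x 3 ∨ q = cv x 0 ∧ p = cv x 3)) := by
  obtain ⟨Ω, ω, hΩ, hu, c1, c2⟩ := ccut x e1 e2
  have hT : ∀ g, vx g ∈ T → Ω (vx g) = ω g := fun g hg =>
    hΩ g (h1.imp_right fun h h' => h (h' ▸ hg)) (h2.imp_right fun h h' => h (h' ▸ hg))
  have a : ∀ (y : Γ × Fin k) i, ω (cn y i) = ω y.1 + ![0, e1, e1 + e2] i * ind (y = x) := by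
    intro y i
    have c0 : cn y 0 = y.1 := rfl
    fin_cases i
    · simp [c0]
    · simpa [c0] using c1 y
    · have := c2 y
      rw [c1 y, c0] at this
      simp only [Fin.reduceFinMk, Matrix.cons_val, this]
      ring
  have b : ∀ (y : Γ × Fin k) i, cv y i ∈ T →
      Ω (cv y i) = ω y.1 + ![0, 0, e1, e1 + e2] i * ind (y = x) := by
    intro y i hi
    induction i using Fin.cases with
    | zero => rw [cv_zero] at hi ⊢; rw [hT _ hi]; simp [cn]
    | succ i => rw [← tgt_cn] at hi ⊢; rw [hT _ hi, hu, a]; simp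
  refine ⟨Ω, ω, a, b, fun p hp q hq h => ?_⟩
  rcases adj_cases h with ⟨g, hg⟩ | ⟨y, hy⟩
  · left
    rcases hg with ⟨rfl, rfl⟩ | ⟨rfl, rfl⟩ <;> rw [hT _ hp, hT _ hq, hu]
  · by_cases h' : e1 + e2 ≠ 0 ∧ y = x
    · obtain ⟨h', rfl⟩ := h'
      exact Or.inr ⟨h', hy⟩
    · left
      have h0 : (e1 + e2) * ind (y = x) = 0 := by
        by_cases h3 : y = x
        · rw [not_not.1 fun h4 => h' ⟨h4, h3⟩, zero_mul]
        · rw [ind_neg h3, mul_zero]
      rcases hy with ⟨rfl, rfl⟩ | ⟨rfl, rfl⟩ <;> rw [b _ _ hp, b _ _ hq] <;> simp [h0]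

theorem q1 (x : Γ × Fin k) (i j : Fin 4) (hij : i = 0 ∧ j = 2 ∨ i = 1 ∧ j = 3 ∨ i = 0 ∧ j = 3)
    (p q : V) (hp : p ∉ Set.range (cv x)) (hq : q ∉ Set.range (cv x)) (h1 : adj k (cv x i) p)
    (hc : Conn (adj k) (Set.range (cv x))ᶜ p q) : ¬ adj k q (cv x j) := by
  intro h2
  have key : ∀ (e1 e2 : Z2) (l : Fin 4), i ≠ l → j ≠ l → (e1 = 0 ∨ l = 1) → (e2 = 0 ∨ l = 2) →
      ![0, 0, e1, e1 + e2] i = ![0, 0, e1, e1 + e2] j := by
    intro e1 e2 l hi hj h1' h2'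
    obtain ⟨Ω, ω, -, b, c⟩ := ccut' x e1 e2 {cv x l}ᶜ
      (h1'.imp_right fun h => by simp [h]) (h2'.imp_right fun h => by simp [h])
    have hT : ∀ z, z ∉ Set.range (cv x) → z ∈ ({cv x l}ᶜ : Set V) := fun z hz h =>
      hz ⟨l, (Set.mem_singleton_iff.1 h).symm⟩
    have hT' : ∀ m, m ≠ l → cv x m ∈ ({cv x l}ᶜ : Set V) := fun m hm h =>
      hm (cv_inj x (Set.mem_singleton_iff.1 h))
    have c' : ∀ p ∈ ({cv x l}ᶜ : Set V), ∀ q ∈ ({cv x l}ᶜ : Set V), adj k p q →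
        (p ∉ Set.range (cv x) ∨ q ∉ Set.range (cv x)) → Ω p = Ω q := by
      intro p hp q hq h h'
      rcases c p hp q hq h with h3 | ⟨-, ⟨rfl, rfl⟩ | ⟨rfl, rfl⟩⟩
      · exact h3
      · simp at h'
      · simp at h'
    have e : Ω (cv x i) = Ω (cv x j) :=
      (c' _ (hT' i hi) _ (hT p hp) h1 (Or.inr hp)).trans
        ((conn_inv Ω (fun p hp q hq h => c' p (hT p hp) q (hT q hq) h (Or.inl hp)) hc).trans
          (c' _ (hT q hq) _ (hT' j hj) h2 (Or.inl hq)))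
    rw [b x i (hT' i hi), b x j (hT' j hj), ind_pos rfl, mul_one, mul_one] at e
    exact add_left_cancel e
  rcases hij with ⟨rfl, rfl⟩ | ⟨rfl, rfl⟩ | ⟨rfl, rfl⟩
  · simpa using key 1 0 1 (by decide) (by decide) (Or.inr rfl) (Or.inl rfl)
  · simpa using key 0 1 2 (by decide) (by decide) (Or.inl rfl) (Or.inr rfl)
  · simpa using key 1 0 1 (by decide) (by decide) (Or.inr rfl) (Or.inl rfl)

theorem q2 (G : Γ) (S : Set V) (h1 : vx G ∉ S) (h2 : vx (gu * G) ∉ S) (p : V) (hp : p ∈ S)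
    (q : V) (hq : q ∈ S) (ha : adj k (vx G) p) (hc : Conn (adj k) S p q)
    (hb : adj k q (vx (gu * G))) :
    ∃ x : Γ × Fin k, (∃ i, cn x i = G) ∧ ∃ z ∈ S, z ∈ Set.range (cv x) := by
  by_contra hcon
  obtain ⟨Ω, hu, c⟩ := ecut (k := k) G
  have c' : ∀ p q, adj k p q → (p ∈ S ∨ q ∈ S) → Ω p = Ω q := by
    intro p q h h'
    rcases c p q h with h3 | (⟨rfl, rfl⟩ | ⟨rfl, rfl⟩) | ⟨x, hx, h4, h5⟩
    · exact h3
    · tauto
    · tauto
    · rcases h' with h' | h'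
      · exact (hcon ⟨x, hx, p, h', h4⟩).elim
      · exact (hcon ⟨x, hx, q, h', h5⟩).elim
  have e : Ω (vx G) = Ω (vx (gu * G)) :=
    (c' _ _ ha (Or.inr hp)).trans
      ((conn_inv Ω (fun p hp q _ h => c' p q h (Or.inl hp)) hc).trans (c' _ _ hb (Or.inl hq)))
  rw [hu, ind_pos rfl] at e
  simp at e

theorem q3 (G : Γ) (x : Γ × Fin k) (hx : ∃ i, cn x i = G) (y : Γ × Fin k) (hy : ∃ i, cn y i = G)
    (p : V) (hp : p ∈ Set.range (cv x)) (q : V) (hq : q ∈ Set.range (cv y))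
    (hp' : p ∉ ({vx G, vx (gu * G)} : Set V)) (hq' : q ∉ ({vx G, vx (gu * G)} : Set V))
    (hc : Conn (adj k) ({vx G, vx (gu * G)} : Set V)ᶜ p q) : x = y := by
  by_contra hxy
  obtain ⟨i, rfl⟩ := hx
  obtain ⟨i', hi'⟩ := hy
  obtain ⟨l, rfl⟩ := hp
  obtain ⟨l', rfl⟩ := hq
  rw [src_cn, tgt_cn] at hp' hq' hc
  have hl : l ≠ i.castSucc ∧ l ≠ i.succ := by
    constructor <;> rintro rfl <;> simp at hp'
  have key : ∀ e1 e2 : Z2, (e1 = 0 ∨ 1 = i.castSucc ∨ 1 = i.succ) →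
      (e2 = 0 ∨ 2 = i.castSucc ∨ 2 = i.succ) → (e1 + e2 = 0 ∨ 0 = i.castSucc ∨ 3 = i.succ) →
      ![0, 0, e1, e1 + e2] l = ![0, e1, e1 + e2] i := by
    intro e1 e2 h1 h2 h3
    obtain ⟨Ω, ω, a, b, c⟩ := ccut' x e1 e2 ({cv x i.castSucc, cv x i.succ} : Set V)ᶜ
      (h1.imp_right fun h => by rcases h with h | h <;> simp [h])
      (h2.imp_right fun h => by rcases h with h | h <;> simp [h])
    have e : Ω (cv x l) = Ω (cv y l') := by
      refine conn_inv Ω (fun p hp q hq h => ?_) hc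
      rcases c p hp q hq h with h4 | ⟨h4, h5⟩
      · exact h4
      · exfalso
        rcases h3 with h3 | h3 | h3
        · exact h4 h3
        · rcases h5 with ⟨rfl, rfl⟩ | ⟨rfl, rfl⟩
          · exact hp (by simp [h3])
          · exact hq (by simp [h3])
        · rcases h5 with ⟨rfl, rfl⟩ | ⟨rfl, rfl⟩
          · exact hq (by simp [h3])
          · exact hp (by simp [h3])
    have a1 := a x i
    have a2 := a y i'
    rw [b x l hp', b y l' hq'] at e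
    rw [hi', a1] at a2
    rw [ind_neg (Ne.symm hxy), mul_zero, add_zero, ind_pos rfl, mul_one] at e a2
    exact add_left_cancel (e.trans a2.symm)
  fin_cases i
  · have := key 1 0 (by decide) (by decide) (by decide)
    revert hl this; fin_cases l <;> decide
  · have := key 1 1 (by decide) (by decide) (by decide)
    revert hl this; fin_cases l <;> decide
  · have := key 0 1 (by decide) (by decide) (by decide)
    revert hl this; fin_cases l <;> decide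

/-- The cells containing a node. -/
noncomputable def cells (k : ℕ) (G : Γ) : Finset (Γ × Fin k) :=
  (Finset.univ : Finset (Fin 3 × Fin k)).image fun z => ((cn (1, z.2) z.1)⁻¹ * G, z.2)

theorem cn_eq (x : Γ × Fin k) (i : Fin 3) : cn x i = cn (1, x.2) i * x.1 := by
  fin_cases i <;> simp [cn]

theorem mem_cells (G : Γ) (x : Γ × Fin k) : x ∈ cells k G ↔ ∃ i, cn x i = G := by
  simp only [cells, Finset.mem_image, Finset.mem_univ, true_and]
  constructor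
  · rintro ⟨⟨i, j⟩, rfl⟩
    exact ⟨i, by rw [cn_eq]; simp⟩
  · rintro ⟨i, rfl⟩
    exact ⟨(i, x.2), by rw [cn_eq x]; simp⟩

theorem ex_hel (t : ET k) : ex 0 (hel t) = 1 ∧ t = (none, true) ∨ ex 0 (hel t) < 0 ∨
    ex 0 (hel t) = 3 ∧ ∃ j, t = (some j, true) := by
  obtain ⟨_ | j, _ | _⟩ := t <;> simp [hel]

theorem uniq_u (G g : Γ) (t : ET k) (h1 : vx (hel t * g) = vx (gu * G)) (h2 : vx g = vx G) :
    t = (none, true) ∧ g = G := by
  have e1 := ex_of_vx_eq h1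
  have e2 := ex_of_vx_eq h2
  simp only [ex_mul, ex0_u] at e1
  have ht : t = (none, true) := by
    rcases ex_hel t with h | h | h
    · exact h.2
    · omega
    · omega
  subst ht
  refine ⟨rfl, ?_⟩
  obtain ⟨Ω, hu, -⟩ := ecut (k := k) G
  have e3 := congrArg Ω h1
  rw [show hel ((none, true) : ET k) = gu from rfl, hu, hu, h2, ind_pos rfl] at e3
  exact of_ind_ne (by rw [add_left_cancel e3]; decide)

theorem uniq_b (j : Fin k) (G g : Γ) (t : ET k) (h1 : vx (hel t * g) = vx (gb j * G))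
    (h2 : vx g = vx G) : t = (some j, true) ∧ g = G := by
  have e1 := ex_of_vx_eq h1
  have e2 := ex_of_vx_eq h2
  simp only [ex_mul, ex0_b] at e1
  obtain ⟨j', rfl⟩ : ∃ j', t = (some j', true) := by
    rcases ex_hel t with h | h | h
    · omega
    · omega
    · exact h.2
  have h3 : cv (g, j') 3 = cv (G, j) 3 := h1
  have h0 : cv (g, j') 0 = cv (G, j) 0 := h2
  obtain ⟨Ω, ω, -, b, -⟩ := ccut' (G, j) 1 0 {cv (G, j) 1}ᶜ (Or.inr (by simp)) (Or.inl rfl)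
  have hT' : ∀ m, m ≠ 1 → cv (G, j) m ∈ ({cv (G, j) 1}ᶜ : Set V) := fun m hm h =>
    hm (cv_inj _ (Set.mem_singleton_iff.1 h))
  have b0 := b (g, j') 0 (h0 ▸ hT' 0 (by decide))
  have b3 := b (g, j') 3 (h3 ▸ hT' 3 (by decide))
  rw [h0, b _ 0 (hT' 0 (by decide))] at b0
  rw [h3, b _ 3 (hT' 3 (by decide)), ind_pos rfl] at b3
  simp only [Matrix.cons_val_zero, zero_mul, add_zero, Matrix.cons_val, one_mul] at b0 b3
  rw [b0] at b3
  have h4 : (g, j') = (G, j) := of_ind_ne (by rw [← add_left_cancel b3]; decide)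
  obtain ⟨rfl, rfl⟩ := Prod.mk.inj h4
  exact ⟨rfl, rfl⟩

/-- The coset graph as a tree of `4`-cycles. -/
noncomputable def geom (k : ℕ) : Geom V Γ (Γ × Fin k) where
  adj := adj k
  symm := adj_symm
  src := vx
  tgt := fun G => vx (gu * G)
  cv := cv
  cn := cn
  cells := cells k
  cv_inj := cv_inj
  src_cn := src_cn
  tgt_cn := tgt_cn
  mem_cells := mem_cells
  diag := fun x => by
    constructor <;> intro h <;> have := ht_adj h <;>
      simp only [ht_cv, Int.odd_iff] at this <;> simp at this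
  q1 := q1
  q2 := fun G S h1 h2 p hp q hq ha hc hb => by
    obtain ⟨x, hx, h⟩ := q2 G S h1 h2 p hp q hq ha hc hb
    exact ⟨x, (mem_cells G x).2 hx, h⟩
  q3 := fun G x hx y hy => q3 G x ((mem_cells G x).1 hx) y ((mem_cells G y).1 hy)

end GeomAux

theorem geomStmt : GeomStmt := fun k =>
  ⟨GeomAux.geom k, rfl, rfl, rfl, rfl, rfl,
    fun G => Finset.card_image_le.trans (by simp), GeomAux.uniq_u, GeomAux.uniq_b⟩

end Crest.Agent.R89
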