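import Crest.Agent.R89.Defs

/-!
Row 89: Gaussian integration by parts for polynomials (`IBPStmt`).
-/

set_option autoImplicit false

namespace Crest.Agent.R89

open MeasureTheory ProbabilityTheory

namespace IBP

theorem iter_rec (w : ℝ) (j : ℕ) :
    iteratedDeriv (j + 1) (fun t : ℝ => Real.exp (w * t ^ 2 / 2)) = fun t =>
      w * (t * iteratedDeriv j (fun t : ℝ => Real.exp (w * t ^ 2 / 2)) t +
        j * iteratedDeriv (j - 1) (fun t : ℝ => Real.exp (w * t ^ 2 / 2)) t) := by
  have hc : ContDiff ℝ ⊤ (fun t : ℝ => Real.exp (w * t ^ 2 / 2)) := by fun_prop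
  have hd : ∀ i t, HasDerivAt (iteratedDeriv i (fun t : ℝ => Real.exp (w * t ^ 2 / 2)))
      (iteratedDeriv (i + 1) (fun t : ℝ => Real.exp (w * t ^ 2 / 2)) t) t := by
    intro i t
    rw [iteratedDeriv_succ]
    exact ((hc.differentiable_iteratedDeriv i (by exact_mod_cast WithTop.coe_lt_top _)) t).hasDerivAt
  induction j with
  | zero =>
    funext t
    rw [iteratedDeriv_one, iteratedDeriv_zero]
    have : HasDerivAt (fun t : ℝ => Real.exp (w * t ^ 2 / 2))
        (Real.exp (w * t ^ 2 / 2) * (w * (2 * t) / 2)) t := by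
      have h1 : HasDerivAt (fun t : ℝ => w * t ^ 2 / 2) (w * (2 * t) / 2) t := by
        simpa using ((hasDerivAt_pow 2 t).const_mul w).div_const 2
      exact h1.exp
    rw [this.deriv]
    simp only [Nat.cast_zero, zero_mul, add_zero]
    ring
  | succ j ih =>
    funext t
    rw [iteratedDeriv_succ, ih]
    have h1 := ((((hasDerivAt_id' t).fun_mul (hd j t)).fun_add
      ((hd (j - 1) t).const_mul (j : ℝ))).const_mul w).deriv
    rw [h1, Nat.add_sub_cancel, ← ih]
    rcases j with _ | j
    · simp; ring_nf; simp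
    · rw [Nat.add_sub_cancel]; push_cast; ring

theorem moment_eq (w : NNReal) (j : ℕ) : ∫ x : ℝ, x ^ j ∂(gaussianReal 0 w) =
    iteratedDeriv j (fun t : ℝ => Real.exp (w * t ^ 2 / 2)) 0 := by
  have h := iteratedDeriv_mgf_zero (X := fun x : ℝ => x) (μ := gaussianReal 0 w) (by simp) j
  rw [mgf_fun_id_gaussianReal] at h
  simp only [zero_mul, zero_add] at h
  rw [h]; rfl

theorem moment_rec (w : NNReal) (j : ℕ) : ∫ x : ℝ, x ^ (j + 1) ∂(gaussianReal 0 w) =
    w * j * ∫ x : ℝ, x ^ (j - 1) ∂(gaussianReal 0 w) := by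
  rw [moment_eq, moment_eq, iter_rec]
  ring

theorem integrable_pow (w : NNReal) (j : ℕ) :
    Integrable (fun x : ℝ => (x : ℂ) ^ j) (gaussianReal 0 w) := by
  have h := integrable_pow_of_mem_interior_integrableExpSet (X := fun x : ℝ => x)
    (μ := gaussianReal 0 w) (by simp) j
  simpa using h.ofReal (𝕜 := ℂ)

/-- Complex moments. -/
noncomputable def m (w : NNReal) (j : ℕ) : ℂ := ∫ x : ℝ, (x : ℂ) ^ j ∂(gaussianReal 0 w)

theorem m_eq (w : NNReal) (j : ℕ) : m w j = ((∫ x : ℝ, x ^ j ∂(gaussianReal 0 w) : ℝ) : ℂ) := by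
  rw [m, ← integral_complex_ofReal]
  simp

theorem m_rec (w : NNReal) (j : ℕ) : m w (j + 1) = w * j * m w (j - 1) := by
  rw [m_eq, m_eq, moment_rec]
  push_cast
  rfl

variable {ι : Type} [Fintype ι]

theorem eval_mon (s : ι →₀ ℕ) (a : ℂ) (x : ι → ℝ) :
    MvPolynomial.eval (fun i => (x i : ℂ)) (MvPolynomial.monomial s a) =
      a * ∏ i, (x i : ℂ) ^ s i := by
  rw [MvPolynomial.eval_monomial, Finsupp.prod_fintype _ _ (by simp)]

theorem integrable_eval (w : NNReal) (p : MvPolynomial ι ℂ) :
    Integrable (fun x : ι → ℝ => MvPolynomial.eval (fun i => (x i : ℂ)) p)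
      (Measure.pi fun _ => gaussianReal 0 w) := by
  induction p using MvPolynomial.induction_on' with
  | monomial s a =>
    simp only [eval_mon]
    exact (Integrable.fintype_prod (f := fun i (x : ℝ) => (x : ℂ) ^ s i)
      (fun i => integrable_pow w (s i))).const_mul a
  | add p q hp hq =>
    simp only [map_add]
    exact hp.add hq

theorem integral_mon (w : NNReal) (s : ι →₀ ℕ) (a : ℂ) :
    ∫ x : ι → ℝ, MvPolynomial.eval (fun i => (x i : ℂ)) (MvPolynomial.monomial s a)
      ∂(Measure.pi fun _ => gaussianReal 0 w) = a * ∏ i, m w (s i) := by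
  simp only [eval_mon]
  rw [integral_const_mul, integral_fintype_prod_eq_prod (fun i (x : ℝ) => (x : ℂ) ^ s i)]
  rfl

end IBP

open IBP in
theorem ibpStmt : IBPStmt := by
  classical
  intro ι _ w p
  refine ⟨integrable_eval w p, fun k => ?_⟩
  induction p using MvPolynomial.induction_on' with
  | monomial s a =>
    rw [MvPolynomial.pderiv_monomial, MvPolynomial.X, MvPolynomial.monomial_mul, integral_mon,
      integral_mon, ← Finset.mul_prod_erase _ _ (Finset.mem_univ k),
      ← Finset.mul_prod_erase _ _ (Finset.mem_univ k)]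
    have h1 : ∏ i ∈ Finset.univ.erase k, m w ((Finsupp.single k 1 + s : ι →₀ ℕ) i) =
        ∏ i ∈ Finset.univ.erase k, m w (s i) :=
      Finset.prod_congr rfl fun i hi => by simp [Finsupp.single_eq_of_ne (Finset.ne_of_mem_erase hi)]
    have h2 : ∏ i ∈ Finset.univ.erase k, m w ((s - Finsupp.single k 1 : ι →₀ ℕ) i) =
        ∏ i ∈ Finset.univ.erase k, m w (s i) :=
      Finset.prod_congr rfl fun i hi => by simp [Finsupp.single_eq_of_ne (Finset.ne_of_mem_erase hi)]
    rw [h1, h2]
    simp only [Finsupp.coe_add, Pi.add_apply, Finsupp.single_eq_same, Finsupp.coe_tsub,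
      Pi.sub_apply]
    rw [add_comm 1 (s k), m_rec]
    ring
  | add p q hp hq =>
    simp only [mul_add, map_add]
    rw [integral_add (integrable_eval w _) (integrable_eval w _),
      integral_add (integrable_eval w _) (integrable_eval w _), hp, hq, mul_add]

end Crest.Agent.R89
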