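import Crest.Agent.R89.Basic

/-! Row 89: the abstract local lemma. -/

set_option autoImplicit false

namespace Crest.Agent.R89

open scoped Classical

variable {W : Type} {adj : W → W → Prop}

lemma Conn.symm' (hs : ∀ p q, adj p q → adj q p) {S : Set W} {p q : W} (h : Conn adj S p q) :
    Conn adj S q p := by
  induction h with
  | refl => exact .refl
  | tail _ h ih => exact .head ⟨h.2.1, h.1, hs _ _ h.2.2⟩ ih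

/-- no path from `p` to `q` through `S` -/
def NP (adj : W → W → Prop) (S : Set W) (p q : W) : Prop :=
  ∀ p' ∈ S, ∀ q' ∈ S, adj p p' → Conn adj S p' q' → ¬ adj q' q

lemma NP.symm (hs : ∀ p q, adj p q → adj q p) {S : Set W} {p q : W} (h : NP adj S p q) :
    NP adj S q p := fun p' hp q' hq h1 h2 h3 => h q' hq p' hp (hs _ _ h3) (h2.symm' hs) (hs _ _ h1)

namespace RingData
variable {R : Type} [Ring R] (𝒟 : RingData W adj R)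

lemma e_empty : 𝒟.e ∅ = 0 := by
  have := 𝒟.e_union ∅ ∅ (by simp)
  rw [Set.union_self] at this
  exact left_eq_add.1 this

lemma ee (S : Set W) : 𝒟.e S * 𝒟.e S = 𝒟.e S := by rw [← 𝒟.e_inter, Set.inter_self]

lemma ee_sub {S T : Set W} (h : S ⊆ T) : 𝒟.e S * 𝒟.e T = 𝒟.e S := by
  rw [← 𝒟.e_inter, Set.inter_eq_left.2 h]

lemma ee_sup {S T : Set W} (h : S ⊆ T) : 𝒟.e T * 𝒟.e S = 𝒟.e S := by
  rw [← 𝒟.e_inter, Set.inter_eq_right.2 h]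

lemma ee_disj {S T : Set W} (h : Disjoint S T) : 𝒟.e S * 𝒟.e T = 0 := by
  rw [← 𝒟.e_inter, h.inter_eq, e_empty]

lemma e_compl (S : Set W) : 𝒟.e S + 𝒟.e Sᶜ = 1 := by
  rw [← 𝒟.e_union _ _ disjoint_compl_right, Set.union_compl_self, 𝒟.e_univ]

/-- the operator -/
def M : R := 𝒟.D - 𝒟.A

/-- the inverse of the compression to `S` -/
noncomputable def Inv (S : Set W) : R := 𝒟.e S * ↑(𝒟.unit S).unit⁻¹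

lemma Inv_spec (S : Set W) : 𝒟.e S * 𝒟.Inv S = 𝒟.Inv S ∧ 𝒟.Inv S * 𝒟.e S = 𝒟.Inv S ∧
    𝒟.Inv S * 𝒟.M * 𝒟.e S = 𝒟.e S ∧ 𝒟.e S * 𝒟.M * 𝒟.Inv S = 𝒟.e S := by
  have h1 := (𝒟.unit S).val_inv_mul
  have h2 := (𝒟.unit S).mul_val_inv
  have h3 := 𝒟.ee S
  rw [Inv, M]
  generalize (↑(𝒟.unit S).unit⁻¹ : R) = v at *
  generalize 𝒟.e S = e at *
  generalize 𝒟.D - 𝒟.A = m at *
  have h4 : e * v = v * e := by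
    linear_combination (norm := noncomm_ring) -(h1 * e * v) + v * e * h2 -
      v * h3 * m * e * v + v * e * m * h3 * v
  refine ⟨by rw [← mul_assoc, h3], by rw [mul_assoc, ← h4, ← mul_assoc, h3], ?_, ?_⟩
  · linear_combination (norm := noncomm_ring) h4 * m * e + h1 * e - v * e * m * h3 + v * h3
  · linear_combination (norm := noncomm_ring) e * h2 - h3 * m * e * v + h3 * v

lemma Inv_unique {S : Set W} {X : R} (h1 : X * 𝒟.e S = X) (h2 : X * 𝒟.M * 𝒟.e S = 𝒟.e S) :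
    X = 𝒟.Inv S := by
  obtain ⟨a, -, -, d⟩ := 𝒟.Inv_spec S
  linear_combination (norm := noncomm_ring) -h1 - X * d + h1 * 𝒟.M * 𝒟.Inv S - X * 𝒟.M * a +
    h2 * 𝒟.Inv S + a

lemma eMe {S T : Set W} (h : Disjoint S T) : 𝒟.e S * 𝒟.M * 𝒟.e T = -(𝒟.e S * 𝒟.A * 𝒟.e T) := by
  rw [M, mul_sub, sub_mul, 𝒟.e_D, mul_assoc, 𝒟.ee_disj h, mul_zero, zero_sub]

lemma Inv_split (S T : Set W) (h : ∀ a ∈ S, ∀ b ∈ S, adj a b → (a ∈ T ↔ b ∈ T)) :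
    𝒟.Inv S = 𝒟.Inv (S ∩ T) + 𝒟.Inv (S \ T) := by
  have d : Disjoint (S ∩ T) (S \ T) := Set.disjoint_left.2 fun _ h h' => h'.2 h.2
  have e0 : 𝒟.e S = 𝒟.e (S ∩ T) + 𝒟.e (S \ T) := by rw [← 𝒟.e_union _ _ d, Set.inter_union_sdiff]
  have e1 := 𝒟.eMe d
  have e2 := 𝒟.eMe d.symm
  rw [𝒟.e_A _ _ fun p hp q hq h' => hq.2 ((h p hp.1 q hq.1 h').1 hp.2)] at e1
  rw [𝒟.e_A _ _ fun p hp q hq h' => hp.2 ((h p hp.1 q hq.1 h').2 hq.2)] at e2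
  have e3 := 𝒟.ee_disj d
  have e4 := 𝒟.ee_disj d.symm
  obtain ⟨-, a2, a3, -⟩ := 𝒟.Inv_spec (S ∩ T)
  obtain ⟨-, b2, b3, -⟩ := 𝒟.Inv_spec (S \ T)
  refine (𝒟.Inv_unique ?_ ?_).symm <;> rw [e0]
  · linear_combination (norm := noncomm_ring) a2 + b2 - a2 * 𝒟.e (S \ T) + 𝒟.Inv (S ∩ T) * e3 -
      b2 * 𝒟.e (S ∩ T) + 𝒟.Inv (S \ T) * e4
  · linear_combination (norm := noncomm_ring) a3 + b3 - a2 * 𝒟.M * 𝒟.e (S \ T) +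
      𝒟.Inv (S ∩ T) * e1 - b2 * 𝒟.M * 𝒟.e (S ∩ T) + 𝒟.Inv (S \ T) * e2

lemma Inv_sum {K : Type} (F : Finset K) (T : K → Set W) (S : Set W)
    (h : ∀ y ∈ F, ∀ a ∈ S, ∀ b ∈ S, adj a b → (a ∈ T y ↔ b ∈ T y))
    (hd : ∀ x ∈ F, ∀ y ∈ F, ∀ a ∈ T x, a ∈ T y → x = y) :
    𝒟.Inv S = ∑ y ∈ F, 𝒟.Inv (S ∩ T y) + 𝒟.Inv {a | a ∈ S ∧ ∀ y ∈ F, a ∉ T y} := by
  induction F using Finset.induction_on with
  | empty => simp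
  | insert x F hx ih =>
    rw [ih (fun y hy => h y (Finset.mem_insert_of_mem hy)) fun y hy z hz =>
      hd y (Finset.mem_insert_of_mem hy) z (Finset.mem_insert_of_mem hz), Finset.sum_insert hx,
      𝒟.Inv_split {a | a ∈ S ∧ ∀ y ∈ F, a ∉ T y} (T x) fun a ha b hb =>
        h x (Finset.mem_insert_self _ _) a ha.1 b hb.1, add_comm (𝒟.Inv (S ∩ T x)), add_assoc]
    congr 3
    · ext a
      refine ⟨fun h => ⟨h.1.1, h.2⟩, fun h => ⟨⟨h.1, fun y hy h' => hx ?_⟩, h.2⟩⟩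
      exact hd x (Finset.mem_insert_self _ _) y (Finset.mem_insert_of_mem hy) a h.2 h' ▸ hy
    · ext a
      simp only [Set.mem_sdiff, Set.mem_ofPred_eq, Finset.forall_mem_insert]
      tauto

/-- excursions from `p` to `q` through `S` -/
noncomputable def Ex (p q : W) (S : Set W) : R := 𝒟.e {p} * 𝒟.A * 𝒟.Inv S * 𝒟.A * 𝒟.e {q}

lemma Ex_eq_zero (hs : ∀ p q, adj p q → adj q p) {S : Set W} {p q : W} (h : NP adj S p q) :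
    𝒟.Ex p q S = 0 := by
  set T : Set W := {w | ∃ p' ∈ S, adj p p' ∧ Conn adj S p' w} with hT
  have h1 := 𝒟.Inv_split S T fun a ha b hb h' =>
    ⟨fun ⟨c, h1, h2, h3⟩ => ⟨c, h1, h2, h3.tail ⟨ha, hb, h'⟩⟩,
      fun ⟨c, h1, h2, h3⟩ => ⟨c, h1, h2, h3.tail ⟨hb, ha, hs _ _ h'⟩⟩⟩
  have h2 := 𝒟.e_A (S ∩ T) {q} (by
    rintro a ⟨ha, c, h1, h2, h3⟩ _ rfl
    exact h c h1 a ha h2 h3)
  have h3 := 𝒟.e_A {p} (S \ T) (by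
    rintro _ rfl a ⟨ha, ha'⟩ h'
    exact ha' ⟨a, ha, h', .refl⟩)
  obtain ⟨-, a2, -, -⟩ := 𝒟.Inv_spec (S ∩ T)
  obtain ⟨b1, -, -, -⟩ := 𝒟.Inv_spec (S \ T)
  rw [Ex, h1]
  linear_combination (norm := noncomm_ring) 𝒟.e {p} * 𝒟.A * 𝒟.Inv (S ∩ T) * h2 -
    𝒟.e {p} * 𝒟.A * a2 * 𝒟.A * 𝒟.e {q} + h3 * 𝒟.Inv (S \ T) * 𝒟.A * 𝒟.e {q} -
    𝒟.e {p} * 𝒟.A * b1 * 𝒟.A * 𝒟.e {q}

/-- the amputated Green function -/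
def h : R := 𝒟.Li * 𝒟.G * 𝒟.Li - 𝒟.Li

/-- the self-energy of `U` -/
noncomputable def N (U : Set W) : R := 𝒟.Li * 𝒟.e U -
  (𝒟.e U * 𝒟.M * 𝒟.e U - 𝒟.e U * 𝒟.M * 𝒟.Inv Uᶜ * 𝒟.M * 𝒟.e U)

lemma e_Li (S : Set W) : 𝒟.e S * 𝒟.Li = 𝒟.Li * 𝒟.e S := by
  linear_combination (norm := noncomm_ring) -(𝒟.Li_L * 𝒟.e S * 𝒟.Li) - 𝒟.Li * 𝒟.e_L S * 𝒟.Li +
    𝒟.Li * 𝒟.e S * 𝒟.L_Li

lemma N_spec (U : Set W) : 𝒟.e U * 𝒟.N U = 𝒟.N U ∧ 𝒟.N U * 𝒟.e U = 𝒟.N U ∧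
    𝒟.e U * 𝒟.h * 𝒟.e U = 𝒟.N U + 𝒟.N U * 𝒟.L * (𝒟.h * 𝒟.e U) ∧
    𝒟.e U * 𝒟.h * 𝒟.e U = 𝒟.N U + 𝒟.e U * 𝒟.h * 𝒟.L * 𝒟.N U := by
  obtain ⟨-, -, a3, a4⟩ := 𝒟.Inv_spec Uᶜ
  have h1 : 𝒟.G * 𝒟.M = 1 := 𝒟.G_M
  have h2 : 𝒟.M * 𝒟.G = 1 := 𝒟.M_G
  have h3 := 𝒟.ee U
  have h4 := 𝒟.e_Li U
  have h5 := 𝒟.L_Li
  have h6 := 𝒟.Li_L
  have h7 : 𝒟.Inv Uᶜ * 𝒟.e U = 0 := by
    rw [← (𝒟.Inv_spec Uᶜ).2.1, mul_assoc, 𝒟.ee_disj disjoint_compl_left, mul_zero]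
  have h8 : 𝒟.e U * 𝒟.Inv Uᶜ = 0 := by
    rw [← (𝒟.Inv_spec Uᶜ).1, ← mul_assoc, 𝒟.ee_disj disjoint_compl_right, zero_mul]
  rw [eq_sub_of_add_eq' (𝒟.e_compl U)] at a3 a4
  rw [N, h]
  generalize 𝒟.Inv Uᶜ = v at *
  generalize 𝒟.e U = e at *
  generalize 𝒟.M = m at *
  generalize 𝒟.G = g at *
  generalize 𝒟.L = l at *
  generalize 𝒟.Li = j at *
  have k1 : (e * m * e - e * m * v * m * e) * g * e = e := by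
    linear_combination (norm := noncomm_ring) e * m * a3 * g * e + e * h2 * e + h3 -
      e * m * v * h2 * e - e * m * h7
  have k2 : e * g * (e * m * e - e * m * v * m * e) = e := by
    linear_combination (norm := noncomm_ring) e * g * a4 * m * e + e * h1 * e + h3 -
      e * h1 * v * m * e - h8 * m * e
  have k3 : e * (e * m * e - e * m * v * m * e) = e * m * e - e * m * v * m * e := by
    linear_combination (norm := noncomm_ring) h3 * m * e - h3 * m * v * m * e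
  have k4 : (e * m * e - e * m * v * m * e) * e = e * m * e - e * m * v * m * e := by
    linear_combination (norm := noncomm_ring) e * m * h3 - e * m * v * m * h3
  generalize e * m * e - e * m * v * m * e = k at *
  refine ⟨?_, ?_, ?_, ?_⟩
  · linear_combination (norm := noncomm_ring) h4 * e + j * h3 - k3
  · linear_combination (norm := noncomm_ring) j * h3 - k4
  · linear_combination (norm := noncomm_ring) h4 * g * j * e - h4 * e -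
      (j * e - k) * h5 * (g * j - 1) * e - k * g * h4 + k1 * j + h4 - k4
  · linear_combination (norm := noncomm_ring) -(e * (j * g - 1) * h6 * (j * e - k)) + h4 * g * k +
      j * k2 - k3

lemma h_mem : 𝒟.h ∈ 𝒟.I := by
  have h1 : 𝒟.G - 1 ∈ 𝒟.I := by
    have := 𝒟.I.mul_mem_left 𝒟.G _ (𝒟.I.sub_mem 𝒟.I_A 𝒟.I_D)
    convert this using 1
    linear_combination (norm := noncomm_ring) 𝒟.G_M
  have := 𝒟.I.mul_mem_right _ 𝒟.Li (𝒟.I.mul_mem_left 𝒟.Li _ (𝒟.I.sub_mem h1 𝒟.I_L))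
  convert this using 1
  rw [h]
  linear_combination (norm := noncomm_ring) 𝒟.Li_L * 𝒟.Li

lemma N_mem (U : Set W) : 𝒟.N U ∈ 𝒟.I := by
  rw [eq_sub_of_add_eq (𝒟.N_spec U).2.2.1.symm]
  exact 𝒟.I.sub_mem (𝒟.I.mul_mem_right _ _ (𝒟.I.mul_mem_left _ _ 𝒟.h_mem))
    (𝒟.I.mul_mem_left _ _ (𝒟.I.mul_mem_right _ _ 𝒟.h_mem))

/-- matrix entries -/
def ent (p q : W) (m : R) : R := 𝒟.e {p} * m * 𝒟.e {q}

lemma ent_mem (p q : W) {m : R} (hm : m ∈ 𝒟.I) : 𝒟.ent p q m ∈ 𝒟.I :=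
  𝒟.I.mul_mem_right _ _ (𝒟.I.mul_mem_left _ _ hm)

lemma ent_mul (p q s : W) (m m' : R) : 𝒟.e {p} * m * 𝒟.e {s} * 𝒟.L * m' * 𝒟.e {q} =
    𝒟.ent p s m * 𝒟.L * 𝒟.ent s q m' := by
  rw [ent, ent]
  linear_combination (norm := noncomm_ring) -(𝒟.e {p} * m * 𝒟.ee {s} * 𝒟.L * m' * 𝒟.e {q}) +
    𝒟.e {p} * m * 𝒟.e {s} * 𝒟.e_L {s} * m' * 𝒟.e {q}

lemma ent_h (p : W) : 𝒟.ent p p 𝒟.h = 0 := by
  rw [ent, h]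
  linear_combination (norm := noncomm_ring) 𝒟.e_Li {p} * 𝒟.G * 𝒟.Li * 𝒟.e {p} -
    𝒟.Li * 𝒟.e {p} * 𝒟.G * 𝒟.e_Li {p} + 𝒟.Li * 𝒟.diag p * 𝒟.Li + 𝒟.Li * 𝒟.e {p} * 𝒟.L_Li -
    𝒟.e_Li {p} * 𝒟.e {p} - 𝒟.Li * 𝒟.ee {p}

lemma ent_N {U : Set W} {p q : W} (hp : p ∈ U) (hq : q ∈ U) (hpq : p ≠ q) :
    𝒟.ent p q (𝒟.N U) = 𝒟.ent p q 𝒟.A + 𝒟.Ex p q Uᶜ := by
  have h1 := 𝒟.ee_sub (Set.singleton_subset_iff.2 hp)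
  have h2 := 𝒟.ee_sup (Set.singleton_subset_iff.2 hq)
  have d : Disjoint ({p} : Set W) {q} := Set.disjoint_singleton.2 hpq
  have h3 := 𝒟.ee_disj d
  have h4 := 𝒟.eMe d
  have h5 := 𝒟.eMe (S := {p}) (T := Uᶜ) (Set.disjoint_singleton_left.2 fun h => h hp)
  have h6 := 𝒟.eMe (S := Uᶜ) (T := {q}) (Set.disjoint_singleton_right.2 fun h => h hq)
  obtain ⟨a1, a2, -, -⟩ := 𝒟.Inv_spec Uᶜ
  have h7 : 𝒟.e {p} * 𝒟.M * 𝒟.Inv Uᶜ = -(𝒟.e {p} * 𝒟.A * 𝒟.Inv Uᶜ) := by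
    linear_combination (norm := noncomm_ring) h5 * 𝒟.Inv Uᶜ - 𝒟.e {p} * 𝒟.M * a1 -
      𝒟.e {p} * 𝒟.A * a1
  have h8 : 𝒟.Inv Uᶜ * 𝒟.M * 𝒟.e {q} = -(𝒟.Inv Uᶜ * 𝒟.A * 𝒟.e {q}) := by
    linear_combination (norm := noncomm_ring) 𝒟.Inv Uᶜ * h6 - a2 * 𝒟.M * 𝒟.e {q} -
      a2 * 𝒟.A * 𝒟.e {q}
  rw [ent, ent, Ex, N]
  linear_combination (norm := noncomm_ring) 𝒟.e {p} * 𝒟.Li * h2 + 𝒟.e_Li {p} * 𝒟.e {q} +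
    𝒟.Li * h3 - h1 * 𝒟.M * 𝒟.e U * 𝒟.e {q} - 𝒟.e {p} * 𝒟.M * h2 - h4 +
    h1 * 𝒟.M * 𝒟.Inv Uᶜ * 𝒟.M * 𝒟.e U * 𝒟.e {q} + 𝒟.e {p} * 𝒟.M * 𝒟.Inv Uᶜ * 𝒟.M * h2 +
    h7 * 𝒟.M * 𝒟.e {q} - 𝒟.e {p} * 𝒟.A * h8

lemma rep_le {n m : ℕ} (hm : m ≤ n) {r : ℝ} {a : R} (h : 𝒟.Rep n r a) : 𝒟.Rep m r a := by
  induction hm with
  | refl => exact h
  | step _ ih => exact ih (𝒟.rep_down _ _ _ h)

lemma rep_zero' (n : ℕ) {r : ℝ} (hr : 0 ≤ r) : 𝒟.Rep n r 0 := 𝒟.rep_mono _ _ _ _ hr (𝒟.rep_zero n)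

lemma rep_I' {r : ℝ} (hr : 0 ≤ r) {a : R} (ha : a ∈ 𝒟.I) : 𝒟.Rep 0 r a :=
  𝒟.rep_mono _ _ _ _ hr (𝒟.rep_I a ha)

lemma rep_sum {K : Type} (F : Finset K) (f : K → R) {n : ℕ} {b : ℝ} (h : ∀ y ∈ F, 𝒟.Rep n b (f y)) :
    𝒟.Rep n (F.card * b) (∑ y ∈ F, f y) := by
  induction F using Finset.induction_on with
  | empty => simpa using 𝒟.rep_zero n
  | insert x F hx ih =>
    rw [Finset.sum_insert hx, Finset.card_insert_of_notMem hx, Nat.cast_succ, add_mul, one_mul,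
      add_comm _ b]
    exact 𝒟.rep_add _ _ _ _ _ (h x (Finset.mem_insert_self _ _))
      (ih fun y hy => h y (Finset.mem_insert_of_mem hy))

/-- bounds inside a four-cycle -/
lemma cycle {f : Fin 4 → W} (hf : Function.Injective f) {n : ℕ} {r : ℝ} (r0 : 0 ≤ r) (r1 : r ≤ 1 / 5)
    (h1 : ∀ i j, i ≠ j → 𝒟.Rep n r (𝒟.ent (f i) (f j) (𝒟.N (Set.range f))))
    (h2 : ∀ i, 𝒟.ent (f i) (f (i + 2)) (𝒟.N (Set.range f)) = 0) :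
    (∀ i, 𝒟.Rep n (4 * r ^ 2) (𝒟.ent (f i) (f i) (𝒟.N (Set.range f)))) ∧
      ∀ i j, 𝒟.Rep n (2 * r) (𝒟.ent (f i) (f j) 𝒟.h) := by
  have he : ∀ i, 𝒟.e (Set.range f) = 𝒟.e {f i} + 𝒟.e {f (i + 1)} + 𝒟.e {f (i + 2)} +
      𝒟.e {f (i + 3)} := by
    intro i
    rw [← 𝒟.e_union, ← 𝒟.e_union, ← 𝒟.e_union]
    · congr 1
      ext w
      refine ⟨?_, ?_⟩
      · rintro ⟨j, rfl⟩
        simp only [Set.mem_union, Set.mem_singleton_iff, hf.eq_iff]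
        revert i j; decide
      · rintro (((rfl | rfl) | rfl) | rfl) <;> exact ⟨_, rfl⟩
    all_goals
      simp only [Set.disjoint_singleton_right, Set.mem_union, Set.mem_singleton_iff, hf.eq_iff]
      revert i; decide
  obtain ⟨a1, a2, a3, a4⟩ := 𝒟.N_spec (Set.range f)
  have b1 : ∀ i, 𝒟.e {f i} * 𝒟.e (Set.range f) = 𝒟.e {f i} := fun i =>
    𝒟.ee_sub (Set.singleton_subset_iff.2 ⟨i, rfl⟩)
  have b2 : ∀ i, 𝒟.e (Set.range f) * 𝒟.e {f i} = 𝒟.e {f i} := fun i =>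
    𝒟.ee_sup (Set.singleton_subset_iff.2 ⟨i, rfl⟩)
  have hN := 𝒟.N_mem (Set.range f)
  set N := 𝒟.N (Set.range f)
  have c1 : ∀ i j, 𝒟.ent (f i) (f j) 𝒟.h = 𝒟.ent (f i) (f j) N +
      𝒟.ent (f i) (f i) N * 𝒟.L * 𝒟.ent (f i) (f j) 𝒟.h +
      𝒟.ent (f i) (f (i + 1)) N * 𝒟.L * 𝒟.ent (f (i + 1)) (f j) 𝒟.h +
      𝒟.ent (f i) (f (i + 3)) N * 𝒟.L * 𝒟.ent (f (i + 3)) (f j) 𝒟.h := by
    intro i j
    have z : 𝒟.ent (f i) (f (i + 2)) N * 𝒟.L * 𝒟.ent (f (i + 2)) (f j) 𝒟.h = 0 := by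
      rw [h2, zero_mul, zero_mul]
    simp only [← ent_mul] at z ⊢
    rw [ent, ent]
    linear_combination (norm := noncomm_ring) 𝒟.e {f i} * a3 * 𝒟.e {f j} + z -
      b1 i * 𝒟.h * 𝒟.e (Set.range f) * 𝒟.e {f j} - 𝒟.e {f i} * 𝒟.h * b2 j +
      𝒟.e {f i} * N * 𝒟.L * 𝒟.h * b2 j - 𝒟.e {f i} * a2 * 𝒟.L * 𝒟.h * 𝒟.e {f j} +
      𝒟.e {f i} * N * he i * 𝒟.L * 𝒟.h * 𝒟.e {f j}
  have c2 : ∀ i, 𝒟.ent (f i) (f i) N =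
      -(𝒟.ent (f i) (f (i + 1)) 𝒟.h * 𝒟.L * 𝒟.ent (f (i + 1)) (f i) N +
      𝒟.ent (f i) (f (i + 3)) 𝒟.h * 𝒟.L * 𝒟.ent (f (i + 3)) (f i) N) := by
    intro i
    have z : 𝒟.ent (f i) (f (i + 2)) 𝒟.h * 𝒟.L * 𝒟.ent (f (i + 2)) (f i) N = 0 := by
      have := h2 (i + 2)
      rw [(by decide : ∀ i : Fin 4, i + 2 + 2 = i) i] at this
      rw [this, mul_zero]
    have z' : 𝒟.ent (f i) (f i) 𝒟.h * 𝒟.L * 𝒟.ent (f i) (f i) N = 0 := by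
      rw [ent_h, zero_mul, zero_mul]
    have z'' := 𝒟.ent_h (f i)
    simp only [← ent_mul] at z z' ⊢
    rw [ent] at z'' ⊢
    linear_combination (norm := noncomm_ring) -(𝒟.e {f i} * a4 * 𝒟.e {f i}) - z - z' + z'' +
      b1 i * 𝒟.h * 𝒟.e (Set.range f) * 𝒟.e {f i} + 𝒟.e {f i} * 𝒟.h * b2 i -
      b1 i * 𝒟.h * 𝒟.L * N * 𝒟.e {f i} + 𝒟.e {f i} * 𝒟.h * 𝒟.L * a1 * 𝒟.e {f i} +
      𝒟.e {f i} * 𝒟.h * 𝒟.e_L (Set.range f) * N * 𝒟.e {f i} -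
      𝒟.e {f i} * 𝒟.h * he i * 𝒟.L * N * 𝒟.e {f i}
  induction n with
  | zero => exact ⟨fun i => 𝒟.rep_I' (by positivity) (𝒟.ent_mem _ _ hN),
      fun i j => 𝒟.rep_I' (by positivity) (𝒟.ent_mem _ _ 𝒟.h_mem)⟩
  | succ n ih =>
    have h1' := fun i j h => 𝒟.rep_down _ _ _ (h1 i j h)
    obtain ⟨d1, d2⟩ := ih h1'
    have n1 : ∀ i : Fin 4, i ≠ i + 1 := by decide
    have n3 : ∀ i : Fin 4, i ≠ i + 3 := by decide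
    refine ⟨fun i => ?_, fun i j => ?_⟩
    · rw [c2]
      exact 𝒟.rep_mono _ _ _ _ (le_of_eq (by ring)) (𝒟.rep_neg _ _ _ (𝒟.rep_add _ _ _ _ _
        (𝒟.rep_mul _ _ _ _ _ (d2 _ _) (h1' _ _ (n1 i).symm))
        (𝒟.rep_mul _ _ _ _ _ (d2 _ _) (h1' _ _ (n3 i).symm))))
    · have t0 := 𝒟.rep_mul _ _ _ _ _ (d1 i) (d2 i j)
      have t1 := 𝒟.rep_mul _ _ _ _ _ (h1' _ _ (n1 i)) (d2 (i + 1) j)
      have t3 := 𝒟.rep_mul _ _ _ _ _ (h1' _ _ (n3 i)) (d2 (i + 3) j)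
      have q2 : r ^ 2 ≤ 1 / 5 * r := by nlinarith
      have q3 : r ^ 3 ≤ 1 / 25 * r := by nlinarith
      obtain rfl | rfl | rfl | rfl :=
        (by decide : ∀ i j : Fin 4, j = i ∨ j = i + 1 ∨ j = i + 2 ∨ j = i + 3) i j
      · rw [ent_h]; exact 𝒟.rep_zero' _ (by positivity)
      · rw [c1, ent_h, mul_zero, add_zero]
        exact 𝒟.rep_mono _ _ _ _ (by nlinarith)
          (𝒟.rep_add _ _ _ _ _ (𝒟.rep_add _ _ _ _ _ (h1 _ _ (n1 i)) t0) t3)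
      · rw [c1, h2, zero_add]
        exact 𝒟.rep_mono _ _ _ _ (by nlinarith) (𝒟.rep_add _ _ _ _ _ (𝒟.rep_add _ _ _ _ _ t0 t1) t3)
      · rw [c1, ent_h, mul_zero, add_zero]
        exact 𝒟.rep_mono _ _ _ _ (by nlinarith)
          (𝒟.rep_add _ _ _ _ _ (𝒟.rep_add _ _ _ _ _ (h1 _ _ (n3 i)) t0) t1)

/-- the contribution of one four-cycle -/
lemma side {C U : Set W} {p q z z' : W} (hU : U = C ∪ ({z} ∪ {z'})) (hp : p ∈ C) (hq : q ∈ C)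
    (hz : z ∉ C) (hz' : z' ∉ C) (hzz : z ≠ z') {n : ℕ} {a b c δ : ℝ} (a0 : 0 ≤ a) (b0 : 0 ≤ b)
    (b1 : b ≤ 1 / 5) (δ1 : δ ≤ 4 / 25) (h1 : 𝒟.ent p z' (𝒟.N U) = 0) (h2 : 𝒟.ent z q (𝒟.N U) = 0)
    (ha : 𝒟.Rep n a (𝒟.ent p z (𝒟.N U))) (hb : 𝒟.Rep n b (𝒟.ent z z' (𝒟.N U)))
    (hb' : 𝒟.Rep n b (𝒟.ent z' z (𝒟.N U))) (hc : 𝒟.Rep n c (𝒟.ent z' q (𝒟.N U)))
    (hδ : 𝒟.Rep n δ (𝒟.ent z z (𝒟.N U))) (hδ' : 𝒟.Rep n δ (𝒟.ent z' z' (𝒟.N U))) :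
    𝒟.Rep (n + 1) (4 * a * b * c) (𝒟.ent p q (𝒟.N C) - 𝒟.ent p q (𝒟.N U)) := by
  have d1 : Disjoint C {z} := Set.disjoint_singleton_right.2 hz
  have d2 : Disjoint C {z'} := Set.disjoint_singleton_right.2 hz'
  have he : 𝒟.e U = 𝒟.e C + (𝒟.e {z} + 𝒟.e {z'}) := by
    rw [hU, 𝒟.e_union _ _ (Set.disjoint_union_right.2 ⟨d1, d2⟩),
      𝒟.e_union _ _ (Set.disjoint_singleton.2 hzz)]
  obtain ⟨-, a2, a3, -⟩ := 𝒟.N_spec C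
  obtain ⟨c1, -, -, c4⟩ := 𝒟.N_spec U
  have e1 : 𝒟.e C * 𝒟.e U = 𝒟.e C := 𝒟.ee_sub (hU ▸ Set.subset_union_left)
  set B := (𝒟.e C - 𝒟.N C * 𝒟.L) * 𝒟.h with hB
  have hBI : B ∈ 𝒟.I := 𝒟.I.mul_mem_left _ _ 𝒟.h_mem
  have k0 : B * 𝒟.e C = 𝒟.N C := by
    rw [hB]; linear_combination (norm := noncomm_ring) a3
  have k1 : (𝒟.e C - 𝒟.N C * 𝒟.L) * 𝒟.e U = 𝒟.e C - 𝒟.N C * 𝒟.L := by
    linear_combination (norm := noncomm_ring) e1 + 𝒟.N C * 𝒟.e_L U + a2 * 𝒟.e U * 𝒟.L -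
      𝒟.N C * e1 * 𝒟.L - a2 * 𝒟.L
  have key : B * 𝒟.e U = 𝒟.e C * 𝒟.N U + B * (𝒟.e {z} + 𝒟.e {z'}) * 𝒟.L * 𝒟.N U := by
    linear_combination (norm := noncomm_ring) (𝒟.e C - 𝒟.N C * 𝒟.L) * c4 - k1 * 𝒟.h * 𝒟.e U +
      hB * 𝒟.e U + k1 * 𝒟.h * 𝒟.L * 𝒟.N U - hB * 𝒟.L * 𝒟.N U - B * 𝒟.L * c1 -
      B * 𝒟.e_L U * 𝒟.N U + B * he * 𝒟.L * 𝒟.N U + k0 * 𝒟.L * 𝒟.N U
  have key' : ∀ s ∈ U, 𝒟.ent p s B = 𝒟.ent p s (𝒟.N U) +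
      𝒟.ent p z B * 𝒟.L * 𝒟.ent z s (𝒟.N U) + 𝒟.ent p z' B * 𝒟.L * 𝒟.ent z' s (𝒟.N U) := by
    intro s hs
    simp only [← ent_mul]
    rw [ent, ent]
    linear_combination (norm := noncomm_ring) 𝒟.e {p} * key * 𝒟.e {s} -
      𝒟.e {p} * B * 𝒟.ee_sup (Set.singleton_subset_iff.2 hs) +
      𝒟.ee_sub (Set.singleton_subset_iff.2 hp) * 𝒟.N U * 𝒟.e {s}
  have k2 : 𝒟.ent p q B = 𝒟.ent p q (𝒟.N C) := by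
    rw [ent, ent, ← k0, mul_assoc _ (B * _), mul_assoc B, 𝒟.ee_sup (Set.singleton_subset_iff.2 hq),
      mul_assoc]
  have main : ∀ m ≤ n, 𝒟.Rep m (2 * a) (𝒟.ent p z B) ∧ 𝒟.Rep m (4 * a * b) (𝒟.ent p z' B) := by
    intro m hm
    induction m with
    | zero => exact ⟨𝒟.rep_I' (by positivity) (𝒟.ent_mem _ _ hBI),
        𝒟.rep_I' (by positivity) (𝒟.ent_mem _ _ hBI)⟩
    | succ m ih =>
      have hm' : m ≤ n := by omega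
      obtain ⟨i1, i2⟩ := ih hm'
      constructor
      · rw [key' z (by simp [hU])]
        refine 𝒟.rep_mono _ _ _ _ ?_ (𝒟.rep_add _ _ _ _ _ (𝒟.rep_add _ _ _ _ _ (𝒟.rep_le hm ha)
          (𝒟.rep_mul _ _ _ _ _ i1 (𝒟.rep_le hm' hδ))) (𝒟.rep_mul _ _ _ _ _ i2 (𝒟.rep_le hm' hb')))
        nlinarith [mul_le_mul_of_nonneg_left δ1 a0,
          mul_le_mul_of_nonneg_left (mul_le_mul b1 b1 b0 (by norm_num)) a0]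
      · rw [key' z' (by simp [hU]), h1, zero_add]
        refine 𝒟.rep_mono _ _ _ _ ?_ (𝒟.rep_add _ _ _ _ _
          (𝒟.rep_mul _ _ _ _ _ i1 (𝒟.rep_le hm' hb)) (𝒟.rep_mul _ _ _ _ _ i2 (𝒟.rep_le hm' hδ')))
        nlinarith [mul_le_mul_of_nonneg_left δ1 (mul_nonneg a0 b0), mul_nonneg a0 b0]
  rw [← k2, key' q (by simp [hU, hq]), h2, mul_zero, add_zero, add_sub_cancel_left]
  exact 𝒟.rep_mul _ _ _ _ _ (main n le_rfl).2 hc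

end RingData

namespace Geom
variable {N K : Type} (𝒢 : Geom W N K)

/-- the two ends of a node -/
abbrev ends (G : N) : Set W := {𝒢.src G, 𝒢.tgt G}

/-- the branch of a cell at a node -/
def br (G : N) (x : K) : Set W :=
  {w | w ∉ 𝒢.ends G ∧ ∃ z ∈ Set.range (𝒢.cv x), z ∉ 𝒢.ends G ∧ Conn 𝒢.adj (𝒢.ends G)ᶜ z w}

variable {𝒢} {G : N}

lemma br_disj : ∀ x ∈ 𝒢.cells G, ∀ y ∈ 𝒢.cells G, ∀ a ∈ 𝒢.br G x, a ∈ 𝒢.br G y → x = y :=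
  fun x hx y hy _ ⟨_, z, h1, h2, h3⟩ ⟨_, z', h1', h2', h3'⟩ =>
    𝒢.q3 G x hx y hy z h1 z' h1' h2 h2' (h3.trans (h3'.symm' 𝒢.symm))

lemma mem_br {x : K} {w : W} (h : w ∈ Set.range (𝒢.cv x)) (h' : w ∉ 𝒢.ends G) : w ∈ 𝒢.br G x :=
  ⟨h', w, h, h', .refl⟩

lemma np {S : Set W} (hS : S ⊆ (𝒢.ends G)ᶜ) (h : ∀ y ∈ 𝒢.cells G, ∀ z ∈ S, z ∉ Set.range (𝒢.cv y)) :
    NP 𝒢.adj S (𝒢.src G) (𝒢.tgt G) := fun p hp q hq h1 h2 h3 => by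
  obtain ⟨y, hy, z, hz, hz'⟩ := 𝒢.q2 G S (fun h => hS h (.inl rfl)) (fun h => hS h (.inr rfl))
    p hp q hq h1 h2 h3
  exact h y hy z hz hz'

/-- the two orientations of a node -/
def Ori (G : N) (p q : W) : Prop := p = 𝒢.src G ∧ q = 𝒢.tgt G ∨ p = 𝒢.tgt G ∧ q = 𝒢.src G

lemma Ori.np {p q : W} (o : 𝒢.Ori G p q) {S : Set W} (hS : S ⊆ (𝒢.ends G)ᶜ)
    (h : ∀ y ∈ 𝒢.cells G, ∀ z ∈ S, z ∉ Set.range (𝒢.cv y)) : NP 𝒢.adj S p q := by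
  obtain ⟨rfl, rfl⟩ | ⟨rfl, rfl⟩ := o
  exacts [Geom.np hS h, (Geom.np hS h).symm 𝒢.symm]

lemma ends_subset {x : K} (hx : x ∈ 𝒢.cells G) : 𝒢.ends G ⊆ Set.range (𝒢.cv x) := by
  obtain ⟨i, rfl⟩ := (𝒢.mem_cells _ _).1 hx
  rintro _ (rfl | rfl)
  exacts [⟨_, (𝒢.src_cn x i).symm⟩, ⟨_, (𝒢.tgt_cn x i).symm⟩]

lemma Ori.mem {p q : W} (o : 𝒢.Ori G p q) : p ∈ 𝒢.ends G ∧ q ∈ 𝒢.ends G := by
  obtain ⟨rfl, rfl⟩ | ⟨rfl, rfl⟩ := o <;> simp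

lemma Ori.ne {p q : W} (o : 𝒢.Ori G p q) {x : K} (hx : x ∈ 𝒢.cells G) : p ≠ q := by
  obtain ⟨i, rfl⟩ := (𝒢.mem_cells _ _).1 hx
  have : 𝒢.src (𝒢.cn x i) ≠ 𝒢.tgt (𝒢.cn x i) := by
    rw [𝒢.src_cn, 𝒢.tgt_cn]
    exact fun h => (Fin.castSucc_lt_succ (i := i)).ne (𝒢.cv_inj x h)
  obtain ⟨rfl, rfl⟩ | ⟨rfl, rfl⟩ := o
  exacts [this, this.symm]

variable {R : Type} [Ring R] (𝒟 : RingData W 𝒢.adj R)

lemma Ex_dec {p q : W} (o : 𝒢.Ori G p q) {S : Set W} (hS : S ⊆ (𝒢.ends G)ᶜ) :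
    𝒟.Ex p q S = ∑ y ∈ 𝒢.cells G, 𝒟.Ex p q (S ∩ 𝒢.br G y) := by
  have h1 := 𝒟.Inv_sum (𝒢.cells G) (𝒢.br G) S (fun y _ a ha b hb h =>
    ⟨fun ⟨h1, z, h2, h3, h4⟩ => ⟨hS hb, z, h2, h3, h4.tail ⟨hS ha, hS hb, h⟩⟩,
      fun ⟨h1, z, h2, h3, h4⟩ => ⟨hS ha, z, h2, h3, h4.tail ⟨hS hb, hS ha, 𝒢.symm _ _ h⟩⟩⟩) br_disj
  have h2 := 𝒟.Ex_eq_zero 𝒢.symm (o.np (S := {a | a ∈ S ∧ ∀ y ∈ 𝒢.cells G, a ∉ 𝒢.br G y})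
    (fun _ h => hS h.1) fun y hy z hz hz' => hz.2 y hy (mem_br hz' (hS hz.1)))
  rw [RingData.Ex] at h2
  rw [RingData.Ex, h1, mul_add, add_mul, add_mul, h2, add_zero, Finset.mul_sum, Finset.sum_mul,
    Finset.sum_mul]
  rfl

lemma N_cell {p q : W} (o : 𝒢.Ori G p q) {x : K} (hx : x ∈ 𝒢.cells G) :
    𝒟.ent p q (𝒟.N (Set.range (𝒢.cv x))) =
      𝒟.ent p q 𝒟.A + ∑ y ∈ (𝒢.cells G).erase x, 𝒟.Ex p q (𝒢.br G y) := by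
  have hs := ends_subset hx
  rw [𝒟.ent_N (hs o.mem.1) (hs o.mem.2) (o.ne hx), Ex_dec 𝒟 o (Set.compl_subset_compl.2 hs),
    ← Finset.add_sum_erase _ _ hx, 𝒟.Ex_eq_zero 𝒢.symm (o.np (fun _ h => h.2.1)
      fun y hy z hz hz' => hz.1 (br_disj x hx y hy z hz.2 (mem_br hz' hz.2.1) ▸ hz')), zero_add]
  congr 1
  refine Finset.sum_congr rfl fun y hy => ?_
  congr 1
  exact Set.inter_eq_right.2 fun z hz hz' => (Finset.mem_erase.1 hy).1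
    (br_disj y (Finset.mem_of_mem_erase hy) x hx z hz (mem_br hz' hz.1))

lemma Ex_eq {p q : W} (o : 𝒢.Ori G p q) {x : K} (hx : x ∈ 𝒢.cells G) :
    𝒟.Ex p q (𝒢.br G x) =
      𝒟.ent p q (𝒟.N (𝒢.ends G)) - 𝒟.ent p q (𝒟.N (Set.range (𝒢.cv x))) := by
  rw [N_cell 𝒟 o hx, 𝒟.ent_N o.mem.1 o.mem.2 (o.ne hx), Ex_dec 𝒟 o subset_rfl,
    Finset.sum_congr rfl fun y _ => by rw [Set.inter_eq_right.2 fun z hz => hz.1],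
    ← Finset.add_sum_erase _ _ hx]
  abel

lemma N_np {x : K} {i j : Fin 4} (h : i = 0 ∧ j = 2 ∨ i = 1 ∧ j = 3 ∨ i = 0 ∧ j = 3) :
    𝒟.ent (𝒢.cv x i) (𝒢.cv x j) (𝒟.N (Set.range (𝒢.cv x))) = 𝒟.ent (𝒢.cv x i) (𝒢.cv x j) 𝒟.A ∧
    𝒟.ent (𝒢.cv x j) (𝒢.cv x i) (𝒟.N (Set.range (𝒢.cv x))) = 𝒟.ent (𝒢.cv x j) (𝒢.cv x i) 𝒟.A := by
  have h1 : NP 𝒢.adj (Set.range (𝒢.cv x))ᶜ (𝒢.cv x i) (𝒢.cv x j) := fun p hp q hq =>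
    𝒢.q1 x i j h p q hp hq
  have h2 : 𝒢.cv x i ≠ 𝒢.cv x j := fun e => by
    have := 𝒢.cv_inj x e
    omega
  rw [𝒟.ent_N (Set.mem_range_self i) (Set.mem_range_self j) h2,
    𝒟.ent_N (Set.mem_range_self j) (Set.mem_range_self i) h2.symm, 𝒟.Ex_eq_zero 𝒢.symm h1,
    𝒟.Ex_eq_zero 𝒢.symm (h1.symm 𝒢.symm), add_zero, add_zero]
  exact ⟨rfl, rfl⟩

lemma N_diag (x : K) (i : Fin 4) :
    𝒟.ent (𝒢.cv x i) (𝒢.cv x (i + 2)) (𝒟.N (Set.range (𝒢.cv x))) = 0 := by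
  have z : ∀ p q, ¬ 𝒢.adj p q → 𝒟.ent p q 𝒟.A = 0 := fun p q h =>
    𝒟.e_A _ _ (by rintro _ rfl _ rfl; exact h)
  have h1 := N_np 𝒟 (x := x) (.inl ⟨rfl, rfl⟩)
  have h2 := N_np 𝒟 (x := x) (.inr (.inl ⟨rfl, rfl⟩))
  obtain ⟨d1, d2⟩ := 𝒢.diag x
  fin_cases i
  exacts [h1.1.trans (z _ _ d1), h2.1.trans (z _ _ d2), h1.2.trans (z _ _ fun h => d1 (𝒢.symm _ _ h)),
    h2.2.trans (z _ _ fun h => d2 (𝒢.symm _ _ h))]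

end Geom

open Geom in
theorem localStmt : LocalStmt := by
  intro W N K 𝒢 R _ 𝒟 κ α r r0 hκ α0 hr0 hr hr1 hα hA hB
  have r00 : 0 ≤ r0 := hr0.trans hr
  have step : ∀ n, (∀ G, ∀ x ∈ 𝒢.cells G, ∀ p q, 𝒢.Ori G p q →
      𝒟.Rep n (4 * r ^ 2 * r0) (𝒟.Ex p q (𝒢.br G x))) → ∀ x,
      (∀ i : Fin 3, 𝒟.Rep n r (𝒟.ent (𝒢.cv x i.castSucc) (𝒢.cv x i.succ) (𝒟.N (Set.range (𝒢.cv x)))) ∧
        𝒟.Rep n r (𝒟.ent (𝒢.cv x i.succ) (𝒢.cv x i.castSucc) (𝒟.N (Set.range (𝒢.cv x))))) ∧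
      (𝒟.Rep n r0 (𝒟.ent (𝒢.cv x 0) (𝒢.cv x 3) (𝒟.N (Set.range (𝒢.cv x)))) ∧
        𝒟.Rep n r0 (𝒟.ent (𝒢.cv x 3) (𝒢.cv x 0) (𝒟.N (Set.range (𝒢.cv x))))) ∧
      (∀ i, 𝒟.Rep n (4 * r0 ^ 2) (𝒟.ent (𝒢.cv x i) (𝒢.cv x i) (𝒟.N (Set.range (𝒢.cv x))))) ∧
      ∀ i j, 𝒟.Rep n (2 * r0) (𝒟.ent (𝒢.cv x i) (𝒢.cv x j) 𝒟.h) := by
    intro n H x
    have o0 : ∀ G, x ∈ 𝒢.cells G → ∀ p q, 𝒢.Ori G p q → 𝒟.Rep n α (𝒟.ent p q 𝒟.A) →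
        𝒟.Rep n r (𝒟.ent p q (𝒟.N (Set.range (𝒢.cv x)))) := by
      intro G hx p q o h
      rw [N_cell 𝒟 o hx]
      refine 𝒟.rep_mono _ _ _ _ ?_ (𝒟.rep_add _ _ _ _ _ h (𝒟.rep_sum _ _ fun y hy =>
        H G y (Finset.mem_of_mem_erase hy) p q o))
      have : (((𝒢.cells G).erase x).card : ℝ) ≤ κ :=
        Nat.cast_le.2 (Finset.card_erase_le.trans (hκ G))
      nlinarith [mul_le_mul_of_nonneg_right this (show 0 ≤ 4 * r ^ 2 * r0 by positivity)]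
    have o1 : ∀ i : Fin 3,
        𝒟.Rep n r (𝒟.ent (𝒢.cv x i.castSucc) (𝒢.cv x i.succ) (𝒟.N (Set.range (𝒢.cv x)))) ∧
        𝒟.Rep n r (𝒟.ent (𝒢.cv x i.succ) (𝒢.cv x i.castSucc) (𝒟.N (Set.range (𝒢.cv x)))) := by
      intro i
      have hx := (𝒢.mem_cells _ x).2 ⟨i, rfl⟩
      rw [← 𝒢.src_cn, ← 𝒢.tgt_cn]
      exact ⟨o0 _ hx _ _ (.inl ⟨rfl, rfl⟩) (hA n _).1, o0 _ hx _ _ (.inr ⟨rfl, rfl⟩) (hA n _).2⟩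
    have o2 := N_np 𝒟 (x := x) (.inr (.inr ⟨rfl, rfl⟩))
    have o3 : 𝒟.Rep n r0 (𝒟.ent (𝒢.cv x 0) (𝒢.cv x 3) (𝒟.N (Set.range (𝒢.cv x)))) ∧
        𝒟.Rep n r0 (𝒟.ent (𝒢.cv x 3) (𝒢.cv x 0) (𝒟.N (Set.range (𝒢.cv x)))) :=
      ⟨o2.1 ▸ (hB n x).1, o2.2 ▸ (hB n x).2⟩
    refine ⟨o1, o3, 𝒟.cycle (𝒢.cv_inj x) r00 hr1 (fun i j hij => ?_) (N_diag 𝒟 x)⟩
    obtain rfl | ⟨k, rfl, rfl⟩ | ⟨k, rfl, rfl⟩ | ⟨rfl, rfl⟩ | ⟨rfl, rfl⟩ :=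
      (by decide : ∀ i j : Fin 4, i ≠ j → j = i + 2 ∨ (∃ k : Fin 3, i = k.castSucc ∧ j = k.succ) ∨
        (∃ k : Fin 3, i = k.succ ∧ j = k.castSucc) ∨ (i = 0 ∧ j = 3) ∨ (i = 3 ∧ j = 0)) i j hij
    · rw [N_diag]; exact 𝒟.rep_zero' _ r00
    exacts [𝒟.rep_mono _ _ _ _ hr (o1 k).1, 𝒟.rep_mono _ _ _ _ hr (o1 k).2, o3.1, o3.2]
  have H : ∀ n G, ∀ x ∈ 𝒢.cells G, ∀ p q, 𝒢.Ori G p q →
      𝒟.Rep n (4 * r ^ 2 * r0) (𝒟.Ex p q (𝒢.br G x)) := by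
    intro n
    induction n with
    | zero => exact fun G x _ p q _ => 𝒟.rep_I' (by positivity) (𝒟.I.mul_mem_right _ _
        (𝒟.I.mul_mem_left _ _ 𝒟.I_A))
    | succ n ih =>
      intro G x hx p q o
      obtain ⟨o1, o3, o4, -⟩ := step n ih x
      have dg := N_diag 𝒟 x
      have inj := 𝒢.cv_inj x
      have δ1 : 4 * r0 ^ 2 ≤ 4 / 25 := by nlinarith
      have main : ∀ (C : Set W) (i j k l : Fin 4) (a b c : ℝ), C = {𝒢.cv x i, 𝒢.cv x j} →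
          (∀ t, t = i ∨ t = j ∨ t = k ∨ t = l) → k ≠ i ∧ k ≠ j ∧ l ≠ i ∧ l ≠ j ∧ k ≠ l →
          l = i + 2 → j = k + 2 → 0 ≤ a → 0 ≤ b → b ≤ 1 / 5 → 4 * a * b * c = 4 * r ^ 2 * r0 →
          𝒟.Rep n a (𝒟.ent (𝒢.cv x i) (𝒢.cv x k) (𝒟.N (Set.range (𝒢.cv x)))) →
          𝒟.Rep n b (𝒟.ent (𝒢.cv x k) (𝒢.cv x l) (𝒟.N (Set.range (𝒢.cv x)))) →
          𝒟.Rep n b (𝒟.ent (𝒢.cv x l) (𝒢.cv x k) (𝒟.N (Set.range (𝒢.cv x)))) →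
          𝒟.Rep n c (𝒟.ent (𝒢.cv x l) (𝒢.cv x j) (𝒟.N (Set.range (𝒢.cv x)))) →
          𝒟.Rep (n + 1) (4 * r ^ 2 * r0) (𝒟.ent (𝒢.cv x i) (𝒢.cv x j) (𝒟.N C) -
            𝒟.ent (𝒢.cv x i) (𝒢.cv x j) (𝒟.N (Set.range (𝒢.cv x)))) := by
        rintro C i j k l a b c rfl h1 h2 h3 h4 a0 b0 b1 e ha hb hb' hc
        rw [← e]
        refine 𝒟.side ?_ (.inl rfl) (.inr rfl) ?_ ?_ (inj.ne h2.2.2.2.2) a0 b0 b1 δ1 (h3 ▸ dg i)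
          (h4 ▸ dg k) ha hb hb' hc (o4 _) (o4 _)
        · ext w
          refine ⟨?_, ?_⟩
          · rintro ⟨t, rfl⟩
            obtain rfl | rfl | rfl | rfl := h1 t <;> simp
          · rintro ((rfl | rfl) | rfl | rfl) <;> exact ⟨_, rfl⟩
        · simp [inj.eq_iff, h2.1, h2.2.1]
        · simp [inj.eq_iff, h2.2.2.1, h2.2.2.2.1]
      rw [Ex_eq 𝒟 o hx]
      obtain ⟨i, rfl⟩ := (𝒢.mem_cells _ _).1 hx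
      have r1 := hr.trans hr1
      rw [Geom.ends]
      obtain ⟨rfl, rfl⟩ | ⟨rfl, rfl⟩ := o <;> rw [𝒢.src_cn, 𝒢.tgt_cn] <;> fin_cases i
      · exact main _ 0 1 3 2 r0 r r rfl (by decide) (by decide) rfl rfl r00 hr0 r1 (by ring) o3.1
          (o1 2).2 (o1 2).1 (o1 1).2
      · exact main _ 1 2 0 3 r r0 r rfl (by decide) (by decide) rfl rfl hr0 r00 hr1 (by ring) (o1 0).2
          o3.1 o3.2 (o1 2).2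
      · exact main _ 2 3 1 0 r r r0 rfl (by decide) (by decide) rfl rfl hr0 hr0 r1 (by ring) (o1 1).2
          (o1 0).2 (o1 0).1 o3.1
      · exact main _ 1 0 2 3 r r r0 (Set.pair_comm _ _) (by decide) (by decide) rfl rfl hr0 hr0 r1
          (by ring) (o1 1).1 (o1 2).1 (o1 2).2 o3.2
      · exact main _ 2 1 3 0 r r0 r (Set.pair_comm _ _) (by decide) (by decide) rfl rfl hr0 r00 hr1
          (by ring) (o1 2).1 o3.2 o3.1 (o1 0).1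
      · exact main _ 3 2 0 1 r0 r r (Set.pair_comm _ _) (by decide) (by decide) rfl rfl r00 hr0 r1
          (by ring) o3.2 (o1 0).1 (o1 0).2 (o1 1).1
  exact fun n x i j => (step n (H n) x).2.2.2 i j

end Crest.Agent.R89
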