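import Crest.Agent.R89.Basic

/-!
Row 89: the microstates entropy of the model is not `-∞`.
-/

set_option autoImplicit false

namespace Crest.Agent.R89

open Crest.OpAlg MeasureTheory ProbabilityTheory Filter Topology
open scoped ENNReal NNReal Classical

namespace LowerAux

/-- a measure dominated by a product measure on boxes is dominated by it -/
theorem le_pi {ι : Type} [Fintype ι] (m : Measure (ι → ℝ)) (ν : ι → Measure ℝ)
    (h : ∀ s : ι → Set ℝ, m (Set.pi Set.univ s) ≤ ∏ i, ν i (s i)) : m ≤ Measure.pi ν := by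
  rw [Measure.le_iff]
  intro s hs
  rw [Measure.pi_def, toMeasure_apply _ _ hs]
  exact (OuterMeasure.le_pi (n := m.toOuterMeasure)).2 (fun s _ => h s) s

theorem gauss_le (b : ℝ) {v : ℝ≥0} (hv : v ≠ 0) (s : Set ℝ) :
    gaussianReal b v s ≤ ENNReal.ofReal (√(2 * Real.pi * v))⁻¹ * volume s := by
  rw [gaussianReal_apply _ hv]
  calc ∫⁻ x in s, gaussianPDF b v x ≤ ∫⁻ _x in s, ENNReal.ofReal (√(2 * Real.pi * v))⁻¹ := by
        refine lintegral_mono fun x => ENNReal.ofReal_le_ofReal ?_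
        refine mul_le_of_le_one_right (by positivity) (Real.exp_le_one_iff.2 ?_)
        exact div_nonpos_of_nonpos_of_nonneg (neg_nonpos.2 (sq_nonneg _)) (by positivity)
    _ = _ := by rw [setLIntegral_const]

/-- volume bound for the affine image of a Gaussian vector -/
theorem gauss_pi_le {ι : Type} [Fintype ι] (b σ : ι → ℝ) (hσ : ∀ i, 0 < σ i) {w : ℝ≥0}
    (hw : w ≠ 0) (T : Set (ι → ℝ)) :
    ENNReal.ofReal (∏ i, √(2 * Real.pi * (σ i ^ 2 * w))) *
      (Measure.pi fun _ : ι => gaussianReal 0 w) ((fun x i => b i + σ i * x i) ⁻¹' T) ≤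
      volume T := by
  have hw' : (0 : ℝ) < w := NNReal.coe_pos.2 (pos_iff_ne_zero.2 hw)
  have hmap : ∀ i, (gaussianReal 0 w).map (fun t => b i + σ i * t) =
      gaussianReal (b i) (.mk (σ i ^ 2) (sq_nonneg _) * w) := fun i => by
    rw [show (fun t => b i + σ i * t) = (fun t => b i + t) ∘ fun t => σ i * t from rfl,
      ← Measure.map_map (by fun_prop) (by fun_prop), gaussianReal_map_const_mul,
      gaussianReal_map_const_add]
    simp
  have h1 : (Measure.pi fun _ : ι => gaussianReal 0 w).map (fun x i => b i + σ i * x i) =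
      Measure.pi fun i => gaussianReal (b i) (.mk (σ i ^ 2) (sq_nonneg _) * w) := by
    rw [Measure.pi_map_pi (f := fun i t => b i + σ i * t) (fun i => by fun_prop)]
    simp only [hmap]
  have h2 : ENNReal.ofReal (∏ i, √(2 * Real.pi * (σ i ^ 2 * w))) •
      (Measure.pi fun i => gaussianReal (b i) (.mk (σ i ^ 2) (sq_nonneg _) * w)) ≤
      (volume : Measure (ι → ℝ)) := by
    rw [volume_pi]
    refine le_pi _ _ fun s => ?_
    rw [Measure.smul_apply, Measure.pi_pi, smul_eq_mul,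
      ENNReal.ofReal_prod_of_nonneg (fun i _ => Real.sqrt_nonneg _), ← Finset.prod_mul_distrib]
    refine Finset.prod_le_prod' fun i _ => ?_
    have hσi := hσ i
    have hv : (NNReal.mk (σ i ^ 2) (sq_nonneg _) * w) ≠ 0 := by
      rw [← NNReal.coe_ne_zero]; simp only [NNReal.coe_mul, NNReal.coe_mk]; positivity
    refine (mul_le_mul_right (gauss_le _ hv (s i)) _).trans_eq ?_
    rw [← mul_assoc, ← ENNReal.ofReal_mul (Real.sqrt_nonneg _)]
    simp only [NNReal.coe_mul, NNReal.coe_mk]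
    rw [mul_inv_cancel₀ (by positivity), ENNReal.ofReal_one, one_mul]
  refine le_trans ?_ (h2 T)
  rw [Measure.smul_apply, smul_eq_mul, ← h1]
  exact mul_le_mul_right (Measure.le_map_apply
    (measurable_pi_lambda _ fun i => by fun_prop).aemeasurable T) _

/-- the real coordinates of a Hermitian matrix -/
noncomputable def coords {d : ℕ} (M : Matrix (Fin d) (Fin d) ℂ) (p : Fin d × Fin d) : ℝ :=
  if p.1 = p.2 then (M p.1 p.1).re else if p.1 < p.2 then √2 * (M p.1 p.2).re
    else √2 * (M p.2 p.1).im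

theorem herm_affine {d : ℕ} (M : Matrix (Fin d) (Fin d) ℂ) (hM : star M = M) (σ : ℝ)
    (x : Fin d × Fin d → ℝ) :
    hermitianOfCoords (WithLp.toLp 2 fun p => coords M p + σ * x p) =
      M + (σ : ℂ) • hermitianOfCoords (WithLp.toLp 2 x) := by
  have hs : ((√2 : ℝ) : ℂ) ≠ 0 := by
    rw [Complex.ofReal_ne_zero]; positivity
  have hc : ∀ i j, (starRingEnd ℂ) (M j i) = M i j := fun i j => by
    have := congrFun (congrFun hM i) j
    simpa [Matrix.star_apply] using this
  ext i j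
  simp only [hermitianOfCoords, coords, Matrix.add_apply, Matrix.smul_apply, smul_eq_mul]
  rcases lt_trichotomy i j with h | h | h
  · simp only [h.ne, h, h.ne', h.not_gt, if_true, if_false]
    push_cast
    field_simp
    conv_rhs => rw [← Complex.re_add_im (M i j)]
    ring
  · subst h
    simp only [if_true]
    push_cast
    rw [Complex.conj_eq_iff_re.1 (hc i i)]
  · simp only [h.ne, h, h.ne', h.not_gt, if_true, if_false]
    push_cast
    field_simp
    conv_rhs => rw [← hc i j, ← Complex.re_add_im (M j i)]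
    simp only [map_add, map_mul, Complex.conj_ofReal, Complex.conj_I]
    ring

theorem lift_apply (ap : Approx) (N : ℕ) (x : CG) :
    MonoidAlgebra.lift ℂ _ Γ (ap.π N) x = ∑ g ∈ x.coeff.support, x.coeff g • ap.π N g := by
  rw [MonoidAlgebra.lift_apply]; rfl

theorem star_lift (ap : Approx) (N : ℕ) {x : CG} (hx : Herm x) :
    star (MonoidAlgebra.lift ℂ _ Γ (ap.π N) x) = MonoidAlgebra.lift ℂ _ Γ (ap.π N) x := by
  rw [lift_apply, star_sum]
  refine Finset.sum_nbij' (fun g => g⁻¹) (fun g => g⁻¹) ?_ ?_ (by simp) (by simp) ?_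
  · intro g hg; simpa [hx g] using hg
  · intro g hg; simpa [hx g] using hg
  · intro g _; rw [star_smul, ap.star_π, hx g]

theorem norm_π_le (ap : Approx) (N : ℕ) (g : Γ) :
    ‖Matrix.toEuclideanCLM (n := Fin (ap.d N)) (𝕜 := ℂ) (ap.π N g)‖ ≤ 1 := by
  have h : ‖Matrix.toEuclideanCLM (n := Fin (ap.d N)) (𝕜 := ℂ) (ap.π N g)‖ *
      ‖Matrix.toEuclideanCLM (n := Fin (ap.d N)) (𝕜 := ℂ) (ap.π N g)‖ ≤ 1 := by
    rw [← CStarRing.norm_star_mul_self, ← map_star, ap.star_π, ← map_mul, ← map_mul,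
      inv_mul_cancel, map_one, map_one]
    exact ContinuousLinearMap.norm_id_le
  nlinarith [norm_nonneg (Matrix.toEuclideanCLM (n := Fin (ap.d N)) (𝕜 := ℂ) (ap.π N g))]

theorem norm_lift_le (ap : Approx) (N : ℕ) (x : CG) :
    ‖Matrix.toEuclideanCLM (n := Fin (ap.d N)) (𝕜 := ℂ) (MonoidAlgebra.lift ℂ _ Γ (ap.π N) x)‖ ≤
      ∑ g ∈ x.coeff.support, ‖x.coeff g‖ := by
  rw [lift_apply, map_sum]
  refine (norm_sum_le _ _).trans (Finset.sum_le_sum fun g _ => ?_)
  rw [map_smul, norm_smul]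
  exact mul_le_of_le_one_right (norm_nonneg _) (norm_π_le ap N g)

instance (n d : ℕ) : IsProbabilityMeasure (gue n d) := by
  unfold gue; infer_instance

end LowerAux

open LowerAux

theorem lowerStmt_of (hR : RFStmt) (hN : NormStmt) (hM : MomStmt) : LowerStmt := by
  intro A _ sp n X ξ σ hX hξ hσ hSD
  obtain ⟨ap⟩ := hR
  obtain ⟨R0, hR0⟩ := hN
  let R : ℝ := 1 + ∑ c, (∑ g ∈ (ξ c).coeff.support, ‖(ξ c).coeff g‖ + σ c * |R0|)
  have hterm : ∀ c, 0 ≤ ∑ g ∈ (ξ c).coeff.support, ‖(ξ c).coeff g‖ + σ c * |R0| := fun c => by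
    have := hσ c; positivity
  have hRpos : 0 < R := add_pos_of_pos_of_nonneg one_pos (Finset.sum_nonneg fun c _ => hterm c)
  have hRc : ∀ c, ∑ g ∈ (ξ c).coeff.support, ‖(ξ c).coeff g‖ + σ c * |R0| ≤ R := fun c =>
    (Finset.single_le_sum (fun c _ => hterm c) (Finset.mem_univ c)).trans
      (le_add_of_nonneg_left zero_le_one)
  let L0 : ℝ := 1 / 2 * ∑ c, Real.log (2 * Real.pi * σ c ^ 2) - Real.log 2
  refine lt_of_lt_of_le (EReal.bot_lt_coe L0) (le_trans ?_ (le_iSup₂ (f := fun R (_ : 0 < R) =>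
    chiCutoff sp.τ X R) R hRpos))
  refine le_iInf fun m => le_iInf fun ε => le_iInf fun hε => ?_
  refine le_limsup_of_frequently_le (ap.hd.frequently (Eventually.frequently ?_))
  have hfin : {w : FreeMonoid (Fin n) | (FreeMonoid.toList w).length ≤ m}.Finite :=
    (List.finite_length_le (Fin n) m).preimage FreeMonoid.toList.injective.injOn
  have hlim : Tendsto (fun N => ∑ w ∈ hfin.toFinset, gue n (ap.d N)
      {x | ε ≤ ‖matrixMoment (model ap ξ σ N x) w - sp.τ (wordEval X w)‖}) atTop (𝓝 0) := by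
    have := tendsto_finsetSum hfin.toFinset fun w _ => hM A sp n X ξ σ hX hξ hSD ap w ε hε
    simpa using this
  have h14 : (0 : ℝ≥0∞) < 1 / 4 := by simp
  filter_upwards [hlim.eventually (eventually_le_nhds h14), ap.hd.eventually (hR0 n),
    ap.hd.eventually (eventually_ge_atTop 1)] with N h1 h2 h3
  set d := ap.d N with hd
  have hd0 : (0 : ℝ) < d := by exact_mod_cast h3
  let b : Fin n × (Fin d × Fin d) → ℝ := fun q =>
    coords (MonoidAlgebra.lift ℂ _ Γ (ap.π N) (ξ q.1)) q.2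
  let Ψ : (Fin n × (Fin d × Fin d) → ℝ) → (Fin n × (Fin d × Fin d) → ℝ) :=
    fun x i => b i + σ i.1 * x i
  let T : Set (Fin n × (Fin d × Fin d) → ℝ) := WithLp.toLp 2 ⁻¹' microstates sp.τ X R m d ε
  have hΨ : ∀ x, matrixTuple (WithLp.toLp 2 (Ψ x)) = model ap ξ σ N x := fun x => by
    funext c
    exact herm_affine _ (star_lift ap N (hξ c)) (σ c) fun p => x (c, p)
  have hsub : (Ψ ⁻¹' T)ᶜ ⊆
      {x | ∃ c, R0 < ‖Matrix.toEuclideanCLM (n := Fin d) (𝕜 := ℂ) (gueM x c)‖} ∪
      ⋃ w ∈ hfin.toFinset,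
        {x | ε ≤ ‖matrixMoment (model ap ξ σ N x) w - sp.τ (wordEval X w)‖} := by
    intro x hx
    by_contra hcon
    simp only [Set.mem_union, Set.mem_ofPred_eq, Set.mem_iUnion, Set.Finite.mem_toFinset, not_or,
      not_exists, not_lt, not_le] at hcon
    refine hx ⟨fun c => ?_, fun w hw => ?_⟩
    · rw [hΨ, model, map_add, map_smul]
      refine (norm_add_le _ _).trans (le_trans (add_le_add (norm_lift_le ap N _) ?_) (hRc c))
      rw [norm_smul, Complex.norm_real, Real.norm_of_nonneg (hσ c).le]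
      exact mul_le_mul_of_nonneg_left ((hcon.1 c).trans (le_abs_self _)) (hσ c).le
    · rw [hΨ]; exact hcon.2 w hw
  have hhalf : (1 / 2 : ℝ≥0∞) ≤ gue n d (Ψ ⁻¹' T) := by
    have e1 : gue n d (Ψ ⁻¹' T)ᶜ ≤ 1 / 4 + 1 / 4 :=
      (measure_mono hsub).trans ((measure_union_le _ _).trans
        (add_le_add h2 ((measure_biUnion_finset_le _ _).trans h1)))
    have e2 : (1 : ℝ≥0∞) ≤ gue n d (Ψ ⁻¹' T) + gue n d (Ψ ⁻¹' T)ᶜ := by
      rw [← measure_univ (μ := gue n d), ← Set.union_compl_self (Ψ ⁻¹' T)]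
      exact measure_union_le _ _
    have e3 : (1 / 4 + 1 / 4 : ℝ≥0∞) = 1 / 2 := by
      rw [← ENNReal.toReal_eq_toReal_iff' (by finiteness) (by finiteness),
        ENNReal.toReal_add (by finiteness) (by finiteness)]
      norm_num
    rw [e3] at e1
    have e4 : (1 / 2 : ℝ≥0∞) + 1 / 2 ≤ gue n d (Ψ ⁻¹' T) + 1 / 2 := by
      rw [ENNReal.add_halves]; exact e2.trans (add_le_add le_rfl e1)
    exact (ENNReal.add_le_add_iff_right (by finiteness)).1 e4
  have hw : ((d : ℝ≥0))⁻¹ ≠ 0 := inv_ne_zero (by rw [← NNReal.coe_ne_zero]; exact hd0.ne')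
  have hvol := gauss_pi_le b (fun i => σ i.1) (fun i => hσ i.1) hw T
  have hT : volume T ≤ volume (microstates sp.τ X R m d ε) :=
    (PiLp.volume_preserving_toLp _).measure_preimage_le _
  set P : ℝ := ∏ i : Fin n × (Fin d × Fin d),
    √(2 * Real.pi * (σ i.1 ^ 2 * (((d : ℝ≥0))⁻¹ : ℝ≥0))) with hP
  have hfac : ∀ c, 0 < √(2 * Real.pi * (σ c ^ 2 * (((d : ℝ≥0))⁻¹ : ℝ≥0))) := fun c => by
    have := hσ c
    simp only [NNReal.coe_inv, NNReal.coe_natCast]; positivity
  have hPpos : 0 < P := Finset.prod_pos fun i _ => hfac i.1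
  have hlow : ENNReal.ofReal (P * (1 / 2)) ≤ volume (microstates sp.τ X R m d ε) := by
    refine le_trans ?_ (hvol.trans hT)
    rw [ENNReal.ofReal_mul hPpos.le]
    refine mul_le_mul_right (le_trans (le_of_eq ?_) hhalf) _
    rw [ENNReal.ofReal_div_of_pos two_pos]; simp
  have hlog : Real.log (P * (1 / 2)) = (d : ℝ) ^ 2 *
      (1 / 2 * ∑ c, Real.log (2 * Real.pi * σ c ^ 2) - n / 2 * Real.log d) - Real.log 2 := by
    rw [Real.log_mul hPpos.ne' (by norm_num), hP, Real.log_prod fun i _ => (hfac i.1).ne',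
      Fintype.sum_prod_type, one_div, Real.log_inv]
    have : ∀ c, Real.log √(2 * Real.pi * (σ c ^ 2 * (((d : ℝ≥0))⁻¹ : ℝ≥0))) =
        2⁻¹ * Real.log (2 * Real.pi * σ c ^ 2) - 2⁻¹ * Real.log d := fun c => by
      have := hσ c
      simp only [NNReal.coe_inv, NNReal.coe_natCast]
      rw [Real.log_sqrt (by positivity), ← mul_assoc, Real.log_mul (by positivity) (by positivity),
        Real.log_inv]
      ring
    simp only [this, Finset.sum_const, Finset.card_univ, Fintype.card_prod, Fintype.card_fin,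
      nsmul_eq_mul, Finset.sum_sub_distrib, ← Finset.mul_sum]
    push_cast
    ring
  have hl := ENNReal.log_le_log hlow
  rw [ENNReal.log_ofReal_of_pos (by positivity), hlog] at hl
  have hinv : (0 : EReal) ≤ ((((d : ℝ) ^ 2)⁻¹ : ℝ) : EReal) := by
    exact_mod_cast (by positivity : (0 : ℝ) ≤ ((d : ℝ) ^ 2)⁻¹)
  refine le_trans ?_ (add_le_add (mul_le_mul_of_nonneg_left hl hinv) le_rfl)
  rw [← EReal.coe_mul, ← EReal.coe_add, EReal.coe_le_coe_iff]
  have hd1 : (1 : ℝ) ≤ d := by exact_mod_cast h3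
  have hl2 : 0 ≤ Real.log 2 := Real.log_nonneg one_le_two
  have hi : ((d : ℝ) ^ 2)⁻¹ ≤ 1 := inv_le_one_of_one_le₀ (one_le_pow₀ hd1)
  rw [mul_sub, ← mul_assoc, inv_mul_cancel₀ (by positivity), one_mul]
  have := mul_le_of_le_one_left hl2 hi
  simp only [L0]
  linarith

end Crest.Agent.R89
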