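import Crest.Agent.R89.MomAlg

/-! Row 89: convergence in probability of the moments of the random matrix model. -/

set_option autoImplicit false
set_option linter.unusedSectionVars false

namespace Crest.Agent.R89

open Crest.OpAlg MeasureTheory ProbabilityTheory Filter Topology
open scoped Classical ENNReal

namespace Mom

theorem tendsto_sps {L : Type} (c : L) {Φ : ℕ → List L → List L → ℂ} {Ψ : List L → List L → ℂ}
    (Q : List L) (h : ∀ P R, Q = P ++ c :: R → Tendsto (fun N => Φ N P R) atTop (𝓝 (Ψ P R))) :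
    Tendsto (fun N => sps c (Φ N) Q) atTop (𝓝 (sps c Ψ Q)) := by
  refine tendsto_finsetSum _ fun i _ => ?_
  split_ifs with hi
  · exact h _ _ (eq_of_getElem? hi)
  · exact tendsto_const_nhds

instance (n d : ℕ) : IsProbabilityMeasure (gue n d) := by unfold gue; infer_instance

/-- The Gaussian expectation of a polynomial. -/
noncomputable def Ex (h : IBPStmt) (n d : ℕ) : PP n d →ₗ[ℂ] ℂ where
  toFun p := ∫ x, MvPolynomial.eval (fun i => ((x i : ℝ) : ℂ)) p ∂(gue n d)
  map_add' p q := by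
    simp only [map_add]
    exact integral_add (h _ _ p).1 (h _ _ q).1
  map_smul' a p := by
    simp only [MvPolynomial.smul_eval, RingHom.id_apply, smul_eq_mul]
    exact integral_const_mul _ _

variable (h : IBPStmt)

theorem Ex_apply {n d : ℕ} (p : PP n d) :
    Ex h n d p = ∫ x, MvPolynomial.eval (fun i => ((x i : ℝ) : ℂ)) p ∂(gue n d) := rfl

theorem Ex_one (n d : ℕ) : Ex h n d 1 = 1 := by simp [Ex_apply]

theorem Ex_X_mul {n d : ℕ} (k : Fin n × (Fin d × Fin d)) (p : PP n d) :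
    Ex h n d (MvPolynomial.X k * p) = (d : ℂ)⁻¹ * Ex h n d (MvPolynomial.pderiv k p) := by
  have := (h _ (d : NNReal)⁻¹ p).2 k
  rw [Ex_apply, Ex_apply, gue, this]
  simp

section Rec
variable {n d : ℕ} (π : Γ →* Matrix (Fin d) (Fin d) ℂ) (ξ : Fin n → CG) (σ : Fin n → ℝ)

/-- The covariance term. -/
noncomputable def cov (c : Fin n) (Q : List (Γ ⊕ Fin n)) (T : PP n d) : PP n d :=
  ∑ p, (HB (PP n d) p * evM π ξ σ Q).trace * MvPolynomial.pderiv (c, p) T

theorem cov_one (c : Fin n) (Q : List (Γ ⊕ Fin n)) : cov π ξ σ c Q 1 = 0 := by simp [cov]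

theorem cov_mul (c : Fin n) (Q W : List (Γ ⊕ Fin n)) (T : PP n d) :
    cov π ξ σ c Q (tt π ξ σ W * T) = tt π ξ σ W * cov π ξ σ c Q T +
      (σ c : ℂ) • sps (Sum.inr c) (fun P R => tt π ξ σ (Q ++ R ++ P)) W * T := by
  rw [← sum_pderiv_other]
  simp only [cov, Derivation.leibniz, smul_eq_mul, Finset.mul_sum, Finset.sum_mul,
    ← Finset.sum_add_distrib]
  exact Finset.sum_congr rfl fun p _ => by ring

theorem Ex_sps_mul (c : Γ ⊕ Fin n) (Φ : List (Γ ⊕ Fin n) → List (Γ ⊕ Fin n) → PP n d)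
    (Q : List (Γ ⊕ Fin n)) (T : PP n d) :
    Ex h n d (sps c Φ Q * T) = sps c (fun P R => Ex h n d (Φ P R * T)) Q := by
  have := map_sps ((Ex h n d).toAddMonoidHom.comp (AddMonoidHom.mulRight T)) c Φ Q
  simpa using this

theorem Ex_rec (c : Fin n) (Q : List (Γ ⊕ Fin n)) (T : PP n d) :
    Ex h n d (tt π ξ σ (Sum.inr c :: Q) * T) =
      ∑ g ∈ (ξ c).coeff.support, (ξ c).coeff g * Ex h n d (tt π ξ σ (Sum.inl g :: Q) * T) +
      (σ c : ℂ) ^ 2 * sps (Sum.inr c) (fun P R => Ex h n d (tt π ξ σ P * tt π ξ σ R * T)) Q +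
      (σ c : ℂ) * ((d : ℂ)⁻¹ * (d : ℂ)⁻¹) * Ex h n d (cov π ξ σ c Q T) := by
  rw [tt_inr, add_mul, map_add, add_assoc]
  congr 1
  · simp only [Finset.sum_mul, map_sum, smul_mul_assoc, map_smul, smul_eq_mul]
  · have h1 := congrArg (fun z => Ex h n d (z * T)) (sum_pderiv_self π ξ σ c Q)
    simp only [smul_mul_assoc, map_smul, smul_eq_mul, Ex_sps_mul] at h1
    rw [sq, mul_assoc (σ c : ℂ) (σ c : ℂ), ← h1]
    simp only [smul_mul_assoc, map_smul, smul_eq_mul, Finset.sum_mul, map_sum, mul_assoc, Ex_X_mul,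
      Derivation.leibniz, cov, map_add, Finset.mul_sum, ← Finset.sum_add_distrib]
    refine Finset.sum_congr rfl fun p _ => ?_
    rw [mul_comm T]
    ring

end Rec

/-- Number of variable letters in a word. -/
def cnt {n : ℕ} (Q : List (Γ ⊕ Fin n)) : ℕ := Q.countP Sum.isRight

/-- Number of variable letters in a list of words. -/
def cntL {n : ℕ} (Ws : List (List (Γ ⊕ Fin n))) : ℕ := (Ws.map cnt).sum

@[simp] theorem cnt_append {n : ℕ} (P Q : List (Γ ⊕ Fin n)) : cnt (P ++ Q) = cnt P + cnt Q :=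
  List.countP_append
@[simp] theorem cnt_inl {n : ℕ} (g : Γ) (Q : List (Γ ⊕ Fin n)) : cnt (Sum.inl g :: Q) = cnt Q := by
  simp [cnt]
@[simp] theorem cnt_inr {n : ℕ} (c : Fin n) (Q : List (Γ ⊕ Fin n)) :
    cnt (Sum.inr c :: Q) = cnt Q + 1 := by simp [cnt]
@[simp] theorem cntL_nil {n : ℕ} : cntL ([] : List (List (Γ ⊕ Fin n))) = 0 := rfl
@[simp] theorem cntL_cons {n : ℕ} (W : List (Γ ⊕ Fin n)) (Ws : List (List (Γ ⊕ Fin n))) :
    cntL (W :: Ws) = cnt W + cntL Ws := by simp [cntL]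
@[simp] theorem cntL_append {n : ℕ} (Ws Ws' : List (List (Γ ⊕ Fin n))) :
    cntL (Ws ++ Ws') = cntL Ws + cntL Ws' := by simp [cntL]

section Conv
variable {A : Type} [CStarAlgebra A] (sp : Sp A) {n : ℕ} (X : Fin n → A) (ξ : Fin n → CG)
  (σ : Fin n → ℝ) (ap : Approx)

/-- Product of the normalised traces of a list of words. -/
noncomputable def TT (N : ℕ) (Ws : List (List (Γ ⊕ Fin n))) : PP n (ap.d N) :=
  (Ws.map (tt (ap.π N) ξ σ)).prod

/-- The limit. -/
noncomputable def τP (Ws : List (List (Γ ⊕ Fin n))) : ℂ :=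
  (Ws.map fun W => sp.τ (sp.ev X W)).prod

@[simp] theorem TT_nil (N : ℕ) : TT ξ σ ap N [] = 1 := rfl
theorem TT_cons (N : ℕ) (W : List (Γ ⊕ Fin n)) (Ws : List (List (Γ ⊕ Fin n))) :
    TT ξ σ ap N (W :: Ws) = tt (ap.π N) ξ σ W * TT ξ σ ap N Ws := by simp [TT]
theorem TT_append (N : ℕ) (Ws Ws' : List (List (Γ ⊕ Fin n))) :
    TT ξ σ ap N (Ws ++ Ws') = TT ξ σ ap N Ws * TT ξ σ ap N Ws' := by simp [TT]
@[simp] theorem τP_nil : τP sp X [] = 1 := rfl
theorem τP_cons (W : List (Γ ⊕ Fin n)) (Ws : List (List (Γ ⊕ Fin n))) :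
    τP sp X (W :: Ws) = sp.τ (sp.ev X W) * τP sp X Ws := by simp [τP]
theorem τP_append (Ws Ws' : List (List (Γ ⊕ Fin n))) :
    τP sp X (Ws ++ Ws') = τP sp X Ws * τP sp X Ws' := by simp [τP]

/-- Convergence of the expectation. -/
def Conv (Ws : List (List (Γ ⊕ Fin n))) : Prop :=
  Tendsto (fun N => Ex h n (ap.d N) (TT ξ σ ap N Ws)) atTop (𝓝 (τP sp X Ws))

theorem cov_conv {k : ℕ} (ih : ∀ Ws, cntL Ws < k → Conv h sp X ξ σ ap Ws) (c : Fin n)
    (Q : List (Γ ⊕ Fin n)) (Ws Pre : List (List (Γ ⊕ Fin n)))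
    (hk : cntL Pre + cnt Q + cntL Ws ≤ k) :
    ∃ z, Tendsto (fun N => Ex h n (ap.d N)
      (TT ξ σ ap N Pre * cov (ap.π N) ξ σ c Q (TT ξ σ ap N Ws))) atTop (𝓝 z) := by
  induction Ws generalizing Pre with
  | nil => exact ⟨0, by simp [cov_one]⟩
  | cons W Ws ihW =>
    obtain ⟨z, hz⟩ := ihW (W :: Pre) (by simp at hk ⊢; omega)
    have h2 := tendsto_sps (Sum.inr c : Γ ⊕ Fin n)
      (Φ := fun N P R => Ex h n (ap.d N) (TT ξ σ ap N ((Q ++ R ++ P) :: (Pre ++ Ws))))
      (Ψ := fun P R => τP sp X ((Q ++ R ++ P) :: (Pre ++ Ws))) W fun P R hW =>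
        ih _ (by subst hW; simp at hk ⊢; omega)
    refine ⟨_, (hz.add (h2.const_mul (σ c : ℂ))).congr fun N => ?_⟩
    simp only [TT_cons, TT_append, cov_mul, mul_add, map_add, ← Ex_sps_mul]
    congr 1
    · congr 1; ring
    · rw [← smul_eq_mul, ← map_smul]
      congr 1
      simp only [Algebra.smul_def]
      ring

theorem conv_step (hSD : sp.SD X ξ fun c => σ c ^ 2) {k : ℕ}
    (ih : ∀ Ws, cntL Ws < k → Conv h sp X ξ σ ap Ws) (c : Fin n)
    (Q : List (Γ ⊕ Fin n)) (Ws : List (List (Γ ⊕ Fin n))) (hk : cnt Q + 1 + cntL Ws ≤ k) :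
    Conv h sp X ξ σ ap ((Sum.inr c :: Q) :: Ws) := by
  obtain ⟨z, hz⟩ := cov_conv h sp X ξ σ ap ih c Q Ws [] (by simp; omega)
  have hd : Tendsto (fun N => ((ap.d N : ℂ))⁻¹) atTop (𝓝 0) :=
    tendsto_inv_atTop_nhds_zero_nat.comp ap.hd
  have h1 : Tendsto (fun N => ∑ g ∈ (ξ c).coeff.support, (ξ c).coeff g *
      Ex h n (ap.d N) (TT ξ σ ap N ((Sum.inl g :: Q) :: Ws))) atTop
      (𝓝 (∑ g ∈ (ξ c).coeff.support, (ξ c).coeff g * τP sp X ((Sum.inl g :: Q) :: Ws))) :=
    tendsto_finsetSum _ fun g _ => (ih _ (by simp; omega)).const_mul _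
  have h2 := tendsto_sps (Sum.inr c : Γ ⊕ Fin n)
    (Φ := fun N P R => Ex h n (ap.d N) (TT ξ σ ap N (P :: R :: Ws)))
    (Ψ := fun P R => τP sp X (P :: R :: Ws)) Q fun P R hW =>
      ih _ (by subst hW; simp at hk ⊢; omega)
  have h3 := (h1.add (h2.const_mul ((σ c : ℂ) ^ 2))).add
    (((hd.mul hd).const_mul (σ c : ℂ)).mul hz)
  have h4 : τP sp X ((Sum.inr c :: Q) :: Ws) =
      ∑ g ∈ (ξ c).coeff.support, (ξ c).coeff g * τP sp X ((Sum.inl g :: Q) :: Ws) +
      (σ c : ℂ) ^ 2 * sps (Sum.inr c) (fun P R => τP sp X (P :: R :: Ws)) Q +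
      (σ c : ℂ) * (0 * 0) * z := by
    have h5 := hSD c Q
    rw [sub_mul, map_sub, sub_eq_iff_eq_add', split_eq_sps] at h5
    have h6 := map_sps (AddMonoidHom.mulRight (τP sp X Ws)) (Sum.inr c : Γ ⊕ Fin n)
      (fun P R => sp.τ (sp.ev X P) • sp.τ (sp.ev X R)) Q
    simp only [AddMonoidHom.coe_mulRight, smul_eq_mul] at h5 h6
    simp only [τP_cons, Sp.ev_inr, Sp.ev_inl, h5, add_mul, mul_assoc, Sp.πA_apply, Finset.sum_mul,
      map_sum, smul_mul_assoc, map_smul, smul_eq_mul, h6]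
    simp
  rw [Conv, h4]
  refine h3.congr fun N => ?_
  simp only [TT_cons, Ex_rec, TT_nil, one_mul, mul_assoc]

theorem exists_eq_of_cnt {W : List (Γ ⊕ Fin n)} (hW : cnt W = 0) : ∃ g : Γ,
    sp.ev X W = sp.π g ∧ ∀ N, evM (ap.π N) ξ σ W = (ap.π N g).map (algebraMap ℂ _) := by
  induction W with
  | nil => exact ⟨1, by simp, fun N => by simp⟩
  | cons l W ih =>
    cases l with
    | inr c => simp at hW
    | inl g =>
      obtain ⟨g', h1, h2⟩ := ih (by simpa using hW)
      exact ⟨g * g', by simp [h1], fun N => by rw [evM_cons, h2, lt, map_mul, Matrix.map_mul]⟩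

theorem conv_zero (Ws : List (List (Γ ⊕ Fin n))) (hW : cntL Ws = 0) : Conv h sp X ξ σ ap Ws := by
  induction Ws with
  | nil => simp [Conv, Ex_one]
  | cons W Ws ih =>
    simp only [cntL_cons, Nat.add_eq_zero_iff] at hW
    obtain ⟨g, h1, h2⟩ := exists_eq_of_cnt sp X ξ σ ap hW.1
    have h3 := (ap.tr_π g).mul (ih hW.2)
    rw [Conv, τP_cons, h1, sp.τ_π]
    refine h3.congr fun N => ?_
    rw [TT_cons, tt, h2, ← smul_eq_mul, ← map_smul]
    congr 1
    simp only [Matrix.trace, Matrix.diag_apply, Matrix.map_apply, ← map_sum, Algebra.smul_def,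
      map_mul]

theorem conv_all (hSD : sp.SD X ξ fun c => σ c ^ 2) (Ws : List (List (Γ ⊕ Fin n))) :
    Conv h sp X ξ σ ap Ws := by
  suffices H : ∀ k, ∀ Ws, cntL Ws < k → Conv h sp X ξ σ ap Ws from H _ _ (Nat.lt_succ_self _)
  intro k
  induction k with
  | zero => intro Ws hW; omega
  | succ k ih =>
    intro Ws hW
    by_cases h0 : cntL Ws = 0
    · exact conv_zero h sp X ξ σ ap Ws h0
    have : ∃ W ∈ Ws, ∃ c, Sum.inr c ∈ W := by
      by_contra hcon
      push Not at hcon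
      refine h0 (List.sum_eq_zero fun x hx => ?_)
      obtain ⟨W, hW, rfl⟩ := List.mem_map.1 hx
      refine List.countP_eq_zero.2 fun l hl => ?_
      cases l with
      | inl g => simp
      | inr c => exact absurd hl (hcon W hW c)
    obtain ⟨W, hWs, c, hc⟩ := this
    obtain ⟨L1, L2, rfl⟩ := List.append_of_mem hWs
    obtain ⟨P, R, rfl⟩ := List.append_of_mem hc
    have h1 := conv_step h sp X ξ σ ap hSD ih c (R ++ P) (L1 ++ L2) (by simp at hW ⊢; omega)
    have e1 : τP sp X (L1 ++ (P ++ Sum.inr c :: R) :: L2) =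
        τP sp X ((Sum.inr c :: (R ++ P)) :: (L1 ++ L2)) := by
      rw [τP_append, τP_cons, τP_cons, τP_append, ← List.cons_append, sp.ev_append X P, sp.τ_comm,
        sp.ev_append]
      ring
    rw [Conv, e1]
    refine h1.congr fun N => ?_
    rw [TT_append, TT_cons, TT_cons, TT_append, ← List.cons_append, tt_rotate]
    congr 1
    ring

end Conv

section Eval
variable {n : ℕ} (ξ : Fin n → CG) (σ : Fin n → ℝ) (ap : Approx) (N : ℕ)
  (x : Fin n × (Fin (ap.d N) × Fin (ap.d N)) → ℝ)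

theorem map_lt_inr (c : Fin n) :
    (lt (ap.π N) ξ σ (Sum.inr c)).map (MvPolynomial.eval fun i => ((x i : ℝ) : ℂ)) =
      model ap ξ σ N x c := by
  rw [model, gueM, herm_eq_sum]
  ext i j
  simp only [lt, Matrix.map_apply, Matrix.add_apply, Matrix.smul_apply, map_add,
    MvPolynomial.smul_eval]
  simp [Matrix.sum_apply, HB]

theorem eval_tt (w : List (Fin n)) :
    MvPolynomial.eval (fun i => ((x i : ℝ) : ℂ)) (tt (ap.π N) ξ σ (w.map Sum.inr)) =
      ((ap.d N : ℂ))⁻¹ * (w.map (model ap ξ σ N x)).prod.trace := by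
  have h1 : (evM (ap.π N) ξ σ (w.map Sum.inr)).map (MvPolynomial.eval fun i => ((x i : ℝ) : ℂ)) =
      (w.map (model ap ξ σ N x)).prod := by
    induction w with
    | nil => simp
    | cons c w ih => rw [List.map_cons, evM_cons, Matrix.map_mul, ih, map_lt_inr]; simp
  rw [tt, MvPolynomial.smul_eval, ← h1]
  simp [Matrix.trace]

theorem isSelfAdjoint_model (hξ : ∀ c, Herm (ξ c)) (c : Fin n) :
    IsSelfAdjoint (model ap ξ σ N x c) := by
  rw [IsSelfAdjoint, model, star_add, star_smul, gueM, star_herm]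
  congr 1
  · rw [MonoidAlgebra.lift_apply, Finsupp.sum, star_sum]
    refine Finset.sum_nbij' (fun g => g⁻¹) (fun g => g⁻¹) ?_ ?_ (by simp) (by simp) ?_
    · intro g hg; simpa [hξ c g] using hg
    · intro g hg; simpa [hξ c g] using hg
    · intro g _; rw [star_smul, ap.star_π, hξ c g]
  · simp

theorem star_prod_map {B : Type} [Ring B] [StarRing B] {Y : Fin n → B}
    (hY : ∀ i, IsSelfAdjoint (Y i)) (l : List (Fin n)) :
    star (l.map Y).prod = (l.reverse.map Y).prod := by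
  induction l with
  | nil => simp
  | cons a l ih => simp [ih, (hY a).star_eq]

end Eval

end Mom

open Mom in
theorem momStmt_of (h : IBPStmt) : MomStmt := by
  intro A _ sp n X ξ σ hX hξ hSD ap w ε hε
  set l := FreeMonoid.toList w with hl
  set W : List (Γ ⊕ Fin n) := l.map Sum.inr with hW
  set W' : List (Γ ⊕ Fin n) := l.reverse.map Sum.inr with hW'
  set t : ℂ := sp.τ (wordEval X w) with ht
  have e1 : sp.τ (sp.ev X W) = t := by rw [hW, hl, sp.ev_map_inr]
  have e2 : sp.τ (sp.ev X W') = star t := by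
    rw [ht, ← sp.τ_star, star_wordEval hX, ← sp.ev_map_inr]; rfl
  -- the polynomial computing the squared distance
  set P : ∀ N, PP n (ap.d N) := fun N => TT ξ σ ap N [W, W'] - star t • TT ξ σ ap N [W] -
    t • TT ξ σ ap N [W'] + (t * star t) • 1 with hP
  have hlim : Tendsto (fun N => Ex h n (ap.d N) (P N)) atTop (𝓝 0) := by
    have h1 := (((conv_all h sp X ξ σ ap hSD [W, W']).sub
      ((conv_all h sp X ξ σ ap hSD [W]).const_mul (star t))).sub
      ((conv_all h sp X ξ σ ap hSD [W']).const_mul t)).add_const (t * star t)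
    have h2 : τP sp X [W, W'] - star t * τP sp X [W] - t * τP sp X [W'] + t * star t = 0 := by
      simp only [τP_cons, τP_nil, e1, e2]; ring
    rw [h2] at h1
    refine h1.congr fun N => ?_
    simp only [hP, map_add, map_sub, map_smul, smul_eq_mul, Ex_one, mul_one]
  have hev : ∀ N x, MvPolynomial.eval (fun i => ((x i : ℝ) : ℂ)) (P N) =
      ((‖matrixMoment (model ap ξ σ N x) w - t‖ ^ 2 : ℝ) : ℂ) := fun N x => by
    have a1 : MvPolynomial.eval (fun i => ((x i : ℝ) : ℂ)) (tt (ap.π N) ξ σ W) =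
        matrixMoment (model ap ξ σ N x) w := by
      rw [hW, eval_tt, matrixMoment, wordEval, FreeMonoid.lift_apply]
    have a2 : MvPolynomial.eval (fun i => ((x i : ℝ) : ℂ)) (tt (ap.π N) ξ σ W') =
        star (matrixMoment (model ap ξ σ N x) w) := by
      rw [hW', eval_tt, matrixMoment, wordEval, FreeMonoid.lift_apply,
        ← star_prod_map (isSelfAdjoint_model ξ σ ap N x hξ), Matrix.star_eq_conjTranspose,
        Matrix.trace_conjTranspose]
      simp [hl]
    rw [Complex.ofReal_pow, ← Complex.mul_conj']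
    simp only [hP, map_add, map_sub, MvPolynomial.smul_eval, TT_cons, TT_nil, map_mul, map_one, a1,
      a2, Complex.star_def]
    ring
  have hle : ∀ N, gue n (ap.d N) {x | ε ≤ ‖matrixMoment (model ap ξ σ N x) w - t‖} ≤
      ENNReal.ofReal ((Ex h n (ap.d N) (P N)).re / ε ^ 2) := fun N => by
    have hint : Integrable (fun x => ‖matrixMoment (model ap ξ σ N x) w - t‖ ^ 2)
        (gue n (ap.d N)) := by
      have := (h _ (ap.d N : NNReal)⁻¹ (P N)).1.re
      simp only [hev, RCLike.re_to_complex, Complex.ofReal_re] at this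
      exact this
    have h1 := mul_meas_ge_le_integral_of_nonneg (ae_of_all _ fun x => sq_nonneg _) hint (ε ^ 2)
    have h2 : (Ex h n (ap.d N) (P N)).re =
        ∫ x, ‖matrixMoment (model ap ξ σ N x) w - t‖ ^ 2 ∂(gue n (ap.d N)) := by
      rw [Ex_apply]
      simp only [hev]
      rw [integral_complex_ofReal, Complex.ofReal_re]
    have h3 : {x | ε ≤ ‖matrixMoment (model ap ξ σ N x) w - t‖} =
        {x | ε ^ 2 ≤ ‖matrixMoment (model ap ξ σ N x) w - t‖ ^ 2} := by
      ext x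
      simp only [Set.mem_ofPred_eq]
      exact (sq_le_sq₀ hε.le (norm_nonneg _)).symm
    rw [h2, h3, ← ofReal_measureReal]
    refine ENNReal.ofReal_le_ofReal ?_
    rw [le_div_iff₀ (by positivity), mul_comm]
    exact h1
  have hlim2 : Tendsto (fun N => ENNReal.ofReal ((Ex h n (ap.d N) (P N)).re / ε ^ 2)) atTop
      (𝓝 0) := by
    have := ENNReal.tendsto_ofReal (((Complex.continuous_re.tendsto 0).comp hlim).div_const (ε ^ 2))
    simpa using this
  exact tendsto_of_tendsto_of_tendsto_of_le_of_le tendsto_const_nhds hlim2 (fun _ => zero_le) hle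

end Crest.Agent.R89
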