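import Crest.Agent.R89.Basic

/-! Row 89, (N): operator norm tail bound for GUE matrices by a net argument. -/

set_option autoImplicit false

namespace Crest.Agent.R89

open Crest.OpAlg MeasureTheory ProbabilityTheory Filter Topology
open scoped ENNReal NNReal InnerProductSpace

namespace Norm

/-- A `1`-net of the ball of radius `2`. -/
theorem exists_net (E : Type) [NormedAddCommGroup E] [NormedSpace ℝ E] [FiniteDimensional ℝ E] :
    ∃ s : Finset E, s.card ≤ 5 ^ Module.finrank ℝ E ∧ (∀ c ∈ s, ‖c‖ ≤ 2) ∧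
      ∀ x : E, ‖x‖ ≤ 2 → ∃ c ∈ s, ‖x - c‖ ≤ 1 := by
  classical
  let P : ℕ → Prop := fun N => ∃ s : Finset E, s.card = N ∧ (∀ c ∈ s, ‖c‖ ≤ 2) ∧
    ∀ c ∈ s, ∀ d ∈ s, c ≠ d → 1 ≤ ‖c - d‖
  have h0 : P 0 := ⟨∅, by simp⟩
  obtain ⟨s, hs, h1, h2⟩ : P (Nat.findGreatest P (5 ^ Module.finrank ℝ E)) :=
    Nat.findGreatest_spec (Nat.zero_le _) h0
  refine ⟨s, Besicovitch.card_le_of_separated s h1 h2, h1, fun x hx => ?_⟩
  by_contra hc
  push Not at hc
  have hxs : x ∉ s := fun h => by have := hc x h; simp at this; linarith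
  have h1' : ∀ c ∈ insert x s, ‖c‖ ≤ 2 := by
    intro c hc'
    rcases Finset.mem_insert.1 hc' with rfl | h
    exacts [hx, h1 c h]
  have h2' : ∀ c ∈ insert x s, ∀ d ∈ insert x s, c ≠ d → 1 ≤ ‖c - d‖ := by
    intro c hc' d hd hcd
    rcases Finset.mem_insert.1 hc' with rfl | h <;> rcases Finset.mem_insert.1 hd with rfl | h'
    · exact absurd rfl hcd
    · exact (hc d h').le
    · rw [norm_sub_rev]; exact (hc c h).le
    · exact h2 c h d h' hcd
  have hle := Besicovitch.card_le_of_separated _ h1' h2'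
  have hP : P (s.card + 1) := ⟨insert x s, Finset.card_insert_of_notMem hxs, h1', h2'⟩
  rw [Finset.card_insert_of_notMem hxs] at hle
  have := Nat.le_findGreatest hle hP
  omega

theorem norm_le_of_net {E : Type} [NormedAddCommGroup E] [InnerProductSpace ℂ E] (s : Finset E)
    (hs : ∀ x : E, ‖x‖ ≤ 2 → ∃ c ∈ s, ‖x - c‖ ≤ 1) (T : E →L[ℂ] E) (R : ℝ) (hR : 0 ≤ R)
    (h : ∀ v ∈ s, ∀ w ∈ s, (⟪w, T v⟫_ℂ).re ≤ R) : ‖T‖ ≤ R := by
  have key : ∀ x : E, x ≠ 0 → ‖((2 / ‖x‖ : ℝ) : ℂ) • x‖ = 2 := by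
    intro x hx
    have : 0 < ‖x‖ := norm_pos_iff.2 hx
    rw [norm_smul, Complex.norm_real, Real.norm_of_nonneg (by positivity)]
    field_simp
  have h1 : ∀ v ∈ s, ‖T v‖ ≤ R := by
    intro v hv
    by_cases h0 : T v = 0
    · simpa [h0] using hR
    have hp : 0 < ‖T v‖ := norm_pos_iff.2 h0
    obtain ⟨w, hw, hd⟩ := hs _ (key _ h0).le
    have e1 : (⟪((2 / ‖T v‖ : ℝ) : ℂ) • T v, T v⟫_ℂ).re = 2 * ‖T v‖ := by
      rw [inner_smul_left, inner_self_eq_norm_sq_to_K]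
      simp only [Complex.conj_ofReal, Complex.coe_algebraMap]
      rw [← Complex.ofReal_pow, ← Complex.ofReal_mul, Complex.ofReal_re]
      field_simp
    have e2 : (⟪((2 / ‖T v‖ : ℝ) : ℂ) • T v - w, T v⟫_ℂ).re ≤ ‖T v‖ := by
      refine (Complex.re_le_norm _).trans ((norm_inner_le_norm _ _).trans ?_)
      nlinarith
    rw [inner_sub_left, Complex.sub_re, e1] at e2
    have := h v hv w hw
    linarith
  have h2 : ∀ x : E, ‖T x‖ ≤ (R + ‖T‖) / 2 * ‖x‖ := by
    intro x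
    by_cases h0 : x = 0
    · simp [h0]
    have hp : 0 < ‖x‖ := norm_pos_iff.2 h0
    obtain ⟨v, hv, hd⟩ := hs _ (key _ h0).le
    have e1 : ‖T (((2 / ‖x‖ : ℝ) : ℂ) • x)‖ = 2 / ‖x‖ * ‖T x‖ := by
      rw [map_smul, norm_smul, Complex.norm_real, Real.norm_of_nonneg (by positivity)]
    have e2 : ‖T (((2 / ‖x‖ : ℝ) : ℂ) • x)‖ ≤ R + ‖T‖ := by
      have : T (((2 / ‖x‖ : ℝ) : ℂ) • x) = T v + T (((2 / ‖x‖ : ℝ) : ℂ) • x - v) := by
        rw [map_sub]; abel
      rw [this]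
      refine (norm_add_le _ _).trans (add_le_add (h1 v hv) ?_)
      refine (T.le_opNorm _).trans ?_
      nlinarith [norm_nonneg T]
    rw [e1, div_mul_eq_mul_div, div_le_iff₀ hp] at e2
    linarith
  have := T.opNorm_le_bound (by positivity) h2
  linarith

theorem subg (v : ℝ≥0) : HasSubgaussianMGF id v (gaussianReal 0 v) where
  integrable_exp_mul t := integrable_exp_mul_gaussianReal t
  mgf_le t := by simp [mgf_id_gaussianReal]

/-- Gaussian tail of a linear functional. -/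
theorem tail {ι : Type} [Fintype ι] (v : ℝ≥0) (hv : 0 < v) (L : (ι → ℝ) →ₗ[ℝ] ℝ) (B : ℝ)
    (hB : 0 < B) (hL : ∀ x, (L x) ^ 2 ≤ B * ∑ i, x i ^ 2) (t : ℝ) (ht : 0 < t) :
    (Measure.pi fun _ : ι => gaussianReal 0 v).real {x | t ≤ L x} ≤
      Real.exp (-t ^ 2 / (2 * (B * v))) := by
  classical
  set β : ι → ℝ := fun i => L (fun j => if i = j then 1 else 0) with hβ
  have hLx : ∀ x, L x = ∑ i, β i * x i := fun x => by
    rw [LinearMap.pi_apply_eq_sum_univ]; simp [hβ, mul_comm]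
  have hS : ∑ i, β i ^ 2 ≤ B := by
    have h1 := hL β
    rw [hLx] at h1
    simp only [← sq] at h1
    have h0 : 0 ≤ ∑ i, β i ^ 2 := by positivity
    rcases h0.eq_or_lt with h | h
    · rw [← h]; exact hB.le
    · nlinarith
  have hind : iIndepFun (fun (i : ι) (x : ι → ℝ) => β i * x i)
      (Measure.pi fun _ : ι => gaussianReal 0 v) :=
    iIndepFun_pi (X := fun i (y : ℝ) => β i * y) fun i => by fun_prop
  have hsub : ∀ i ∈ (Finset.univ : Finset ι), HasSubgaussianMGF (fun x : ι → ℝ => β i * x i)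
      (⟨β i ^ 2, sq_nonneg _⟩ * v) (Measure.pi fun _ : ι => gaussianReal 0 v) := by
    intro i _
    have h1 : HasSubgaussianMGF (fun x : ι → ℝ => x i) v
        (Measure.pi fun _ : ι => gaussianReal 0 v) := by
      rw [← HasSubgaussianMGF.id_map_iff (measurable_pi_apply i).aemeasurable]
      rw [(measurePreserving_eval (fun _ : ι => gaussianReal 0 v) i).map_eq]
      exact subg v
    exact h1.const_mul (β i)
  have h := HasSubgaussianMGF.measure_sum_ge_le_of_iIndepFun hind hsub ht.le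
  simp only [← hLx] at h
  have hc : ((∑ i, (⟨β i ^ 2, sq_nonneg _⟩ * v : ℝ≥0) : ℝ≥0) : ℝ) = (∑ i, β i ^ 2) * v := by
    rw [NNReal.coe_sum, Finset.sum_mul]; rfl
  rw [hc] at h
  have h0 : 0 ≤ ∑ i, β i ^ 2 := by positivity
  have hv' : (0 : ℝ) < v := hv
  rcases h0.eq_or_lt with h' | h'
  · have hz : ∀ i, β i = 0 := fun i => by
      have := (Finset.sum_eq_zero_iff_of_nonneg fun i _ => sq_nonneg (β i)).1 h'.symm i
        (Finset.mem_univ i)
      simpa using this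
    have : {x | t ≤ L x} = ∅ := by
      ext x; simp [hLx, hz, ht]
    rw [this]; simp; positivity
  · refine h.trans (Real.exp_le_exp.2 ?_)
    rw [neg_div, neg_div, neg_le_neg_iff]
    gcongr

theorem herm_add {d : ℕ} (a b : Fin d × Fin d → ℝ) :
    hermitianOfCoords (WithLp.toLp 2 (a + b)) =
      hermitianOfCoords (WithLp.toLp 2 a) + hermitianOfCoords (WithLp.toLp 2 b) := by
  ext i j
  simp only [hermitianOfCoords, Matrix.add_apply, Pi.add_apply]
  split_ifs <;> push_cast <;> ring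

theorem herm_smul {d : ℕ} (r : ℝ) (a : Fin d × Fin d → ℝ) :
    hermitianOfCoords (WithLp.toLp 2 (r • a)) = (r : ℂ) • hermitianOfCoords (WithLp.toLp 2 a) := by
  ext i j
  simp only [hermitianOfCoords, Matrix.smul_apply, Pi.smul_apply, smul_eq_mul]
  split_ifs <;> push_cast <;> ring

theorem herm_entry {d : ℕ} (a : Fin d × Fin d → ℝ) (i j : Fin d) :
    ‖hermitianOfCoords (WithLp.toLp 2 a) i j‖ ^ 2 ≤ a (i, j) ^ 2 + a (j, i) ^ 2 := by
  have h2 : ‖((Real.sqrt 2 : ℝ) : ℂ)‖ ^ 2 = 2 := by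
    rw [Complex.norm_real, Real.norm_of_nonneg (Real.sqrt_nonneg _), Real.sq_sqrt (by norm_num)]
  simp only [hermitianOfCoords]
  split_ifs with h h'
  · subst h; rw [Complex.norm_real, Real.norm_eq_abs, sq_abs]; nlinarith [sq_nonneg (a (i, i))]
  · rw [norm_div, div_pow, h2, Complex.sq_norm, Complex.normSq_add_mul_I]
    nlinarith [sq_nonneg (a (i, j)), sq_nonneg (a (j, i))]
  · have : (a (j, i) : ℂ) - (a (i, j) : ℂ) * Complex.I =
        (a (j, i) : ℂ) + ((-a (i, j) : ℝ) : ℂ) * Complex.I := by push_cast; ring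
    rw [norm_div, div_pow, h2, Complex.sq_norm, this, Complex.normSq_add_mul_I]
    nlinarith [sq_nonneg (a (i, j)), sq_nonneg (a (j, i))]

theorem apply_sq_le {d : ℕ} (H : Matrix (Fin d) (Fin d) ℂ) (v : EuclideanSpace ℂ (Fin d)) :
    ‖Matrix.toEuclideanCLM (n := Fin d) (𝕜 := ℂ) H v‖ ^ 2 ≤
      (∑ i, ∑ j, ‖H i j‖ ^ 2) * ‖v‖ ^ 2 := by
  rw [EuclideanSpace.norm_sq_eq, EuclideanSpace.norm_sq_eq, Finset.sum_mul]
  refine Finset.sum_le_sum fun i _ => ?_
  have : (Matrix.toEuclideanCLM (n := Fin d) (𝕜 := ℂ) H v) i = ∑ j, H i j * v j := rfl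
  rw [this]
  refine le_trans ?_ (Finset.sum_mul_sq_le_sq_mul_sq Finset.univ (fun j => ‖H i j‖)
    fun j => ‖v j‖)
  gcongr
  refine (norm_sum_le _ _).trans (le_of_eq ?_)
  simp

/-- The functional `x ↦ re ⟪w, gueM x c v⟫`. -/
noncomputable def fnl {n d : ℕ} (c : Fin n) (v w : EuclideanSpace ℂ (Fin d)) :
    (Fin n × (Fin d × Fin d) → ℝ) →ₗ[ℝ] ℝ where
  toFun x := (⟪w, Matrix.toEuclideanCLM (n := Fin d) (𝕜 := ℂ) (gueM x c) v⟫_ℂ).re
  map_add' x y := by
    have : gueM (x + y) c = gueM x c + gueM y c :=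
      herm_add (fun p => x (c, p)) fun p => y (c, p)
    rw [this, map_add, add_apply, inner_add_right, Complex.add_re]
  map_smul' r x := by
    have : gueM (r • x) c = (r : ℂ) • gueM x c := herm_smul r fun p => x (c, p)
    rw [this, map_smul, smul_apply, inner_smul_right]
    simp

theorem fnl_sq {n d : ℕ} (c : Fin n) (v w : EuclideanSpace ℂ (Fin d)) (hv : ‖v‖ ≤ 2)
    (hw : ‖w‖ ≤ 2) (x : Fin n × (Fin d × Fin d) → ℝ) :
    fnl c v w x ^ 2 ≤ 32 * ∑ i, x i ^ 2 := by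
  have h1 : ∑ i, ∑ j, ‖gueM x c i j‖ ^ 2 ≤ 2 * ∑ i, x i ^ 2 := by
    have h2 : ∑ i, ∑ j, x (c, (i, j)) ^ 2 ≤ ∑ i, x i ^ 2 := by
      rw [Fintype.sum_prod_type, ← Fintype.sum_prod_type (f := fun p => x (c, p) ^ 2)]
      exact Finset.single_le_sum (f := fun c => ∑ p, x (c, p) ^ 2)
        (fun _ _ => by positivity) (Finset.mem_univ c)
    calc ∑ i, ∑ j, ‖gueM x c i j‖ ^ 2 ≤ ∑ i, ∑ j, (x (c, (i, j)) ^ 2 + x (c, (j, i)) ^ 2) := by
          gcongr with i _ j _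
          exact herm_entry (fun p => x (c, p)) i j
      _ = ∑ i, ∑ j, x (c, (i, j)) ^ 2 + ∑ i, ∑ j, x (c, (i, j)) ^ 2 := by
          simp only [Finset.sum_add_distrib]
          congr 1
          exact Finset.sum_comm
      _ ≤ _ := by linarith
  have h3 := apply_sq_le (gueM x c) v
  set y := Matrix.toEuclideanCLM (n := Fin d) (𝕜 := ℂ) (gueM x c) v
  have h4 : |fnl c v w x| ≤ ‖w‖ * ‖y‖ := (Complex.abs_re_le_norm _).trans (norm_inner_le_norm _ _)
  have h5 : fnl c v w x ^ 2 ≤ (‖w‖ * ‖y‖) ^ 2 := by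
    rw [← sq_abs]; gcongr
  have h6 : ‖w‖ ^ 2 ≤ 4 := by nlinarith [norm_nonneg w]
  have h7 : ‖v‖ ^ 2 ≤ 4 := by nlinarith [norm_nonneg v]
  have h8 : 0 ≤ ∑ i, x i ^ 2 := by positivity
  have h9 : ‖y‖ ^ 2 ≤ (2 * ∑ i, x i ^ 2) * 4 := h3.trans (by gcongr)
  calc fnl c v w x ^ 2 ≤ ‖w‖ ^ 2 * ‖y‖ ^ 2 := by rw [← mul_pow]; exact h5
    _ ≤ 4 * ((2 * ∑ i, x i ^ 2) * 4) := by gcongr
    _ = _ := by ring

theorem bound (n d : ℕ) (hd : 0 < d) :
    (gue n d).real {x | ∃ c, 24 < ‖Matrix.toEuclideanCLM (n := Fin d) (𝕜 := ℂ) (gueM x c)‖} ≤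
      n * (1 / 2) ^ d := by
  classical
  obtain ⟨s, hs, h1, h2⟩ := exists_net (EuclideanSpace ℂ (Fin d))
  have hr : Module.finrank ℝ (EuclideanSpace ℂ (Fin d)) = 2 * d := by
    rw [← Module.finrank_mul_finrank ℝ ℂ, Complex.finrank_real_complex]; simp
  rw [hr] at hs
  have : IsProbabilityMeasure (gue n d) := by unfold gue; infer_instance
  have hsub : {x : Fin n × (Fin d × Fin d) → ℝ |
      ∃ c, 24 < ‖Matrix.toEuclideanCLM (n := Fin d) (𝕜 := ℂ) (gueM x c)‖} ⊆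
      ⋃ p ∈ (Finset.univ : Finset (Fin n)) ×ˢ s ×ˢ s, {x | 24 ≤ fnl p.1 p.2.1 p.2.2 x} := by
    rintro x ⟨c, hc⟩
    by_contra hx
    simp only [Set.mem_iUnion, not_exists, Set.mem_ofPred_eq, not_le] at hx
    refine absurd hc (not_lt.2 (norm_le_of_net s h2 _ _ (by norm_num) fun v hv w hw => ?_))
    exact (hx (c, v, w) (by simp [hv, hw])).le
  refine (measureReal_mono hsub (measure_ne_top _ _)).trans ((measureReal_biUnion_finset_le _ _).trans ?_)
  have hd' : (0 : ℝ) < d := by exact_mod_cast hd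
  have hb : ∀ p ∈ (Finset.univ : Finset (Fin n)) ×ˢ s ×ˢ s,
      (gue n d).real {x | 24 ≤ fnl p.1 p.2.1 p.2.2 x} ≤ Real.exp (-9) ^ d := by
    intro p hp
    simp only [Finset.mem_product] at hp
    refine (tail _ (by positivity) _ 32 (by norm_num)
      (fnl_sq p.1 p.2.1 p.2.2 (h1 _ hp.2.1) (h1 _ hp.2.2)) 24 (by norm_num)).trans (le_of_eq ?_)
    rw [← Real.exp_nat_mul]
    congr 1
    push_cast
    field_simp
    norm_num
  refine (Finset.sum_le_card_nsmul _ _ _ hb).trans ?_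
  have hs' : (s.card : ℝ) ≤ 25 ^ d := by
    have : (25 : ℝ) ^ d = ((5 ^ (2 * d) : ℕ) : ℝ) := by push_cast; rw [pow_mul]; norm_num
    rw [this]; exact_mod_cast hs
  have he : 625 * Real.exp (-9) ≤ 1 / 2 := by
    have h : (1250 : ℝ) ≤ Real.exp 9 := by
      have h1 := Real.exp_one_gt_d9
      have h2 : Real.exp 9 = Real.exp 1 ^ 9 := by rw [← Real.exp_nat_mul]; norm_num
      rw [h2]
      calc (1250 : ℝ) ≤ 2.7 ^ 9 := by norm_num
        _ ≤ _ := by gcongr; linarith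
    rw [Real.exp_neg, ← div_eq_mul_inv, div_le_iff₀ (Real.exp_pos _)]
    linarith
  simp only [Finset.card_product, Finset.card_univ, Fintype.card_fin, nsmul_eq_mul]
  push_cast
  calc (n : ℝ) * (s.card * s.card) * Real.exp (-9) ^ d ≤
        n * (25 ^ d * 25 ^ d) * Real.exp (-9) ^ d := by gcongr
    _ = n * (625 * Real.exp (-9)) ^ d := by
        rw [mul_pow, ← mul_pow 25 25]; norm_num [mul_assoc]
    _ ≤ _ := by gcongr

end Norm

theorem normStmt : NormStmt := by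
  refine ⟨24, fun n => ?_⟩
  have h : Tendsto (fun d : ℕ => (n : ℝ) * (1 / 2) ^ d) atTop (𝓝 (n * 0)) :=
    (tendsto_pow_atTop_nhds_zero_of_lt_one (by norm_num) (by norm_num)).const_mul _
  rw [mul_zero] at h
  filter_upwards [h.eventually (gt_mem_nhds (show (0 : ℝ) < 1 / 4 by norm_num)),
    eventually_gt_atTop 0] with d h1 h2
  have : IsProbabilityMeasure (gue n d) := by unfold gue; infer_instance
  have h3 := (Norm.bound n d h2).trans h1.le
  rw [← ofReal_measureReal]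
  refine (ENNReal.ofReal_le_ofReal h3).trans (le_of_eq ?_)
  rw [ENNReal.ofReal_div_of_pos (by norm_num)]; simp

end Crest.Agent.R89
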