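import Crest.Agent.R89.Defs

/-!
Row 89: residual finiteness of the free group (`RFStmt`).
-/

set_option autoImplicit false

namespace Crest.Agent.R89

open Filter Topology

namespace RF

/-- The ball of radius `N`. -/
def B (N : ℕ) : Type := {g : Γ // FreeGroup.norm g ≤ N}

instance (N : ℕ) : Finite (B N) := by
  have h : {g : Γ | FreeGroup.norm g ≤ N}.Finite := by
    refine ((List.finite_length_le (Fin 3 × Bool) N).image FreeGroup.mk).subset fun g hg => ?_
    exact ⟨g.toWord, hg, FreeGroup.mk_toWord⟩
  exact h.to_subtype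

theorem exists_gen (N : ℕ) (a : Fin 3) : ∃ s : Equiv.Perm (B N), ∀ (g : B N)
    (h : FreeGroup.norm (FreeGroup.of a * g.1) ≤ N), s g = ⟨FreeGroup.of a * g.1, h⟩ := by
  obtain ⟨s, hs⟩ := Equiv.Perm.exists_extending_pair
    (fun x : {g : B N // FreeGroup.norm (FreeGroup.of a * g.1) ≤ N} => x.1)
    (fun x => (⟨FreeGroup.of a * x.1.1, x.2⟩ : B N)) Subtype.val_injective
    (fun x y h => Subtype.ext (Subtype.ext (mul_left_cancel (congrArg Subtype.val h))))
  exact ⟨s, fun g h => hs ⟨g, h⟩⟩

/-- The action on the ball. -/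
noncomputable def σ (N : ℕ) : Γ →* Equiv.Perm (B N) :=
  FreeGroup.lift fun a => (exists_gen N a).choose

theorem σ_mk (N : ℕ) : ∀ (L : List (Fin 3 × Bool)) (hL : L.length ≤ N),
    σ N (FreeGroup.mk L) ⟨1, by simp⟩ = ⟨FreeGroup.mk L, FreeGroup.norm_mk_le.trans hL⟩
  | [], _ => by
    change σ N 1 _ = _
    rw [map_one]; rfl
  | (a, b) :: L, hL => by
    have hL' : L.length ≤ N := by simp only [List.length_cons] at hL; omega
    have hs := (exists_gen N a).choose_spec
    have hσ : σ N (FreeGroup.of a) = (exists_gen N a).choose := by simp [σ]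
    cases b
    · have e : FreeGroup.mk ((a, false) :: L) = (FreeGroup.of a)⁻¹ * FreeGroup.mk L := by
        rw [FreeGroup.of, FreeGroup.inv_mk, FreeGroup.mul_mk]; rfl
      have e' : FreeGroup.of a * FreeGroup.mk ((a, false) :: L) = FreeGroup.mk L := by
        rw [e, mul_inv_cancel_left]
      conv_lhs => rw [e]
      rw [map_mul, map_inv, Equiv.Perm.mul_apply, σ_mk N L hL', hσ, Equiv.Perm.inv_eq_iff_eq,
        hs _ (by change FreeGroup.norm (_ * FreeGroup.mk _) ≤ N
                 rw [e']; exact FreeGroup.norm_mk_le.trans hL')]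
      exact Subtype.ext e'.symm
    · have e : FreeGroup.mk ((a, true) :: L) = FreeGroup.of a * FreeGroup.mk L := by
        rw [FreeGroup.of, FreeGroup.mul_mk]; rfl
      conv_lhs => rw [e]
      rw [map_mul, Equiv.Perm.mul_apply, σ_mk N L hL', hσ,
        hs _ (by change FreeGroup.norm (_ * FreeGroup.mk _) ≤ N
                 rw [← e]; exact FreeGroup.norm_mk_le.trans hL)]
      exact Subtype.ext e.symm

theorem σ_ne_one (N : ℕ) (g : Γ) (hg : g ≠ 1) (h : FreeGroup.norm g ≤ N) : σ N g ≠ 1 := by
  intro h1
  have := congrArg Subtype.val (σ_mk N g.toWord h)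
  simp only [FreeGroup.mk_toWord, h1] at this
  exact hg this.symm

/-- The dimension. -/
noncomputable def d (N : ℕ) : ℕ := Nat.card (Equiv.Perm (B N))

theorem le_d (N : ℕ) : N + 1 ≤ d N := by
  rw [d, Nat.card_perm]
  refine le_trans ?_ (Nat.self_le_factorial _)
  have := Nat.card_le_card_of_injective (β := B N)
    (fun i : Fin (N + 1) => (⟨FreeGroup.of 0 ^ (i : ℕ), by
      rw [FreeGroup.norm_of_pow]; omega⟩ : B N)) (fun i j h => by
      have := congrArg (fun x : B N => FreeGroup.norm x.1) h
      simp only [FreeGroup.norm_of_pow] at this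
      exact Fin.ext this)
  simpa using this

/-- The regular action of the finite quotient, on `Fin (d N)`. -/
noncomputable def ρ (N : ℕ) : Γ →* Equiv.Perm (Fin (d N)) :=
  (Finite.equivFin (Equiv.Perm (B N))).permCongrHom.toMonoidHom.comp
    ((MulAction.toPermHom (Equiv.Perm (B N)) (Equiv.Perm (B N))).comp (σ N))

theorem ρ_fixed (N : ℕ) (g : Γ) (hg : σ N g ≠ 1) : Function.fixedPoints (ρ N g) = ∅ := by
  refine Set.eq_empty_of_forall_notMem fun x hx => hg ?_
  have h : Finite.equivFin (Equiv.Perm (B N))
      (σ N g * (Finite.equivFin (Equiv.Perm (B N))).symm x) = x := hx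
  rw [← Equiv.eq_symm_apply] at h
  exact mul_eq_right.1 h

end RF

open RF in
theorem rfStmt : RFStmt := by
  classical
  refine ⟨{ d := d
            hd := tendsto_atTop_mono (fun N => (Nat.le_succ N).trans (le_d N)) tendsto_id
            π := fun N => Matrix.permMatrixHom.comp (ρ N)
            star_π := fun N g => ?_
            tr_π := fun g => ?_ }⟩
  · simp [Matrix.star_eq_conjTranspose]
  · split_ifs with hg
    · subst hg
      refine tendsto_const_nhds.congr fun N => ?_
      have : (d N : ℂ) ≠ 0 := by have := le_d N; exact_mod_cast (by omega : d N ≠ 0)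
      simp [this]
    · refine tendsto_const_nhds.congr' ?_
      filter_upwards [eventually_ge_atTop (FreeGroup.norm g)] with N hN
      have h := ρ_fixed N g⁻¹ (σ_ne_one N _ (inv_ne_one.2 hg) (by rwa [FreeGroup.norm_inv_eq]))
      rw [MonoidHom.comp_apply, Matrix.permMatrixHom_apply, Matrix.trace_permutation, ← map_inv, h]
      simp

end Crest.Agent.R89
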