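import Crest.Agent.R89.Ser

/-! Row 89: the concrete ring data and the representation of the edge moments. -/

set_option autoImplicit false
set_option linter.unusedSectionVars false

namespace Crest.Agent.R89

open scoped Classical
open Ser

namespace RepAux

/-- Finitely supported functions on the group. -/
def 𝓜 : Type := Γ →₀ ℂ

noncomputable instance : AddCommGroup 𝓜 := inferInstanceAs (AddCommGroup (Γ →₀ ℂ))
noncomputable instance : Module ℂ 𝓜 := inferInstanceAs (Module ℂ (Γ →₀ ℂ))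

/-- Operators on finitely supported functions on the group. -/
def 𝒦 : Type := Module.End ℂ 𝓜

noncomputable instance : Ring 𝒦 := inferInstanceAs (Ring (Module.End ℂ 𝓜))
noncomputable instance : Algebra ℂ 𝒦 := inferInstanceAs (Algebra ℂ (Module.End ℂ 𝓜))

def app (T : 𝒦) : 𝓜 →ₗ[ℂ] 𝓜 := T

@[simp] theorem app_mul (S T : 𝒦) (x : 𝓜) : app (S * T) x = app S (app T x) := rfl
@[simp] theorem app_add (S T : 𝒦) (x : 𝓜) : app (S + T) x = app S x + app T x := rfl
@[simp] theorem app_smul (a : ℂ) (T : 𝒦) (x : 𝓜) : app (a • T) x = a • app T x := rfl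
@[simp] theorem app_one (x : 𝓜) : app 1 x = x := rfl
@[simp] theorem app_zero (x : 𝓜) : app 0 x = 0 := rfl

noncomputable def δ (g : Γ) : 𝓜 := Finsupp.single g 1

noncomputable def cf (g : Γ) : 𝓜 →ₗ[ℂ] ℂ := Finsupp.lapply (M := ℂ) (R := ℂ) g

@[simp] theorem cf_δ (g g' : Γ) : cf g (δ g') = if g' = g then 1 else 0 :=
  Finsupp.single_apply

theorem extcf {x y : 𝓜} (h : ∀ g, cf g x = cf g y) : x = y := Finsupp.ext h

noncomputable def op (F : Γ → 𝓜) : 𝒦 := Finsupp.linearCombination ℂ F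

@[simp] theorem op_δ (F : Γ → 𝓜) (g : Γ) : app (op F) (δ g) = F g :=
  (Finsupp.linearCombination_single ℂ (1 : ℂ) g).trans (one_smul _ _)

theorem extδ' {N : Type} [AddCommGroup N] [Module ℂ N] {S T : 𝓜 →ₗ[ℂ] N}
    (h : ∀ g, S (δ g) = T (δ g)) : S = T :=
  Finsupp.lhom_ext' (M := ℂ) (φ := S) (ψ := T) fun g => LinearMap.ext_ring (h g)

theorem extδ {S T : 𝒦} (h : ∀ g, app S (δ g) = app T (δ g)) : S = T :=
  extδ' (S := app S) (T := app T) h

noncomputable def lamG : Γ →* 𝒦 where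
  toFun γ := op fun g => δ (γ * g)
  map_one' := extδ fun g => by simp
  map_mul' γ γ' := extδ fun g => by simp [mul_assoc]

@[simp] theorem lamG_δ (γ g : Γ) : app (lamG γ) (δ g) = δ (γ * g) := op_δ _ _

noncomputable def lam : CG →ₐ[ℂ] 𝒦 := MonoidAlgebra.lift ℂ 𝒦 Γ lamG

@[simp] theorem lam_single (g : Γ) (a : ℂ) : lam (MonoidAlgebra.single g a) = a • lamG g :=
  MonoidAlgebra.lift_single _ _ _

theorem lam_apply (x : CG) : lam x = ∑ g ∈ x.coeff.support, x.coeff g • lamG g := by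
  rw [lam, MonoidAlgebra.lift_apply]; rfl

noncomputable def eK (S : Set V) : 𝒦 := op fun g => if vx g ∈ S then δ g else 0

@[simp] theorem eK_δ (S : Set V) (g : Γ) :
    app (eK S) (δ g) = if vx g ∈ S then δ g else 0 := op_δ _ _

noncomputable def EE (p q : Γ) : 𝒦 := op fun g => if g = q then δ p else 0

@[simp] theorem EE_δ (p q g : Γ) : app (EE p q) (δ g) = if g = q then δ p else 0 := op_δ _ _

/-- Matrix entries. -/
noncomputable def ent (g g' : Γ) : 𝒦 →ₗ[ℂ] ℂ where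
  toFun T := cf g (app T (δ g'))
  map_add' _ _ := by simp
  map_smul' _ _ := by simp

theorem ent_apply (g g' : Γ) (T : 𝒦) : ent g g' T = cf g (app T (δ g')) := rfl

theorem vx_eq {g g' : Γ} : vx g = vx g' ↔ g' * g⁻¹ ∈ Λ0 :=
  Quotient.eq.trans QuotientGroup.rightRel_apply

theorem vx_mul_iff (γ g : Γ) : vx (γ * g) = vx g ↔ γ ∈ Λ0 := by
  rw [eq_comm, vx_eq]; simp

theorem eK_univ : eK Set.univ = 1 := extδ fun g => by simp

theorem eK_inter (S T : Set V) : eK (S ∩ T) = eK S * eK T := extδ fun g => by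
  by_cases h1 : vx g ∈ S <;> by_cases h2 : vx g ∈ T <;> simp [h1, h2]

theorem eK_union {S T : Set V} (h : Disjoint S T) : eK (S ∪ T) = eK S + eK T := extδ fun g => by
  by_cases h1 : vx g ∈ S <;> by_cases h2 : vx g ∈ T
  · exact absurd h2 (Set.disjoint_left.1 h h1)
  all_goals simp [h1, h2]

theorem eK_lamG (S : Set V) {γ : Γ} (h : γ ∈ Λ0) : eK S * lamG γ = lamG γ * eK S :=
  extδ fun g => by
    by_cases h1 : vx g ∈ S <;> simp [h1, (vx_mul_iff γ g).2 h]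

theorem eK_lam (S : Set V) {x : CG} (h : ∀ g, x.coeff g ≠ 0 → g ∈ Λ0) :
    eK S * lam x = lam x * eK S := by
  rw [lam_apply, Finset.mul_sum, Finset.sum_mul]
  refine Finset.sum_congr rfl fun g hg => ?_
  rw [mul_smul_comm, smul_mul_assoc, eK_lamG S (h g (Finsupp.mem_support_iff.1 hg))]

theorem ent_lam (g g' : Γ) (x : CG) : ent g g' (lam x) = x.coeff (g * g'⁻¹) := by
  rw [lam_apply, map_sum]
  simp only [map_smul, ent_apply, lamG_δ, smul_eq_mul]
  simp only [cf_δ, ← eq_mul_inv_iff_mul_eq, mul_ite, mul_one, mul_zero]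
  rw [Finset.sum_ite_eq']
  split_ifs with h
  · rfl
  · exact (Finsupp.notMem_support_iff.1 h).symm

theorem EE_apply (p q : Γ) (y : 𝓜) : app (EE p q) y = cf q y • δ p := by
  have : app (EE p q) = (LinearMap.toSpanSingleton ℂ _ (δ p)).comp (cf q) :=
    extδ' fun g => by
      by_cases h : g = q <;> simp [h]
  rw [this]; rfl

theorem ent_mul_EE (g g' p q : Γ) (X Y : 𝒦) :
    ent g g' (X * EE p q * Y) = ent g p X * ent q g' Y := by
  simp only [ent_apply, app_mul, EE_apply, map_smul, smul_eq_mul, mul_comm]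

theorem eK_apply (S : Set V) (y : 𝓜) (g : Γ) :
    cf g (app (eK S) y) = if vx g ∈ S then cf g y else 0 := by
  have : (cf g).comp (app (eK S)) = if vx g ∈ S then cf g else 0 := extδ' fun g' => by
    by_cases h : g' = g
    · subst h; by_cases h' : vx g' ∈ S <;> simp [h']
    · by_cases h' : vx g' ∈ S <;> by_cases h'' : vx g ∈ S <;> simp [h, h', h'']
  have h2 := LinearMap.congr_fun this y
  rw [LinearMap.comp_apply] at h2
  rw [h2]; split_ifs <;> rfl

theorem ent_eK (g g' : Γ) (X : 𝒦) : ent g g' (eK {vx g} * X * eK {vx g'}) = ent g g' X := by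
  simp [ent_apply, eK_apply]

/-- The projection onto the group algebra of `Λ0`. -/
noncomputable def pr (x : CG) : CG := MonoidAlgebra.ofCoeff (x.coeff.filter (· ∈ Λ0))

theorem pr_coeff (x : CG) (g : Γ) : (pr x).coeff g = if g ∈ Λ0 then x.coeff g else 0 :=
  Finsupp.filter_apply _ _ _

theorem pr_one : pr 1 = 1 := by
  ext g
  rw [pr_coeff]
  split_ifs with h
  · rfl
  · have : g ≠ 1 := fun h1 => h (h1 ▸ Λ0.one_mem)
    simp [MonoidAlgebra.one_def, this.symm]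

theorem extent {S T : 𝒦} (h : ∀ g g', ent g g' S = ent g g' T) : S = T :=
  extδ fun g' => extcf fun g => h g g'

theorem ent_eK_mul (S : Set V) (g g' : Γ) (X : 𝒦) :
    ent g g' (eK S * X) = if vx g ∈ S then ent g g' X else 0 := by
  simp [ent_apply, eK_apply]

theorem ent_mul_eK (S : Set V) (g g' : Γ) (X : 𝒦) :
    ent g g' (X * eK S) = if vx g' ∈ S then ent g g' X else 0 := by
  simp only [ent_apply, app_mul, eK_δ]; split_ifs <;> simp

theorem eK_diag (x : V) (y : CG) : eK {x} * lam y * eK {x} = eK {x} * lam (pr y) :=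
  extent fun g g' => by
    rw [ent_mul_eK, ent_eK_mul, ent_eK_mul, ent_lam, ent_lam, pr_coeff, ← vx_eq]
    simp only [Set.mem_singleton_iff]
    by_cases h1 : vx g = x <;> by_cases h2 : vx g' = x <;> simp [h1, h2]

theorem eK_hel {k : ℕ} {P Q : Γ} {t0 : ET k} (h0 : hel t0 * Q = P)
    (h : ∀ (g : Γ) (t : ET k), vx (hel t * g) = vx P → vx g = vx Q → t = t0 ∧ g = Q) (t : ET k) :
    eK {vx P} * lamG (hel t) * eK {vx Q} = if t = t0 then EE P Q else 0 := extδ fun g => by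
  by_cases h1 : vx g = vx Q
  · by_cases h2 : vx (hel t * g) = vx P
    · obtain ⟨rfl, rfl⟩ := h g t h2 h1
      simp [h0]
    · have : ¬ (t = t0 ∧ g = Q) := by rintro ⟨rfl, rfl⟩; exact h2 (by rw [h0])
      by_cases h3 : t = t0
      · simp [h1, h3, show g ≠ Q from fun h4 => this ⟨h3, h4⟩, h3 ▸ h2]
      · simp [h1, h2, h3]
  · have : g ≠ Q := fun h4 => h1 (by rw [h4])
    split_ifs <;> simp [h1, this]

theorem hel_not {k : ℕ} (t : ET k) : hel (t.1, !t.2) * hel t = 1 := by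
  rcases t with ⟨_ | j, _ | _⟩ <;> simp [hel]

section Series
variable {k n : ℕ} (ξ0 ξ : Fin n → CG) (v ρ : Fin n → ℝ) (C : Set (Fin n))

abbrev ℛ (n : ℕ) : Type := Ser (Let n) 𝒦

noncomputable def GS : ℛ n := ⟨fun Q => lam (E ξ v Q)⟩
noncomputable def LS : ℛ n := ⟨fun Q => lam (pr (E ξ v Q))⟩
noncomputable def TS : ℛ n := ⟨fun Q => (E ξ v Q).coeff 1 • (1 : 𝒦)⟩
noncomputable def AS : ℛ n := ∑ c, cst (lam (ξ c - ξ0 c)) * z (Sum.inr c)
noncomputable def DS : ℛ n := ⟨fun w => match w with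
  | [] => 1
  | Sum.inl g :: w => (-cst (lamG g) : ℛ n).co w
  | Sum.inr c :: w => (-cst (lam (ξ0 c)) - (v c : ℂ) • (TS ξ v * z (Sum.inr c)) : ℛ n).co w⟩

theorem AS_nil : (AS ξ0 ξ).co [] = 0 := by simp [AS, sum_co]

theorem der_AS_inl (g : Λ0) : der (Sum.inl g) (AS ξ0 ξ) = 0 := ext' fun w => by
  simp [AS, sum_co, z]

theorem der_AS_inr (c : Fin n) : der (Sum.inr c) (AS ξ0 ξ) = cst (lam (ξ c - ξ0 c)) :=
  ext' fun w => by
    simp only [AS, der_co, sum_co, cst_mul_co, z]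
    cases w with
    | nil => simp
    | cons a w => simp

theorem M_nil : (DS ξ0 ξ v - AS ξ0 ξ).co [] = 1 := by rw [sub_co, AS_nil, sub_zero]; rfl

theorem M_G : (DS ξ0 ξ v - AS ξ0 ξ) * GS ξ v = 1 := by
  refine ext' fun w => ?_
  have hd : ∀ a, der a (DS ξ0 ξ v - AS ξ0 ξ) = der a (DS ξ0 ξ v) - der a (AS ξ0 ξ) :=
    fun a => rfl
  rcases w with _ | ⟨g | c, w⟩
  · rw [mul_nil, M_nil]; simp [GS, E_nil]
  · have h1 : der (Sum.inl g) (DS ξ0 ξ v) = -cst (lamG g) := rfl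
    rw [mul_cons, M_nil, hd, h1, der_AS_inl]
    simp [GS, E_inl]
  · have h1 : der (Sum.inr c) (DS ξ0 ξ v) =
        -cst (lam (ξ0 c)) - (v c : ℂ) • (TS ξ v * z (Sum.inr c)) := rfl
    have h2 : (TS ξ v * (z (Sum.inr c) * GS ξ v)).co w =
        lam (split (Sum.inr c) (fun P => (E ξ v P).coeff 1) (E ξ v) w) := by
      rw [show lam (split (Sum.inr c) (fun P => (E ξ v P).coeff 1) (E ξ v) w) = _ from
        map_split lam.toLinearMap _ _ _ _]
      exact map_mul_z_mul (AddMonoidHom.id 𝒦) _ _ _ _ _ (fun P P' => by simp [TS, GS]) w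
    rw [mul_cons, M_nil, hd, h1, der_AS_inr, sub_mul, sub_mul, smul_mul_assoc, mul_assoc]
    simp only [sub_co, smul_co, h2, neg_mul, neg_co, cst_mul_co, one_mul, one_cons]
    simp only [GS, E_inr, map_add, map_mul, map_smul, map_sub, sub_mul]
    abel

theorem DS_inl (g : Λ0) (w : List (Let n)) :
    (DS ξ0 ξ v).co (Sum.inl g :: w) = (-cst (lamG g) : ℛ n).co w := rfl

theorem DS_inr (c : Fin n) (w : List (Let n)) : (DS ξ0 ξ v).co (Sum.inr c :: w) =
    (-cst (lam (ξ0 c)) - (v c : ℂ) • (TS ξ v * z (Sum.inr c)) : ℛ n).co w := rfl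

theorem e_D (h0 : ∀ c g, (ξ0 c).coeff g ≠ 0 → g ∈ Λ0) (S : Set V) :
    cst (eK S) * DS ξ0 ξ v = DS ξ0 ξ v * cst (eK S) := by
  refine cst_comm fun w => ?_
  rcases w with _ | ⟨g | c, w⟩
  · exact (mul_one _).trans (one_mul _).symm
  · rw [DS_inl, ← cst_mul_co, ← mul_cst_co, mul_neg, neg_mul, ← cst_mul, ← cst_mul,
      eK_lamG S g.2]
  · have hT : cst (eK S) * TS ξ v = TS ξ v * cst (eK S) := cst_comm fun w => by simp [TS]
    rw [DS_inr, ← cst_mul_co, ← mul_cst_co, mul_sub, sub_mul, mul_neg, neg_mul, ← cst_mul,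
      ← cst_mul, eK_lam S (h0 c), mul_smul_comm, smul_mul_assoc, ← mul_assoc, hT, mul_assoc,
      cst_comm_z, mul_assoc]

theorem e_L (S : Set V) : cst (eK S) * LS ξ v = LS ξ v * cst (eK S) :=
  cst_comm fun w => eK_lam S fun g hg => by
    rw [pr_coeff] at hg
    by_contra h
    exact hg (if_neg h)

theorem LS_nil : (LS ξ v).co [] = 1 := by simp [LS, E_nil, pr_one]

theorem ent_LS (g g' : Γ) (Q : List (Let n)) : ent g g' ((LS ξ v).co Q) = Lc ξ v (g * g'⁻¹) Q := by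
  rw [LS, ent_lam, pr_coeff, Lc]

/-- Monomials (with a trailing `L`). -/
noncomputable def mon (l : List (Γ × Fin n × Γ)) : ℛ n :=
  (l.map fun x => cst (EE x.1 x.2.2) * z (Sum.inr x.2.1) * LS ξ v).prod

noncomputable def wtL (l : List (Γ × Fin n × Γ)) : ℝ := (l.map fun x => ρ x.2.1).prod

theorem ent_mon (l : List (Γ × Fin n × Γ)) (hl : ∀ x ∈ l, x.2.1 ∈ C) (g g' : Γ) :
    ∃ (g0 : Γ) (r : List (Fin n × Γ)), (∀ p ∈ r, p.1 ∈ C) ∧ wt ρ r = wtL ρ l ∧
      ∀ Q, ent g g' ((LS ξ v * mon ξ v l).co Q) = φ ξ v g0 r Q := by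
  induction l generalizing g with
  | nil => exact ⟨g * g'⁻¹, [], by simp, rfl, fun Q => by simp [mon, ent_LS, φ]⟩
  | cons x l ih =>
    obtain ⟨g0, r, h1, h2, h3⟩ := ih (fun y hy => hl y (List.mem_cons_of_mem _ hy)) x.2.2
    refine ⟨g * x.1⁻¹, (x.2.1, g0) :: r, ?_, ?_, fun Q => ?_⟩
    · intro p hp
      rcases List.mem_cons.1 hp with rfl | hp
      · exact hl x List.mem_cons_self
      · exact h1 p hp
    · simp only [wt, wtL, List.map_cons, List.prod_cons] at h2 ⊢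
      rw [h2]
    · have e : LS ξ v * mon ξ v (x :: l) =
          (LS ξ v * cst (EE x.1 x.2.2)) * (z (Sum.inr x.2.1) * (LS ξ v * mon ξ v l)) := by
        simp only [mon, List.map_cons, List.prod_cons, mul_assoc]
      rw [e, φ]
      refine map_mul_z_mul (ent g g').toAddMonoidHom _ _ _ _ _ (fun P P' => ?_) Q
      rw [mul_cst_co, LinearMap.toAddMonoidHom_coe, ent_mul_EE, ent_LS, h3, smul_eq_mul]

/-- Finite combinations of monomials with their `ℓ¹` weight. -/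
inductive Comb : ℛ n → ℝ → Prop
  | nil : Comb 0 0
  | cons (a : ℂ) (l : List (Γ × Fin n × Γ)) (S : ℛ n) (r : ℝ) : l ≠ [] → (∀ x ∈ l, x.2.1 ∈ C) →
      Comb S r → Comb (a • mon ξ v l + S) (‖a‖ * wtL ρ l + r)

variable {ξ v ρ C}

theorem Comb.add {S S' : ℛ n} {r r' : ℝ} (h : Comb ξ v ρ C S r) (h' : Comb ξ v ρ C S' r') :
    Comb ξ v ρ C (S + S') (r + r') := by
  induction h with
  | nil => simpa using h'
  | cons a l S r h1 h2 _ ih => rw [add_assoc, add_assoc]; exact Comb.cons a l _ _ h1 h2 ih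

theorem Comb.neg {S : ℛ n} {r : ℝ} (h : Comb ξ v ρ C S r) : Comb ξ v ρ C (-S) r := by
  induction h with
  | nil => simpa using Comb.nil
  | cons a l S r h1 h2 _ ih =>
    have := Comb.cons (-a) l _ _ h1 h2 ih
    rwa [norm_neg, neg_smul, ← neg_add] at this

theorem Comb.mon_mul {S : ℛ n} {r : ℝ} (h : Comb ξ v ρ C S r) (a : ℂ) {l : List (Γ × Fin n × Γ)}
    (h1 : l ≠ []) (h2 : ∀ x ∈ l, x.2.1 ∈ C) :
    Comb ξ v ρ C (a • mon ξ v l * S) (‖a‖ * wtL ρ l * r) := by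
  induction h with
  | nil => simpa using Comb.nil
  | cons a' l' S r h1' h2' _ ih =>
    have := Comb.cons (a * a') (l ++ l') _ _ (by simp [h1])
      (fun x hx => (List.mem_append.1 hx).elim (h2 x) (h2' x)) ih
    convert this using 1
    · simp only [mon, List.map_append, List.prod_append, mul_add, smul_mul_assoc, mul_smul_comm,
        smul_smul, mul_comm a' a]
    · simp only [wtL, List.map_append, List.prod_append, norm_mul]; ring

theorem Comb.mul {S S' : ℛ n} {r r' : ℝ} (h : Comb ξ v ρ C S r) (h' : Comb ξ v ρ C S' r') :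
    Comb ξ v ρ C (S * S') (r * r') := by
  induction h with
  | nil => simpa using Comb.nil
  | cons a l S r h1 h2 _ ih => rw [add_mul, add_mul]; exact (h'.mon_mul a h1 h2).add ih

theorem Comb.van {S : ℛ n} {r : ℝ} (h : Comb ξ v ρ C S r) : Van 1 S := by
  induction h with
  | nil => exact Van.zero _
  | cons a l S r h1 _ _ ih =>
    refine Van.add (Van.smul a ?_) ih
    obtain ⟨x, l, rfl⟩ := List.exists_cons_of_ne_nil h1
    exact van_one.2 (by simp [mon])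

theorem Comb.nonneg (hρ : ∀ c, 0 ≤ ρ c) {S : ℛ n} {r : ℝ} (h : Comb ξ v ρ C S r) : 0 ≤ r := by
  induction h with
  | nil => exact le_rfl
  | cons a l S r _ _ _ ih =>
    refine add_nonneg (mul_nonneg (norm_nonneg _) (List.prod_nonneg ?_)) ih
    intro y hy
    obtain ⟨x, _, rfl⟩ := List.mem_map.1 hy
    exact hρ _

theorem Comb.sum {ι : Type} (s : Finset ι) {S : ι → ℛ n} {r : ι → ℝ}
    (h : ∀ i ∈ s, Comb ξ v ρ C (S i) (r i)) : Comb ξ v ρ C (∑ i ∈ s, S i) (∑ i ∈ s, r i) := by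
  induction s using Finset.induction_on with
  | empty => simpa using Comb.nil
  | insert a s ha ih =>
    rw [Finset.sum_insert ha, Finset.sum_insert ha]
    exact (h a (Finset.mem_insert_self _ _)).add
      (ih fun i hi => h i (Finset.mem_insert_of_mem hi))

theorem Comb.ent {S : ℛ n} {r : ℝ} (h : Comb ξ v ρ C S r) (g g' : Γ) :
    ∃ l : List (ℂ × Γ × List (Fin n × Γ)), (∀ x ∈ l, ∀ p ∈ x.2.2, p.1 ∈ C) ∧
      (l.map fun x => ‖x.1‖ * wt ρ x.2.2).sum = r ∧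
      ∀ Q, ent g g' ((LS ξ v * S).co Q) = (l.map fun x => x.1 * φ ξ v x.2.1 x.2.2 Q).sum := by
  induction h with
  | nil => exact ⟨[], by simp, rfl, fun Q => by simp⟩
  | cons a l S r h1 h2 _ ih =>
    obtain ⟨l', i1, i2, i3⟩ := ih
    obtain ⟨g0, r0, j1, j2, j3⟩ := ent_mon ξ v ρ C l h2 g g'
    refine ⟨(a, g0, r0) :: l', ?_, by simp [i2, j2], fun Q => ?_⟩
    · intro x hx
      rcases List.mem_cons.1 hx with rfl | hx
      · exact j1
      · exact i1 x hx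
    · simp only [mul_add, mul_smul_comm, add_co, smul_co, map_add, map_smul, i3, j3, List.map_cons,
        List.sum_cons, smul_eq_mul]

variable (ξ v ρ C)

/-- Truncated `ℓ¹` bounds. -/
def RepS (m : ℕ) (r : ℝ) (x : ℛ n) : Prop :=
  ∃ S r', Comb ξ v ρ C S r' ∧ r' ≤ r ∧ Van (m + 1) (x * LS ξ v - S)

theorem RepS.mul (hρ : ∀ c, 0 ≤ ρ c) (m : ℕ) (r r' : ℝ) (x x' : ℛ n) (h : RepS ξ v ρ C m r x)
    (h' : RepS ξ v ρ C m r' x') : RepS ξ v ρ C (m + 1) (r * r') (x * LS ξ v * x') := by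
  obtain ⟨S, s, h1, h2, h3⟩ := h
  obtain ⟨S', s', h1', h2', h3'⟩ := h'
  refine ⟨S * S', s * s', h1.mul h1',
    mul_le_mul h2 h2' (h1'.nonneg hρ) ((h1.nonneg hρ).trans h2), ?_⟩
  have e : x * LS ξ v * x' * LS ξ v - S * S' =
      (x * LS ξ v - S) * ((x' * LS ξ v - S') + S') + S * (x' * LS ξ v - S') := by
    noncomm_ring
  rw [e]
  refine (h3.mul ((h3'.mono (by omega)).add h1'.van)).add ?_
  rw [add_comm (m + 1) 1]
  exact h1.van.mul h3'

theorem e_AS {coef : Fin n → ET k → ℂ}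
    (hξ : ∀ c, ξ c = ξ0 c + ∑ t, coef c t • MonoidAlgebra.single (hel t) (1 : ℂ)) (S T : Set V) :
    cst (eK S) * AS ξ0 ξ * cst (eK T) =
      ∑ c, ∑ t, coef c t • (cst (eK S * lamG (hel t) * eK T) * z (Sum.inr c)) := by
  rw [AS, Finset.mul_sum, Finset.sum_mul]
  refine Finset.sum_congr rfl fun c _ => ext' fun w => ?_
  rw [hξ c, add_sub_cancel_left]
  simp only [mul_cst_co, cst_mul_co, sum_co, smul_co, map_sum, map_smul, lam_single, one_smul,
    Finset.sum_mul, Finset.mul_sum, smul_mul_assoc, mul_smul_comm, z]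
  refine Finset.sum_congr rfl fun t _ => ?_
  split_ifs <;> simp [mul_assoc]

/-- The ring data. -/
noncomputable def data {coef : Fin n → ET k → ℂ} (h0 : ∀ c g, (ξ0 c).coeff g ≠ 0 → g ∈ Λ0)
    (hξ : ∀ c, ξ c = ξ0 c + ∑ t, coef c t • MonoidAlgebra.single (hel t) (1 : ℂ))
    (hρ : ∀ c, 0 ≤ ρ c) : RingData V (adj k) (ℛ n) where
  e S := cst (eK S)
  e_univ := by rw [eK_univ, cst_one]
  e_inter S T := by rw [eK_inter, cst_mul]
  e_union S T h := by rw [eK_union h, cst_add]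
  A := AS ξ0 ξ
  D := DS ξ0 ξ v
  G := GS ξ v
  L := LS ξ v
  Li := ↑(isUnit_of_nil (LS_nil ξ v)).unit⁻¹
  e_D := e_D ξ0 ξ v h0
  G_M := by
    obtain ⟨u, hu⟩ := isUnit_of_nil (M_nil ξ0 ξ v)
    have h := M_G ξ0 ξ v
    rw [← hu] at h ⊢
    rw [← Units.inv_eq_of_mul_eq_one_right h, Units.inv_mul]
  M_G := M_G ξ0 ξ v
  unit S := isUnit_of_nil (by
    rw [add_co, mul_nil, mul_nil, M_nil, sub_co, cst_nil, one_nil, mul_one, ← eK_inter,
      Set.inter_self, add_sub_cancel])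
  e_L := e_L ξ v
  L_Li := (isUnit_of_nil (LS_nil ξ v)).mul_val_inv
  Li_L := (isUnit_of_nil (LS_nil ξ v)).val_inv_mul
  diag x := ext' fun w => by
    rw [mul_cst_co, cst_mul_co, cst_mul_co]; exact eK_diag x _
  e_A S T h := by
    rw [e_AS ξ0 ξ hξ]
    refine Finset.sum_eq_zero fun c _ => Finset.sum_eq_zero fun t _ => ?_
    have : eK S * lamG (hel t) * eK T = 0 := extδ fun g => by
      by_cases h1 : vx g ∈ T
      · have h2 : vx (hel t * g) ∉ S := fun h2 => h _ h2 _ h1 ⟨t, g, rfl, rfl⟩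
        simp [h1, h2]
      · simp [h1]
    rw [this, cst_zero, zero_mul, smul_zero]
  I := TwoSidedIdeal.ker (c0 : ℛ n →+* 𝒦)
  I_A := (TwoSidedIdeal.mem_ker _).2 (AS_nil ξ0 ξ)
  I_D := (TwoSidedIdeal.mem_ker _).2 (sub_self (1 : 𝒦))
  I_L := (TwoSidedIdeal.mem_ker _).2 (by rw [c0_apply, sub_co, LS_nil, one_nil, sub_self])
  Rep := RepS ξ v ρ C
  rep_I m hm := ⟨0, 0, Comb.nil, le_rfl, van_one.2 (by
    have : m.co [] = 0 := (TwoSidedIdeal.mem_ker _).1 hm
    simp [this])⟩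
  rep_zero m := ⟨0, 0, Comb.nil, le_rfl, by simpa using Van.zero _⟩
  rep_mono m r r' x h := fun ⟨S, s, h1, h2, h3⟩ => ⟨S, s, h1, h2.trans h, h3⟩
  rep_add m r r' x x' := fun ⟨S, s, h1, h2, h3⟩ ⟨S', s', h1', h2', h3'⟩ =>
    ⟨S + S', s + s', h1.add h1', add_le_add h2 h2', by
      rw [add_mul, add_sub_add_comm]; exact h3.add h3'⟩
  rep_neg m r x := fun ⟨S, s, h1, h2, h3⟩ =>
    ⟨-S, s, h1.neg, h2, by rw [neg_mul, ← neg_sub']; exact h3.neg⟩
  rep_down m r x := fun ⟨S, s, h1, h2, h3⟩ => ⟨S, s, h1, h2, h3.mono (by omega)⟩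
  rep_mul := RepS.mul ξ v ρ C hρ

theorem rep_AS {coef : Fin n → ET k → ℂ}
    (hξ : ∀ c, ξ c = ξ0 c + ∑ t, coef c t • MonoidAlgebra.single (hel t) (1 : ℂ))
    (hC : ∀ c, c ∉ C → ∀ t, coef c t = 0) {P Q : Γ} {t0 : ET k} (h0 : hel t0 * Q = P)
    (h : ∀ (g : Γ) (t : ET k), vx (hel t * g) = vx P → vx g = vx Q → t = t0 ∧ g = Q)
    {β : ℝ} (hβ : ∑ c, ‖coef c t0‖ * ρ c ≤ β) (m : ℕ) :
    RepS ξ v ρ C m β (cst (eK {vx P}) * AS ξ0 ξ * cst (eK {vx Q})) := by
  refine ⟨∑ c, coef c t0 • mon ξ v [(P, c, Q)], _, Comb.sum _ fun c _ => ?_, hβ, ?_⟩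
  · by_cases hc : c ∈ C
    · simpa [wtL] using Comb.cons (coef c t0) [(P, c, Q)] 0 0 (by simp) (by simpa using hc)
        (Comb.nil (ξ := ξ) (v := v) (ρ := ρ) (C := C))
    · simpa [hC c hc] using Comb.nil
  · rw [e_AS ξ0 ξ hξ, Finset.sum_mul, ← Finset.sum_sub_distrib, Finset.sum_eq_zero]
    · exact Van.zero _
    intro c _
    rw [Finset.sum_eq_single t0, eK_hel h0 h, if_pos rfl]
    · simp [mon]
    · intro t _ ht
      rw [eK_hel h0 h, if_neg ht, cst_zero, zero_mul, smul_zero]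
    · simp

theorem rev {t0 : ET k} {P Q : Γ} (h0 : hel t0 * Q = P)
    (h : ∀ (g : Γ) (t : ET k), vx (hel t * g) = vx P → vx g = vx Q → t = t0 ∧ g = Q) :
    hel (t0.1, !t0.2) * P = Q ∧ ∀ (g : Γ) (t : ET k), vx (hel t * g) = vx Q → vx g = vx P →
      t = (t0.1, !t0.2) ∧ g = P := by
  refine ⟨by rw [← h0, ← mul_assoc, hel_not, one_mul], fun g t h1 h2 => ?_⟩
  have e : hel (t.1, !t.2) * (hel t * g) = g := by rw [← mul_assoc, hel_not, one_mul]
  obtain ⟨h3, h4⟩ := h (hel t * g) (t.1, !t.2) (by rw [e, h2]) h1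
  refine ⟨by rw [← h3]; simp, by rw [← e, h3, h4, h0]⟩

theorem extract {Li : ℛ n} (h1 : LS ξ v * Li = 1) (h2 : Li * LS ξ v = 1) {g g' : Γ}
    (hne : vx g ≠ vx g') {m : ℕ} {β : ℝ}
    (h : RepS ξ v ρ C m β (cst (eK {vx g}) * (Li * GS ξ v * Li - Li) * cst (eK {vx g'}))) :
    Repd ξ v ρ C m β fun Q => (E ξ v Q).coeff (g * g'⁻¹) := by
  obtain ⟨S, s, i1, i2, i3⟩ := h
  obtain ⟨l, j1, j2, j3⟩ := i1.ent g g'
  refine ⟨l, j1, j2.trans_le i2, fun Q hQ => ?_⟩
  have e : LS ξ v * (cst (eK {vx g}) * (Li * GS ξ v * Li - Li) * cst (eK {vx g'}) * LS ξ v) =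
      cst (eK {vx g}) * (GS ξ v - LS ξ v) * cst (eK {vx g'}) := by
    rw [mul_assoc _ (cst _) (LS ξ v), e_L, ← mul_assoc, ← mul_assoc, ← mul_assoc, ← e_L,
      mul_assoc (cst _), mul_assoc (cst _), mul_sub, sub_mul, ← mul_assoc, ← mul_assoc, h1,
      one_mul, one_mul, mul_assoc (GS ξ v), h2, mul_one]
  have h4 := i3.mul_left (LS ξ v) Q (by omega)
  rw [mul_sub, e, sub_co, sub_eq_zero] at h4
  rw [← j3, ← h4, mul_cst_co, cst_mul_co, ent_eK, sub_co, map_sub, ent_LS, Lc,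
    if_neg (fun h => hne (vx_eq.2 h).symm), sub_zero, GS, ent_lam]

end Series

end RepAux

open RepAux in
theorem repStmt_of (hL : LocalStmt) (hG : GeomStmt) : RepStmt := by
  intro k n ξ0 ξ coef v ρ C α r r0 hk h0 hξ hC hρ hα hβ hr hrr hr0 hineq m t l1 hl1 l2 hl2
  obtain ⟨𝒢, ha, hs, ht, hv, hn, hcard, U1, U2⟩ := hG k
  have hα0 : 0 ≤ α :=
    (Finset.sum_nonneg fun c _ => mul_nonneg (norm_nonneg _) (hρ c)).trans (hα true)
  have key := hL V Γ (Γ × Fin k) 𝒢 (ℛ n) (ha ▸ data ξ0 ξ v ρ C h0 hξ hρ) (3 * k) α r r0 hcard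
    hα0 hr hrr hr0 (by push_cast; linarith)
  obtain ⟨adj', symm, src, tgt, cv', cn', cells, cv_inj, _, _, _, _, _, _, _⟩ := 𝒢
  dsimp only at ha hs ht hv hn key
  subst ha hs ht hv hn
  have key2 := key (fun m G => by
      have a1 : hel ((none, true) : ET k) * G = gu * G := rfl
      obtain ⟨b1, b2⟩ := rev a1 (U1 G)
      exact ⟨rep_AS ξ0 ξ v ρ C hξ hC b1 b2 (hα _) m, rep_AS ξ0 ξ v ρ C hξ hC a1 (U1 G) (hα _) m⟩)
    (fun m x => by
      have a1 : hel ((some x.2, true) : ET k) * x.1 = gb x.2 * x.1 := rfl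
      obtain ⟨b1, b2⟩ := rev a1 (U2 x.2 x.1)
      exact ⟨rep_AS ξ0 ξ v ρ C hξ hC b1 b2 (hβ _ _) m,
        rep_AS ξ0 ξ v ρ C hξ hC a1 (U2 x.2 x.1) (hβ _ _) m⟩) m
  have fin : ∀ (x : Γ × Fin k) (i j : Fin 4), i ≠ j → cv x i = vx (hel t) → cv x j = vx 1 →
      Repd ξ v ρ C m (2 * r0) fun Q => (E ξ v Q).coeff (l1 * hel t * l2) := by
    intro x i j hij hi hj
    have e1 : vx (l1 * hel t) = cv x i := by rw [hi, vx_mul_iff]; exact hl1
    have e2 : vx l2⁻¹ = cv x j := by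
      rw [hj, ← mul_one l2⁻¹, vx_mul_iff]; exact Λ0.inv_mem hl2
    have := key2 x i j
    rw [← e1, ← e2] at this
    simpa using extract ξ v ρ C (data ξ0 ξ v ρ C h0 hξ hρ).L_Li (data ξ0 ξ v ρ C h0 hξ hρ).Li_L
      (by rw [e1, e2]; exact fun h => hij (cv_inj x h)) this
  rcases t with ⟨_ | j, _ | _⟩
  · exact fin (gu⁻¹, ⟨0, hk⟩) 0 1 (by decide) rfl (by simp [cv])
  · exact fin (1, ⟨0, hk⟩) 1 0 (by decide) (by simp [cv, hel]) rfl
  · exact fin ((gb j)⁻¹, j) 0 3 (by decide) rfl (by simp [cv])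
  · exact fin (1, j) 3 0 (by decide) (by simp [cv, hel]) rfl

end Crest.Agent.R89
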