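import Crest.Agent.R89.Basic

/-! Row 89: upper bound for the microstates entropy by a triangular change of variables. -/

set_option autoImplicit false

namespace Crest.Agent.R89

open Crest.OpAlg MeasureTheory Filter Topology Finset
open scoped ENNReal

namespace Up

/-- A triangular shear preserves Lebesgue measure. -/
theorem shear {ι : Type} [Fintype ι] (J : ι → Prop) (q : (ι → ℝ) → ι → ℝ) (hq : Measurable q)
    (h0 : ∀ a i, J i → q a i = 0) (h1 : ∀ a a', (∀ i, J i → a i = a' i) → q a = q a') :
    MeasurePreserving (fun a => a - q a) := by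
  classical
  let e := MeasurableEquiv.piEquivPiSubtypeProd (fun _ : ι => ℝ) J
  have he : MeasurePreserving e := volume_preserving_piEquivPiSubtypeProd _ J
  let q' : ({i // J i} → ℝ) → ({i // ¬ J i} → ℝ) := fun x i => q (e.symm (x, 0)) i
  have hq' : Measurable q' := measurable_pi_lambda _ fun i =>
    (measurable_pi_apply _).comp (hq.comp (e.symm.measurable.comp
      (measurable_id.prodMk measurable_const)))
  have hs : MeasurePreserving
      (fun p : ({i // J i} → ℝ) × ({i // ¬ J i} → ℝ) => (id p.1, p.2 - q' p.1))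
      (volume.prod volume) (volume.prod volume) :=
    (MeasurePreserving.id _).skew_product (g := fun x y => y - q' x)
      (measurable_snd.sub (hq'.comp measurable_fst))
      (ae_of_all _ fun x => (measurePreserving_sub_right volume (q' x)).map_eq)
  have := (he.symm e).comp (hs.comp he)
  convert this using 1
  funext a
  have hqa : q (e.symm ((e a).1, 0)) = q a := h1 _ _ fun i hi => by
    simp [e, MeasurableEquiv.piEquivPiSubtypeProd, hi]
  funext i
  by_cases hi : J i
  · simp [e, MeasurableEquiv.piEquivPiSubtypeProd, hi, h0 a i hi]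
  · simp only [Function.comp_apply, id, q', hqa]
    simp [e, MeasurableEquiv.piEquivPiSubtypeProd, hi]

/-- Volume of a sublevel set of a diagonal quadratic form, by comparison with a Gaussian. -/
theorem vol_le {ι : Type} [Fintype ι] (b : ι → ℝ) (hb : ∀ i, 0 < b i) (L : ℝ) :
    volume {x : ι → ℝ | ∑ i, b i * x i ^ 2 ≤ L} ≤
      ENNReal.ofReal (Real.exp L * ∏ i, √(Real.pi / b i)) := by
  have hi : Integrable (fun x : ι → ℝ => Real.exp L * ∏ i, Real.exp (-b i * x i ^ 2)) :=
    (Integrable.fintype_prod (f := fun i (t : ℝ) => Real.exp (-b i * t ^ 2))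
      fun i => integrable_exp_neg_mul_sq (hb i)).const_mul _
  have h1 := mul_meas_ge_le_lintegral₀ (μ := volume) hi.aemeasurable.ennreal_ofReal 1
  rw [one_mul, ← ofReal_integral_eq_lintegral_ofReal hi (ae_of_all _ fun x => by positivity),
    integral_const_mul, integral_fintype_prod_volume_eq_prod
      (fun i (t : ℝ) => Real.exp (-b i * t ^ 2))] at h1
  simp only [integral_gaussian] at h1
  refine le_trans (measure_mono fun x hx => ?_) h1
  rw [Set.mem_ofPred_eq, ENNReal.one_le_ofReal, ← Real.exp_sum, ← Real.exp_add,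
    Real.one_le_exp_iff]
  simp only [neg_mul, sum_neg_distrib]
  exact sub_nonneg.2 hx

variable {n d : ℕ}

/-- Real coordinates of a Hermitian matrix. -/
noncomputable def co (Z : Matrix (Fin d) (Fin d) ℂ) (p : Fin d × Fin d) : ℝ :=
  if p.1 = p.2 then (Z p.1 p.1).re
  else if p.1 < p.2 then √2 * (Z p.1 p.2).re else √2 * (Z p.2 p.1).im

theorem co_sub (Z W : Matrix (Fin d) (Fin d) ℂ) (p : Fin d × Fin d) :
    co (Z - W) p = co Z p - co W p := by
  unfold co
  split_ifs <;> simp [mul_sub]

theorem co_zero (p : Fin d × Fin d) : co (0 : Matrix (Fin d) (Fin d) ℂ) p = 0 := by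
  simp [co]

theorem continuous_co (p : Fin d × Fin d) :
    Continuous fun Z : Matrix (Fin d) (Fin d) ℂ => co Z p := by
  unfold co
  split_ifs <;> fun_prop

theorem co_herm (a : EuclideanSpace ℝ (Fin d × Fin d)) (p : Fin d × Fin d) :
    co (hermitianOfCoords a) p = a p := by
  obtain ⟨i, j⟩ := p
  have h2 : √2 ≠ 0 := by positivity
  unfold co hermitianOfCoords
  by_cases h : i = j
  · subst h; simp
  · by_cases h' : i < j
    · simp only [h, h', if_true, if_false, Complex.div_ofReal_re]
      simp
      field_simp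
    · have h3 : j < i := lt_of_le_of_ne (not_lt.1 h') (Ne.symm h)
      simp only [h, h', h3, Ne.symm h, if_true, if_false, Complex.div_ofReal_im]
      simp
      field_simp

theorem herm_sa (a : EuclideanSpace ℝ (Fin d × Fin d)) : IsSelfAdjoint (hermitianOfCoords a) := by
  ext i j
  rw [Matrix.star_apply]
  unfold hermitianOfCoords
  rcases lt_trichotomy i j with h | h | h
  · simp [h, h.ne, h.ne', h.not_gt]
  · subst h; simp
  · simp [h, h.ne, h.ne', h.not_gt, sub_eq_add_neg]

theorem sum_co_sq {Z : Matrix (Fin d) (Fin d) ℂ} (hZ : IsSelfAdjoint Z) :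
    ∑ p, co Z p ^ 2 = (Z * Z).trace.re := by
  have hc : ∀ i j, Z j i = star (Z i j) := fun i j => by
    conv_lhs => rw [← hZ.star_eq, Matrix.star_apply]
  have h1 : (Z * Z).trace.re = ∑ p : Fin d × Fin d, ((Z p.1 p.2).re ^ 2 + (Z p.1 p.2).im ^ 2) := by
    rw [Fintype.sum_prod_type]
    simp only [Matrix.trace, Matrix.diag, Matrix.mul_apply, Complex.re_sum]
    refine sum_congr rfl fun i _ => sum_congr rfl fun j _ => ?_
    rw [hc i j]
    simp [sq]
  have h2 : ∑ p, co Z p ^ 2 = ∑ p : Fin d × Fin d, co Z p.swap ^ 2 :=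
    ((Equiv.prodComm _ _).sum_comp fun p => co Z p ^ 2).symm
  have h3 : ∀ p : Fin d × Fin d, co Z p ^ 2 + co Z p.swap ^ 2 =
      2 * ((Z p.1 p.2).re ^ 2 + (Z p.1 p.2).im ^ 2) := by
    rintro ⟨i, j⟩
    have hs : √2 ^ 2 = 2 := Real.sq_sqrt (by norm_num)
    unfold co
    rcases lt_trichotomy i j with h | h | h
    · simp only [Prod.swap, h, h.ne, h.ne', h.not_gt, if_true, if_false, mul_pow, hs]; ring
    · subst h
      have : (Z i i).im = 0 := by
        have := congrArg Complex.im (hc i i)
        simp only [Complex.star_def, Complex.conj_im] at this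
        linarith
      simp only [Prod.swap, if_true, this]; ring
    · simp only [Prod.swap, h, h.ne, h.ne', h.not_gt, if_true, if_false, mul_pow, hs, hc j i]
      simp
      ring
  have h4 := sum_congr rfl fun p (_ : p ∈ (univ : Finset (Fin d × Fin d))) => h3 p
  rw [sum_add_distrib, ← h2, ← mul_sum, ← h1] at h4
  linarith

theorem wordEval_congr {B : Type*} [Ring B] {M M' : Fin n → B} (w : FreeMonoid (Fin n))
    (h : ∀ i ∈ FreeMonoid.toList w, M i = M' i) : wordEval M w = wordEval M' w := by
  simp only [wordEval, FreeMonoid.lift_apply]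
  rw [List.map_congr_left h]

theorem continuous_herm (i j : Fin d) (l : Fin n) :
    Continuous fun x : Fin n × (Fin d × Fin d) → ℝ => matrixTuple (WithLp.toLp 2 x) l i j := by
  unfold matrixTuple hermitianOfCoords
  dsimp only
  split_ifs <;> fun_prop

theorem continuous_poly (P : NCPoly n) :
    Continuous fun x : Fin n × (Fin d × Fin d) → ℝ =>
      polyEval (matrixTuple (WithLp.toLp 2 x)) P := by
  simp only [polyEval_eq_sum]
  refine continuous_finsetSum _ fun w _ => Continuous.fun_const_smul ?_ _
  simp only [wordEval, FreeMonoid.lift_apply]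
  exact continuous_list_prod _ fun l _ => continuous_matrix fun i j => continuous_herm i j l

/-- Approximate moments give approximate traces of polynomials. -/
theorem poly_close {A : Type*} [Ring A] [Algebra ℂ A] (τ : A →ₗ[ℂ] ℂ) (X : Fin n → A)
    (P : NCPoly n) (M : Fin n → Matrix (Fin d) (Fin d) ℂ) (ε : ℝ)
    (h : ∀ w ∈ P.coeff.support, ‖matrixMoment M w - τ (wordEval X w)‖ < ε) :
    ‖(d : ℂ)⁻¹ * (polyEval M P).trace - τ (polyEval X P)‖ ≤
      (∑ w ∈ P.coeff.support, ‖P.coeff w‖) * ε := by
  rw [polyEval_eq_sum, polyEval_eq_sum, Matrix.trace_sum, map_sum, mul_sum, ← sum_sub_distrib,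
    sum_mul]
  refine (norm_sum_le _ _).trans (sum_le_sum fun w hw => ?_)
  have : (d : ℂ)⁻¹ * (P.coeff w • wordEval M w).trace - τ (P.coeff w • wordEval X w) =
      P.coeff w * (matrixMoment M w - τ (wordEval X w)) := by
    rw [Matrix.trace_smul, map_smul, matrixMoment, smul_eq_mul, smul_eq_mul]; ring
  rw [this, norm_mul]
  exact mul_le_mul_of_nonneg_left (h w hw).le (norm_nonneg _)

theorem polyEval_sq {B : Type*} [Ring B] [Algebra ℂ B] (Y : Fin n → B) (c : Fin n) (P : NCPoly n) :
    polyEval Y ((MonoidAlgebra.single (FreeMonoid.of c) 1 - P) *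
      (MonoidAlgebra.single (FreeMonoid.of c) 1 - P)) =
      (Y c - polyEval Y P) * (Y c - polyEval Y P) := by
  simp [polyEval]

end Up

open Up in
theorem upperStmt : UpperStmt := by
  intro A _ τ n X J p r hp hJ hw hr
  classical
  let Q : Fin n → NCPoly n := fun c => (MonoidAlgebra.single (FreeMonoid.of c) 1 - p c) *
    (MonoidAlgebra.single (FreeMonoid.of c) 1 - p c)
  let m : ℕ := univ.sup fun c => (Q c).coeff.support.sup fun w => (FreeMonoid.toList w).length
  have hm : ∀ c, ∀ w ∈ (Q c).coeff.support, (FreeMonoid.toList w).length ≤ m := fun c w hw =>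
    (le_sup (f := fun w => (FreeMonoid.toList w).length) hw).trans
      (le_sup (f := fun c => (Q c).coeff.support.sup fun w => (FreeMonoid.toList w).length)
        (mem_univ c))
  obtain ⟨ε, hε, hε0⟩ : ∃ ε : ℝ, (∀ c, (τ (polyEval X (Q c))).re +
      (∑ w ∈ (Q c).coeff.support, ‖(Q c).coeff w‖) * ε < r c) ∧ 0 < ε := by
    refine (Filter.Eventually.and ?_ self_mem_nhdsWithin :
      ∀ᶠ ε in 𝓝[>] (0 : ℝ), _ ∧ ε ∈ Set.Ioi 0).exists
    refine Filter.Eventually.filter_mono nhdsWithin_le_nhds (eventually_all.2 fun c => ?_)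
    refine ContinuousAt.eventually_lt (by fun_prop) continuousAt_const ?_
    simp only [mul_zero, add_zero, Q, polyEval_sq]
    exact (hr c).2
  refine iSup₂_le fun R _ => ?_
  refine (iInf_le _ m).trans ((iInf₂_le ε hε0).trans (limsup_le_of_le (h := ?_)))
  filter_upwards [eventually_ge_atTop 1] with d hd
  have hd0 : (0 : ℝ) < d := by exact_mod_cast hd
  let q : (Fin n × (Fin d × Fin d) → ℝ) → Fin n × (Fin d × Fin d) → ℝ := fun x i =>
    co (polyEval (matrixTuple (WithLp.toLp 2 x)) (p i.1)) i.2
  have hq : MeasurePreserving (fun a => a - q a) := by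
    refine shear (fun i => i.1 ∈ J) q (measurable_pi_lambda _ fun i =>
      ((continuous_co i.2).comp (continuous_poly (p i.1))).measurable) (fun a i hi => ?_)
      fun a a' h => ?_
    · simp only [q, hJ i.1 hi, polyEval, map_zero, co_zero]
    · funext i
      simp only [q, polyEval_eq_sum]
      congr 1
      refine sum_congr rfl fun w hw' => ?_
      rw [wordEval_congr w fun l hl => ?_]
      unfold matrixTuple
      congr 2
      funext s
      exact h (l, s) (hw i.1 w hw' l hl)
  let b : Fin n × (Fin d × Fin d) → ℝ := fun i => d / (2 * r i.1)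
  have hb : ∀ i, 0 < b i := fun i => div_pos hd0 (mul_pos two_pos (hr i.1).1)
  have hsub : microstates τ X R m d ε ⊆ WithLp.ofLp ⁻¹' ((fun a => a - q a) ⁻¹'
      {x | ∑ i, b i * x i ^ 2 ≤ n * (d : ℝ) ^ 2 / 2}) := by
    intro a ha
    simp only [Set.mem_preimage, Set.mem_ofPred_eq, Pi.sub_apply]
    rw [Fintype.sum_prod_type]
    have : ∀ c, ∑ s, b (c, s) * (a.ofLp (c, s) - q a.ofLp (c, s)) ^ 2 ≤ (d : ℝ) ^ 2 / 2 := by
      intro c
      have hM : ∀ l, IsSelfAdjoint (matrixTuple a l) := fun l => herm_sa _
      have hZ : IsSelfAdjoint (matrixTuple a c - polyEval (matrixTuple a) (p c)) :=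
        (hM c).sub (by rw [IsSelfAdjoint, ← polyEval_polyStar hM, hp c])
      have e1 : ∀ s, a.ofLp (c, s) - q a.ofLp (c, s) =
          co (matrixTuple a c - polyEval (matrixTuple a) (p c)) s := fun s => by
        rw [co_sub, matrixTuple, co_herm]
      have e2 := poly_close τ X (Q c) (matrixTuple a) ε fun w hw => ha.2 w (hm c w hw)
      have e3 := (Complex.re_le_norm _).trans e2
      have e4 := hε c
      rw [Complex.sub_re, ← Complex.ofReal_natCast, ← Complex.ofReal_inv, Complex.re_ofReal_mul]
        at e3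
      simp only [Q, polyEval_sq] at e3 e4
      rw [← sum_co_sq hZ] at e3
      simp only [e1, b, ← mul_sum]
      have e5 : (d : ℝ)⁻¹ * ∑ s, co (matrixTuple a c - polyEval (matrixTuple a) (p c)) s ^ 2 ≤
          r c := by linarith
      rw [inv_mul_le_iff₀ hd0] at e5
      have e6 := (hr c).1
      calc _ ≤ d / (2 * r c) * (d * r c) := by gcongr
        _ = _ := by field_simp
    refine (sum_le_sum fun c _ => this c).trans (le_of_eq ?_)
    simp only [sum_const, card_univ, Fintype.card_fin, nsmul_eq_mul]; ring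
  have hv : volume (microstates τ X R m d ε) ≤
      ENNReal.ofReal (Real.exp (n * (d : ℝ) ^ 2 / 2) * ∏ i, √(Real.pi / b i)) :=
    (measure_mono hsub).trans (((PiLp.volume_preserving_ofLp _).measure_preimage_le _).trans
      ((hq.measure_preimage_le _).trans (vol_le b hb _)))
  have hpos : ∀ i, 0 < √(Real.pi / b i) := fun i => Real.sqrt_pos.2 (div_pos Real.pi_pos (hb i))
  have hl := ENNReal.log_monotone hv
  rw [ENNReal.log_ofReal_of_pos (mul_pos (Real.exp_pos _) (prod_pos fun i _ => hpos i))] at hl
  refine (add_le_add_left (mul_le_mul_of_nonneg_left hl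
    (EReal.coe_nonneg.2 (by positivity))) _).trans ?_
  rw [← EReal.coe_mul, ← EReal.coe_add, EReal.coe_le_coe_iff,
    Real.log_mul (Real.exp_pos _).ne' (prod_pos fun i _ => hpos i).ne', Real.log_exp,
    Real.log_prod fun i _ => (hpos i).ne', Fintype.sum_prod_type]
  have e : ∀ c (s : Fin d × Fin d), Real.log √(Real.pi / b (c, s)) =
      (Real.log (2 * Real.pi) + Real.log (r c) - Real.log d) / 2 := fun c s => by
    have h1 := (hr c).1
    have h2 := Real.pi_pos
    rw [Real.log_sqrt (div_pos Real.pi_pos (hb _)).le, ← Real.log_mul (by positivity) h1.ne',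
      ← Real.log_div (by positivity) hd0.ne']
    congr 2
    simp only [b]
    field_simp
  simp only [e, sum_const, card_univ, Fintype.card_prod, Fintype.card_fin, nsmul_eq_mul]
  rw [Real.log_mul (by have := Real.pi_pos; positivity) (Real.exp_pos 1).ne', Real.log_exp,
    ← mul_sum, ← sum_div, sum_sub_distrib, sum_add_distrib]
  simp only [sum_const, card_univ, Fintype.card_fin, nsmul_eq_mul]
  refine le_of_eq ?_
  push_cast
  field_simp
  ring

end Crest.Agent.R89
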