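import Crest.Agent.R89.Basic

/-! Row 89: representable functionals are bounded in the trace 2-norm. -/

set_option autoImplicit false
set_option linter.unusedSectionVars false

namespace Crest.Agent.R89

open Crest.OpAlg Filter Topology
open scoped Classical ComplexOrder

namespace W

section Alg
variable {n : ℕ} (ξ : Fin n → CG) (v : Fin n → ℝ)

/-- appending a tail of factors to a functional -/
noncomputable def T : List (Fin n × Γ) → (List (Let n) → ℂ) → List (Let n) → ℂ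
  | [], F => F
  | p :: r, F => split (Sum.inr p.1) F (φ ξ v p.2 r)

theorem φ_eq (g : Γ) (r : List (Fin n × Γ)) : φ ξ v g r = T ξ v r (Lc ξ v g) := by
  cases r <;> rfl

theorem T_split (r : List (Fin n × Γ)) (c : Let n) (F G : List (Let n) → ℂ) :
    T ξ v r (split c F G) = split c F (T ξ v r G) := by
  cases r with
  | nil => rfl
  | cons p r => funext Q; exact split_assoc _ _ _ _ _ _

theorem T_φ (r : List (Fin n × Γ)) (g : Γ) (r0 : List (Fin n × Γ)) :
    T ξ v r (φ ξ v g r0) = φ ξ v g (r0 ++ r) := by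
  induction r0 generalizing g with
  | nil => exact (φ_eq ξ v g r).symm
  | cons p r0 ih => rw [List.cons_append, φ, φ, T_split, ih]

theorem T_zero (r : List (Fin n × Γ)) (Q : List (Let n)) : T ξ v r (fun _ => 0) Q = 0 := by
  cases r with
  | nil => rfl
  | cons p r => exact split_zero_left _ _ _

theorem T_add (r : List (Fin n × Γ)) (F G : List (Let n) → ℂ) (Q : List (Let n)) :
    T ξ v r (fun P => F P + G P) Q = T ξ v r F Q + T ξ v r G Q := by
  cases r with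
  | nil => rfl
  | cons p r => exact split_add_left _ _ _ _ _

theorem T_smul (r : List (Fin n × Γ)) (a : ℂ) (F : List (Let n) → ℂ) (Q : List (Let n)) :
    T ξ v r (fun P => a * F P) Q = a * T ξ v r F Q := by
  cases r with
  | nil => rfl
  | cons p r => exact split_smul_left _ _ _ _ _

theorem T_congr (r : List (Fin n × Γ)) {F G : List (Let n) → ℂ} (Q : List (Let n))
    (h : ∀ P, P.length ≤ Q.length → F P = G P) : T ξ v r F Q = T ξ v r G Q := by
  cases r with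
  | nil => exact h Q le_rfl
  | cons p r => exact split_congr _ _ (fun P hP => h P hP.le) fun _ _ => rfl

theorem T_sum (r : List (Fin n × Γ)) (l : List (ℂ × Γ × List (Fin n × Γ))) (Q : List (Let n)) :
    T ξ v r (fun P => (l.map fun x => x.1 * φ ξ v x.2.1 x.2.2 P).sum) Q =
      (l.map fun x => x.1 * φ ξ v x.2.1 (x.2.2 ++ r) Q).sum := by
  induction l with
  | nil => exact T_zero ξ v r Q
  | cons x l ih => simp only [List.map_cons, List.sum_cons, T_add, T_smul, ih, T_φ]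

/-- the boundary term -/
noncomputable def hd (l : Let n) : List (Fin n × Γ) → List (Let n) → ℂ
  | [], _ => 0
  | p :: r, Q => if l = Sum.inr p.1 then φ ξ v p.2 r Q else 0

theorem T_cons (r : List (Fin n × Γ)) (F : List (Let n) → ℂ) (l : Let n) (Q : List (Let n)) :
    T ξ v r F (l :: Q) = F [] * hd ξ v l r Q + T ξ v r (fun P => F (l :: P)) Q := by
  cases r with
  | nil => simp [T, hd]
  | cons p r => simp [T, hd, split_cons]

theorem φ_of_not {g : Γ} (hg : g ∉ Λ0) (r : List (Fin n × Γ)) : φ ξ v g r = fun _ => 0 := by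
  funext Q
  rw [φ_eq, show Lc ξ v g = fun _ => 0 from funext fun _ => if_neg hg, T_zero]

theorem φ_shift (g : Λ0) (r : List (Fin n × Γ)) (Q : List (Let n)) :
    φ ξ v g r Q = φ ξ v 1 r (Sum.inl g⁻¹ :: Q) := by
  have h0 : hd ξ v (Sum.inl g⁻¹) r Q = 0 := by cases r <;> simp [hd]
  rw [φ_eq, φ_eq, T_cons, h0, mul_zero, zero_add]
  congr 1
  funext P
  simp [Lc, E_inl, Λ0.one_mem]

theorem key {g : Γ} (hg : g ∈ Λ0) (c : Fin n) (r : List (Fin n × Γ)) (Q : List (Let n)) :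
    φ ξ v g r (Sum.inr c :: Q) = Lc ξ v g [] * hd ξ v (Sum.inr c) r Q +
      (T ξ v r (fun P => (ξ c * E ξ v P).coeff g) Q + v c * φ ξ v 1 ((c, g) :: r) Q) := by
  rw [φ_eq, T_cons, φ, φ_eq, ← T_split, ← T_smul, ← T_add]
  congr 2
  funext P
  have h1 : ∀ g ∈ Λ0, Lc ξ v g = fun P => (E ξ v P).coeff g := fun g hg => funext fun _ => if_pos hg
  rw [h1 g hg, h1 1 Λ0.one_mem]
  have := map_split ((Finsupp.lapply g : (Γ →₀ ℂ) →ₗ[ℂ] ℂ) ∘ₗ
    (MonoidAlgebra.coeffLinearEquiv ℂ : CG ≃ₗ[ℂ] _).toLinearMap) (Sum.inr c)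
    (fun P => (E ξ v P).coeff 1) (E ξ v) P
  simp only [E_inr, MonoidAlgebra.coeff_add, MonoidAlgebra.coeff_smul, Finsupp.add_apply,
    Finsupp.smul_apply, smul_eq_mul]
  exact congrArg (fun z => _ + _ * z) this

end Alg

section An
variable {A : Type} [CStarAlgebra A] (sp : Sp A) {n : ℕ} (Y : Fin n → A) {ξ : Fin n → CG}
  {v : Fin n → ℝ}

/-- letters as letters of the big alphabet -/
def emb : Let n → Γ ⊕ Fin n := Sum.map (↑) id

theorem emb_inj : Function.Injective (emb (n := n)) :=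
  Sum.map_injective.2 ⟨Subtype.val_injective, Function.injective_id⟩

/-- evaluation of a word -/
def ev (Q : List (Let n)) : A := sp.ev Y (Q.map emb)

theorem ev_inl (g : Λ0) (Q : List (Let n)) : ev sp Y (Sum.inl g :: Q) = sp.π g * ev sp Y Q :=
  sp.ev_inl _ _ _

theorem ev_inr (c : Fin n) (Q : List (Let n)) : ev sp Y (Sum.inr c :: Q) = Y c * ev sp Y Q :=
  sp.ev_inr _ _ _

variable {sp Y}

theorem sd' (h : sp.SD Y ξ v) (c : Fin n) (x : CG) (Q : List (Γ ⊕ Fin n)) :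
    sp.τ (sp.πA x * ((Y c - sp.πA (ξ c)) * sp.ev Y Q)) = v c * split (Sum.inr c)
      (fun P => sp.τ (sp.ev Y P)) (fun P => sp.τ (sp.πA x * sp.ev Y P)) Q := by
  induction x using MonoidAlgebra.induction_linear with
  | zero => simp
  | add x y hx hy => simp only [map_add, add_mul, hx, hy, split_add_right, mul_add]
  | single g a =>
    have := h c (Q ++ [Sum.inl g])
    rw [split_append, split_of_not_mem _ _ _ (Q := [Sum.inl g]) (by simp), add_zero] at this
    simp only [sp.ev_append, sp.ev_inl, sp.ev_nil, mul_one, ← mul_assoc, sp.τ_comm _ (sp.π g)]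
      at this
    simp only [sp.πA_single, smul_mul_assoc, map_smul, ← mul_assoc, this,
      smul_eq_mul]
    have e := split_smul_right (Sum.inr c) a (fun P => sp.τ (sp.ev Y P))
      (fun P => sp.τ (sp.π g * sp.ev Y P)) Q
    simp only [smul_eq_mul] at e
    rw [e]; ring

theorem τ_ev (h : sp.SD Y ξ v) (Q : List (Let n)) (x : CG) :
    sp.τ (sp.πA x * ev sp Y Q) = (x * E ξ v Q).coeff 1 := by
  induction hQ : Q.length using Nat.strong_induction_on generalizing Q x with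
  | _ m ih =>
  subst hQ
  rcases Q with _ | ⟨g | c, Q⟩
  · simp [ev, E_nil, sp.τ_πA]
  · rw [ev_inl, E_inl, ← mul_assoc x, ← ih _ (by simp) Q _ rfl, map_mul sp.πA, sp.πA_single, one_smul,
      mul_assoc]
  · have e : sp.πA x * ev sp Y (Sum.inr c :: Q) = sp.πA (x * ξ c) * ev sp Y Q +
        sp.πA x * ((Y c - sp.πA (ξ c)) * sp.ev Y (Q.map emb)) := by
      rw [ev_inr, map_mul, ev]; noncomm_ring
    have h2 := map_split ((Finsupp.lapply 1 : (Γ →₀ ℂ) →ₗ[ℂ] ℂ) ∘ₗ
      (MonoidAlgebra.coeffLinearEquiv ℂ : CG ≃ₗ[ℂ] _).toLinearMap ∘ₗ LinearMap.mulLeft ℂ x)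
      (Sum.inr c) (fun P => (E ξ v P).coeff 1) (E ξ v) Q
    rw [e, map_add, ih _ (by simp) Q _ rfl, sd' h, E_inr, mul_add, mul_smul_comm, mul_assoc,
      show (Sum.inr c : Γ ⊕ Fin n) = emb (Sum.inr c) from rfl, split_map _ emb_inj]
    simp only [MonoidAlgebra.coeff_add, MonoidAlgebra.coeff_smul, Finsupp.add_apply,
      Finsupp.smul_apply, smul_eq_mul]
    refine congrArg (fun z => _ + _ * z) (Eq.trans (split_congr _ _ (fun P hP => ?_)
      fun P hP => ?_) h2.symm)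
    · simpa [ev] using ih _ (by simp; omega) P 1 rfl
    · exact ih _ (by simp; omega) P x rfl

theorem τ_π_ev (h : sp.SD Y ξ v) (Q : List (Let n)) (g : Γ) :
    sp.τ (sp.π g⁻¹ * ev sp Y Q) = (E ξ v Q).coeff g := by
  simpa using τ_ev h Q (MonoidAlgebra.single g⁻¹ 1)

variable (Y) (ρ : Fin n → ℝ) (C : Set (Fin n))

/-- norm of a letter -/
noncomputable def r0 : Let n → ℝ := Sum.elim (fun _ => 1) fun c => ‖Y c‖

/-- enlarged norm of a letter -/
noncomputable def r1 : Let n → ℝ :=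
  Sum.elim (fun _ => 1) fun c => ‖Y c‖ + if c ∈ C then 1 / ρ c else 0

variable {Y ρ C}

theorem r0_nonneg (l : Let n) : 0 ≤ r0 Y l := by cases l <;> simp [r0]

theorem r0_le (hρ : ∀ c ∈ C, 0 < ρ c) (l : Let n) : r0 Y l ≤ r1 Y ρ C l := by
  rcases l with g | c
  · exact le_rfl
  · simp only [r0, r1, Sum.elim_inr, le_add_iff_nonneg_right]
    split_ifs with h
    · exact (one_div_pos.2 (hρ c h)).le
    · exact le_rfl

theorem R0_nonneg (Q : List (Let n)) : 0 ≤ (Q.map (r0 Y)).prod :=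
  List.prod_nonneg (by simp only [List.mem_map]; rintro _ ⟨l, -, rfl⟩; exact r0_nonneg l)

theorem R0_le (hρ : ∀ c ∈ C, 0 < ρ c) (Q : List (Let n)) :
    (Q.map (r0 Y)).prod ≤ (Q.map (r1 Y ρ C)).prod := by
  induction Q with
  | nil => exact le_rfl
  | cons l Q ih =>
    simp only [List.map_cons, List.prod_cons]
    exact mul_le_mul (r0_le hρ l) ih (R0_nonneg Q) ((r0_nonneg l).trans (r0_le hρ l))

theorem norm_ev_cons (W : A) (l : Let n) :
    ∃ W' : A, ‖W'‖ ≤ ‖W‖ * r0 Y l ∧ ∀ Q, W * ev sp Y (l :: Q) = W' * ev sp Y Q := by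
  rcases l with g | c
  · exact ⟨W * sp.π g, (norm_mul_le _ _).trans_eq (by rw [sp.norm_π]; rfl),
      fun Q => by rw [ev_inl, mul_assoc]⟩
  · exact ⟨W * Y c, norm_mul_le _ _, fun Q => by rw [ev_inr, mul_assoc]⟩

theorem norm_ev (Q : List (Let n)) (W : A) : ‖W * ev sp Y Q‖ ≤ ‖W‖ * (Q.map (r0 Y)).prod := by
  induction Q generalizing W with
  | nil => simp [ev]
  | cons l Q ih =>
    obtain ⟨W', h1, h2⟩ := norm_ev_cons (sp := sp) (Y := Y) W l
    rw [h2, List.map_cons, List.prod_cons, ← mul_assoc]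
    exact (ih W').trans (mul_le_mul_of_nonneg_right h1 (R0_nonneg Q))

theorem norm_split (hρ : ∀ c ∈ C, 0 < ρ c) {c : Fin n} (hc : c ∈ C) {G : List (Let n) → ℂ} {K : ℝ}
    (hK : 0 ≤ K) (hG : ∀ P, ‖G P‖ ≤ K * (P.map (r1 Y ρ C)).prod) (Q : List (Let n))
    (F : List (Let n) → ℂ) (a : ℝ) (ha : 0 ≤ a) (hF : ∀ P, ‖F P‖ ≤ a * (P.map (r0 Y)).prod) :
    ‖split (Sum.inr c) F G Q‖ ≤
      a * (ρ c * K) * ((Q.map (r1 Y ρ C)).prod - (Q.map (r0 Y)).prod) := by
  induction Q generalizing F a with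
  | nil => simp
  | cons l Q ih =>
    have h1 := ih (fun P => F (l :: P)) (a * r0 Y l) (mul_nonneg ha (r0_nonneg l))
      fun P => by simpa [mul_assoc] using hF (l :: P)
    have hc' := hρ c hc
    have h3 := (R0_nonneg Q).trans (R0_le (Y := Y) hρ Q)
    have h2 : ∀ [Decidable (l = Sum.inr c)], ‖if l = Sum.inr c then F [] • G Q else 0‖ ≤
        a * (ρ c * K) * ((r1 Y ρ C l - r0 Y l) * (Q.map (r1 Y ρ C)).prod) := by
      intro _
      split_ifs with hl
      · subst hl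
        have h4 : ‖F []‖ ≤ a := by simpa using hF []
        rw [norm_smul]
        refine (mul_le_mul h4 (hG Q) (norm_nonneg _) ha).trans_eq ?_
        simp only [r0, r1, Sum.elim_inr, if_pos hc]
        field_simp
        ring
      · have := sub_nonneg.2 (r0_le (Y := Y) hρ l)
        rw [norm_zero]
        positivity
    rw [split_cons, List.map_cons, List.prod_cons, List.map_cons, List.prod_cons]
    refine (norm_add_le _ _).trans ((add_le_add (@h2 (Classical.propDecidable _)) h1).trans_eq ?_)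
    ring

theorem wt_nonneg (hρ : ∀ c ∈ C, 0 < ρ c) {r : List (Fin n × Γ)} (hr : ∀ p ∈ r, p.1 ∈ C) :
    0 ≤ wt ρ r :=
  List.prod_nonneg (by simp only [List.mem_map]; rintro _ ⟨p, hp, rfl⟩; exact (hρ _ (hr p hp)).le)

theorem wt_cons (p : Fin n × Γ) (r : List (Fin n × Γ)) : wt ρ (p :: r) = ρ p.1 * wt ρ r := by
  simp [wt]

theorem wt_append (r r' : List (Fin n × Γ)) : wt ρ (r ++ r') = wt ρ r * wt ρ r' := by
  simp [wt]

theorem exists_Lc (h : sp.SD Y ξ v) (g : Γ) :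
    ∃ W : A, ‖W‖ ≤ 1 ∧ ∀ Q, Lc ξ v g Q = sp.τ (W * ev sp Y Q) := by
  by_cases hg : g ∈ Λ0
  · exact ⟨sp.π g⁻¹, (sp.norm_π _).le, fun Q => by rw [τ_π_ev h, Lc, if_pos hg]⟩
  · exact ⟨0, by simp, fun Q => by simp [Lc, hg]⟩

theorem norm_φ (h : sp.SD Y ξ v) (hρ : ∀ c ∈ C, 0 < ρ c) {r : List (Fin n × Γ)}
    (hr : ∀ p ∈ r, p.1 ∈ C) (g : Γ) (Q : List (Let n)) :
    ‖φ ξ v g r Q‖ ≤ wt ρ r * (Q.map (r1 Y ρ C)).prod := by
  have hL : ∀ g Q, ‖Lc ξ v g Q‖ ≤ 1 * (Q.map (r0 Y)).prod := fun g Q => by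
    obtain ⟨W, h1, h2⟩ := exists_Lc h g
    rw [h2]
    exact (sp.norm_τ_le _).trans ((norm_ev Q W).trans
      (mul_le_mul_of_nonneg_right h1 (R0_nonneg Q)))
  induction r generalizing g Q with
  | nil => simpa [wt, φ] using (hL g Q).trans (by simpa using R0_le hρ Q)
  | cons p r ih =>
    have hr' : ∀ q ∈ r, q.1 ∈ C := fun q hq => hr q (List.mem_cons_of_mem _ hq)
    refine (norm_split hρ (hr p List.mem_cons_self) (wt_nonneg hρ hr') (ih hr' p.2) Q _ 1
      zero_le_one (hL g)).trans ?_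
    rw [one_mul, ← wt_cons]
    exact mul_le_mul_of_nonneg_left (sub_le_self _ (R0_nonneg Q)) (wt_nonneg hρ hr)

variable (sp Y ρ C) in
/-- `F` is approximately `Q ↦ τ (W Q)` on words of length at most `m` -/
def Ap (k : ℝ) (m : ℕ) (a : ℝ) (F : List (Let n) → ℂ) : Prop :=
  ∃ W : A, ‖W‖ ≤ a ∧ ∀ Q : List (Let n), Q.length ≤ m →
    ‖F Q - sp.τ (W * ev sp Y Q)‖ ≤ k * a * (Q.map (r1 Y ρ C)).prod

variable {k a b : ℝ} {m : ℕ} {F G : List (Let n) → ℂ}

theorem Ap.zero : Ap sp Y ρ C k m 0 fun _ => 0 := ⟨0, by simp, fun Q _ => by simp⟩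

theorem Ap.congr (h : Ap sp Y ρ C k m a F) (e : ∀ Q, Q.length ≤ m → G Q = F Q) :
    Ap sp Y ρ C k m a G :=
  h.imp fun _ h => ⟨h.1, fun Q hQ => e Q hQ ▸ h.2 Q hQ⟩

theorem Ap.mono (hρ : ∀ c ∈ C, 0 < ρ c) (hk : 0 ≤ k) (h : Ap sp Y ρ C k m a F) (hab : a ≤ b) :
    Ap sp Y ρ C k m b F :=
  h.imp fun _ h => ⟨h.1.trans hab, fun Q hQ => (h.2 Q hQ).trans
    (mul_le_mul_of_nonneg_right (mul_le_mul_of_nonneg_left hab hk)
      ((R0_nonneg Q).trans (R0_le hρ Q)))⟩

theorem Ap.add (h : Ap sp Y ρ C k m a F) (h' : Ap sp Y ρ C k m b G) :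
    Ap sp Y ρ C k m (a + b) fun Q => F Q + G Q := by
  obtain ⟨W, h1, h2⟩ := h
  obtain ⟨W', h1', h2'⟩ := h'
  refine ⟨W + W', (norm_add_le _ _).trans (add_le_add h1 h1'), fun Q hQ => ?_⟩
  rw [add_mul, map_add, add_sub_add_comm]
  exact (norm_add_le _ _).trans ((add_le_add (h2 Q hQ) (h2' Q hQ)).trans_eq (by ring))

theorem Ap.smul (h : Ap sp Y ρ C k m a F) (z : ℂ) :
    Ap sp Y ρ C k m (‖z‖ * a) fun Q => z * F Q := by
  obtain ⟨W, h1, h2⟩ := h
  refine ⟨z • W, by rw [norm_smul]; gcongr, fun Q hQ => ?_⟩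
  rw [smul_mul_assoc, map_smul, smul_eq_mul, ← mul_sub, norm_mul]
  exact (mul_le_mul_of_nonneg_left (h2 Q hQ) (norm_nonneg _)).trans_eq (by ring)

theorem Ap.cons (hρ : ∀ c ∈ C, 0 < ρ c) (h : Ap sp Y ρ C k (m + 1) a F) (l : Let n) :
    Ap sp Y ρ C k m (a * r1 Y ρ C l) fun Q => F (l :: Q) := by
  obtain ⟨W, h1, h2⟩ := h
  obtain ⟨W', h3, h4⟩ := norm_ev_cons (sp := sp) (Y := Y) W l
  refine ⟨W', h3.trans (mul_le_mul h1 (r0_le hρ l) (r0_nonneg l) ((norm_nonneg _).trans h1)),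
    fun Q hQ => ?_⟩
  rw [← h4]
  exact (h2 _ (by simpa using hQ)).trans_eq (by rw [List.map_cons, List.prod_cons]; ring)

theorem Ap.sum {α : Type} (l : List α) (z : α → ℂ) (a : α → ℝ) (f : α → List (Let n) → ℂ)
    (h : ∀ x ∈ l, Ap sp Y ρ C k m (a x) (f x)) :
    Ap sp Y ρ C k m (l.map fun x => ‖z x‖ * a x).sum fun Q => (l.map fun x => z x * f x Q).sum := by
  induction l with
  | nil => exact Ap.zero
  | cons x l ih =>
    exact ((h x List.mem_cons_self).smul (z x)).add (ih fun y hy => h y (List.mem_cons_of_mem _ hy))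

theorem ap_φ (h : sp.SD Y ξ v) {β : Fin n → ℝ} {κ : ℝ} (h0 : 0 ≤ κ) (h1 : κ < 1)
    (hC : ∀ c ∈ C, 0 < v c ∧ 0 < ρ c ∧ 0 ≤ β c ∧ ‖Y c‖ + 2 / ρ c + β c ≤ κ * (v c * ρ c))
    (hR : ∀ c ∈ C, ∀ g ∈ Λ0, ∀ m, Repd ξ v ρ C m (β c) fun Q => (ξ c * E ξ v Q).coeff g)
    (t : ℕ) (g : Γ) (r : List (Fin n × Γ)) (hr : ∀ p ∈ r, p.1 ∈ C) (m : ℕ) :
    Ap sp Y ρ C (κ ^ t) m (wt ρ r) (φ ξ v g r) := by
  have hρ : ∀ c ∈ C, 0 < ρ c := fun c hc => (hC c hc).2.1
  induction t generalizing g r m with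
  | zero => exact ⟨0, by simpa using wt_nonneg hρ hr, fun Q _ => by simpa using norm_φ h hρ hr g Q⟩
  | succ t ih =>
    have hk : 0 ≤ κ ^ (t + 1) := by positivity
    rcases r with _ | ⟨⟨c, g1⟩, r⟩
    · obtain ⟨W, h2, h3⟩ := exists_Lc h g
      refine ⟨W, h2, fun Q _ => ?_⟩
      have := (R0_nonneg Q).trans (R0_le (Y := Y) hρ Q)
      rw [φ, h3, sub_self, norm_zero, wt]
      simp only [List.map_nil, List.prod_nil]
      positivity
    by_cases hg : g ∈ Λ0
    swap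
    · rw [φ_of_not ξ v hg]
      exact Ap.zero.mono hρ hk (wt_nonneg hρ hr)
    by_cases hg1 : g1 ∈ Λ0
    swap
    · refine (Ap.zero.mono hρ hk (wt_nonneg hρ hr)).congr fun Q _ => ?_
      rw [φ, φ_of_not ξ v hg1, split_zero_right]
    have hr' : ∀ q ∈ r, q.1 ∈ C := fun q hq => hr q (List.mem_cons_of_mem _ hq)
    obtain ⟨hv, hρc, hβ, hle⟩ := hC c (hr _ List.mem_cons_self)
    have hw := wt_nonneg hρ hr'
    have a1 := (ih g1 r hr' (m + 2)).cons hρ (Sum.inr c)
    have a2 : Ap sp Y ρ C (κ ^ t) (m + 1) (wt ρ r / ρ c) (hd ξ v (Sum.inr c) r) := by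
      rcases r with _ | ⟨p, r⟩
      · exact Ap.zero.mono hρ (by positivity) (by positivity)
      · by_cases e : c = p.1
        · rw [wt_cons, ← e, mul_div_cancel_left₀ _ hρc.ne']
          exact (ih p.2 r (fun q hq => hr' q (List.mem_cons_of_mem _ hq)) _).congr
            fun Q _ => if_pos (by rw [e])
        · exact (Ap.zero.mono hρ (by positivity) (by positivity)).congr
            fun Q _ => if_neg (by simpa using e)
    obtain ⟨l, l1, l2, l3⟩ := hR c (hr _ List.mem_cons_self) g1 hg1 (m + 1)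
    have a3 : Ap sp Y ρ C (κ ^ t) (m + 1) (β c * wt ρ r)
        (T ξ v r fun P => (ξ c * E ξ v P).coeff g1) := by
      refine ((Ap.sum l (fun x => x.1) (fun x => wt ρ (x.2.2 ++ r)) (fun x => φ ξ v x.2.1 (x.2.2 ++ r))
        fun x hx => ih _ _ (fun p hp => (List.mem_append.1 hp).elim (l1 x hx p) (hr' p)) _).mono hρ
        (by positivity) ?_).congr fun Q hQ => ?_
      · simp only [wt_append, ← mul_assoc, List.sum_map_mul_right]
        exact mul_le_mul_of_nonneg_right l2 hw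
      · rw [T_congr ξ v r Q fun P hP => l3 P (hP.trans hQ), T_sum]
    have hL : ‖Lc ξ v g1 []‖ ≤ 1 := by
      simpa [wt, φ] using norm_φ h hρ (r := []) (by simp) g1 []
    obtain ⟨W, b1, b2⟩ := ((((a1.add ((a2.smul (-Lc ξ v g1 [])).add (a3.smul (-1)))).smul
      (v c : ℂ)⁻¹).cons hρ (Sum.inl (⟨g, hg⟩ : Λ0)⁻¹)).mono hρ (by positivity)
      (b := κ * wt ρ ((c, g1) :: r)) (by
        simp only [r1, Sum.elim_inl, Sum.elim_inr, if_pos (hr _ List.mem_cons_self), norm_neg,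
          norm_one, norm_inv, Complex.norm_real, Real.norm_eq_abs, abs_of_pos hv, wt_cons, mul_one,
          one_mul]
        rw [inv_mul_le_iff₀ hv]
        have h5 := mul_le_mul_of_nonneg_right hL (show 0 ≤ wt ρ r / ρ c by positivity)
        have h6 := mul_le_mul_of_nonneg_left hle hw
        have e1 : wt ρ r / ρ c = wt ρ r * (1 / ρ c) := by ring
        have e2 : 2 / ρ c = 2 * (1 / ρ c) := by ring
        rw [e1] at h5 ⊢
        rw [e2] at h6
        nlinarith)).congr (G := φ ξ v g ((c, g1) :: r)) fun Q _ => by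
          have : (v c : ℂ) ≠ 0 := by exact_mod_cast hv.ne'
          rw [φ_shift ξ v ⟨g, hg⟩, key ξ v hg1]
          field_simp
          ring
    exact ⟨W, b1.trans (mul_le_of_le_one_left (wt_nonneg hρ hr) h1.le),
      fun Q hQ => (b2 Q hQ).trans_eq (by ring)⟩

end An

end W

open W in
theorem wStmt : WStmt := by
  intro A _ sp n Y ξ v ρ β C κ h h0 h1 hC hR γ B hB P
  have hρ : ∀ c ∈ C, 0 < ρ c := fun c hc => (hC c hc).2.1
  let q : FreeMonoid (Fin n) → List (Let n) := fun w => (FreeMonoid.toList w).map Sum.inr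
  have hq : ∀ w, ev sp Y (q w) = wordEval Y w := fun w => by
    rw [← sp.ev_map_inr, ev, List.map_map]; rfl
  have hP : ∀ W : A, sp.τ (W * polyEval Y P) =
      ∑ w ∈ P.coeff.support, P.coeff w * sp.τ (W * ev sp Y (q w)) := fun W => by
    simp only [polyEval_eq_sum, Finset.mul_sum, map_sum, mul_smul_comm, map_smul, hq, smul_eq_mul]
  set K := ∑ w ∈ P.coeff.support, ‖P.coeff w‖ * (B * ((q w).map (r1 Y ρ C)).prod)
  have main : ∀ t : ℕ, ‖sp.τ (sp.π γ⁻¹ * polyEval Y P)‖ ≤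
      B * sp.n2 (polyEval Y P) + κ ^ t * K := by
    intro t
    obtain ⟨l, l1, l2, l3⟩ := hB (P.coeff.support.sup fun w => (q w).length)
    obtain ⟨W, b1, b2⟩ := ((Ap.sum l (fun x => x.1) (fun x => wt ρ x.2.2)
      (fun x => φ ξ v x.2.1 x.2.2) fun x hx => ap_φ h h0 h1 hC hR t _ _ (l1 x hx) _).mono hρ
      (by positivity) l2).congr l3
    have e : sp.τ (sp.π γ⁻¹ * polyEval Y P) = sp.τ (W * polyEval Y P) + ∑ w ∈ P.coeff.support,
        P.coeff w * ((E ξ v (q w)).coeff γ - sp.τ (W * ev sp Y (q w))) := by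
      simp only [hP, τ_π_ev h, ← Finset.sum_add_distrib]
      exact Finset.sum_congr rfl fun _ _ => by ring
    rw [e, Finset.mul_sum]
    refine (norm_add_le _ _).trans (add_le_add ((sp.norm_τ_mul_le' _ _).trans
      (mul_le_mul_of_nonneg_right b1 (sp.n2_nonneg _))) ((norm_sum_le _ _).trans
        (Finset.sum_le_sum fun w hw => ?_)))
    rw [norm_mul]
    exact (mul_le_mul_of_nonneg_left (b2 _ (Finset.le_sup (f := fun w => (q w).length) hw))
      (norm_nonneg _)).trans_eq (by ring)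
  have := ((tendsto_pow_atTop_nhds_zero_of_lt_one h0 h1).mul_const K).const_add
    (B * sp.n2 (polyEval Y P))
  simpa using ge_of_tendsto' this main

end Crest.Agent.R89
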