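import Crest.Agent.R89.Main1
import Crest.Agent.R89.Rep
import Crest.Agent.R89.Affine
import Crest.Agent.R89.Fisher
import Crest.Agent.R89.Fock
import Crest.Agent.R89.Free
import Crest.Agent.R89.Geom
import Crest.Agent.R89.IBP
import Crest.Agent.R89.Local
import Crest.Agent.R89.Lower
import Crest.Agent.R89.Mom
import Crest.Agent.R89.Norm
import Crest.Agent.R89.RF
import Crest.Agent.R89.Upper
import Crest.Agent.R89.W

/-! Row 89: the final assembly. -/

set_option autoImplicit false
set_option linter.unusedSectionVars false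

namespace Crest.Agent.R89

open Crest.OpAlg MeasureTheory
open scoped Classical

namespace Fin6

variable {k : ℕ} (η ε : ℝ)

noncomputable def ξ (k : ℕ) : Fin (6 + k) → CG :=
  Fin.append ![(η : ℂ) • sg gu, (η : ℂ) • sh gu, ((1 : ℝ) : ℂ) • sg ga, ((1 : ℝ) : ℂ) • sh ga,
    ((1 : ℝ) : ℂ) • sg gc, ((1 : ℝ) : ℂ) • sh gc] fun j => ((1 / 25 : ℝ) : ℂ) • sg (gb j)

noncomputable def ξ0 (k : ℕ) : Fin (6 + k) → CG :=
  Fin.append ![0, 0, sg ga, sh ga, sg gc, sh gc] fun _ => 0

noncomputable def σ (k : ℕ) : Fin (6 + k) → ℝ :=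
  Fin.append ![η * ε, η * ε, 1 * ε, 1 * ε, 1 * ε, 1 * ε] fun _ => 1

noncomputable def sc (k : ℕ) : Fin (6 + k) → ℝ := Fin.append ![η, η, 1, 1, 1, 1] fun _ => 1

noncomputable def coef (k : ℕ) : Fin (6 + k) → ET k → ℂ :=
  Fin.append ![fun t => if t.1 = none then η else 0,
    fun t => if t.1 = none then (if t.2 then Complex.I * η else -Complex.I * η) else 0,
    0, 0, 0, 0] fun j t => if t.1 = some j then ((1 / 25 : ℝ) : ℂ) else 0

def C (k : ℕ) : Set (Fin (6 + k)) := {c | c.val < 2 ∨ 6 ≤ c.val}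
def J (k : ℕ) : Set (Fin (6 + k)) := {c | c.val < 6}

theorem herm (c : Fin (6 + k)) : Herm (ξ η k c) := by
  induction c using Fin.addCases with
  | left i =>
    rw [ξ, Fin.append_left]
    fin_cases i
    exacts [(herm_sg _).smul _, (herm_sh _).smul _, (herm_sg _).smul _, (herm_sh _).smul _,
      (herm_sg _).smul _, (herm_sh _).smul _]
  | right j => rw [ξ, Fin.append_right]; exact (herm_sg _).smul _

theorem ga_mem : ga ∈ Λ0 := Subgroup.subset_closure (by simp)
theorem gc_mem : gc ∈ Λ0 := Subgroup.subset_closure (by simp)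

theorem ξ0_supp (c : Fin (6 + k)) (g : Γ) (h : (ξ0 k c).coeff g ≠ 0) : g ∈ Λ0 := by
  induction c using Fin.addCases with
  | left i =>
    rw [ξ0, Fin.append_left] at h
    fin_cases i
    exacts [absurd rfl h, absurd rfl h, sg_supp ga_mem g h, sh_supp ga_mem g h, sg_supp gc_mem g h,
      sh_supp gc_mem g h]
  | right j => rw [ξ0, Fin.append_right] at h; exact absurd rfl h

theorem ξ0_C (c : Fin (6 + k)) (hc : c ∈ C k) : ξ0 k c = 0 := by
  induction c using Fin.addCases with
  | left i =>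
    rw [ξ0, Fin.append_left]
    fin_cases i <;> simp [C] at hc ⊢
  | right j => rw [ξ0, Fin.append_right]

theorem coef_C (c : Fin (6 + k)) (hc : c ∉ C k) (t : ET k) : coef η k c t = 0 := by
  induction c using Fin.addCases with
  | left i =>
    rw [coef, Fin.append_left]
    fin_cases i <;> simp [C] at hc ⊢
  | right j => simp [C] at hc

theorem ξ_eq (c : Fin (6 + k)) :
    ξ η k c = ξ0 k c + ∑ t, coef η k c t • MonoidAlgebra.single (hel t) (1 : ℂ) := by
  induction c using Fin.addCases with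
  | left i =>
    rw [ξ, ξ0, coef, Fin.append_left, Fin.append_left, Fin.append_left]
    fin_cases i <;>
      simp [Fintype.sum_prod_type, Fintype.sum_option, hel, sg, sh, mul_comm]
  | right j =>
    rw [ξ, ξ0, coef, Fin.append_right, Fin.append_right, Fin.append_right]
    simp [Fintype.sum_prod_type, hel, sg, ite_smul, Finset.sum_add_distrib]

theorem coef_row (hη : 0 ≤ η) (hη' : η ≤ 1 / 25) (c : Fin (6 + k)) :
    ∑ t, ‖coef η k c t‖ ≤ 2 / 25 := by
  induction c using Fin.addCases with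
  | left i =>
    rw [coef, Fin.append_left]
    fin_cases i <;>
      simp [Fintype.sum_prod_type, Fintype.sum_option, abs_of_nonneg hη] <;> linarith
  | right j =>
    rw [coef, Fin.append_right]
    simp [Fintype.sum_prod_type, apply_ite norm, Finset.sum_add_distrib]
    norm_num

theorem coef_none (hη : 0 ≤ η) (s : Bool) : ∑ c, ‖coef η k c (none, s)‖ ≤ 2 * η := by
  rw [Fin.sum_univ_add]
  simp only [coef, Fin.append_left, Fin.append_right, Fin.sum_univ_six]
  cases s <;> simp [abs_of_nonneg hη] <;> linarith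

theorem coef_some (j : Fin k) (s : Bool) : ∑ c, ‖coef η k c (some j, s)‖ ≤ 1 / 25 := by
  rw [Fin.sum_univ_add]
  simp only [coef, Fin.append_left, Fin.append_right, Fin.sum_univ_six]
  simp [apply_ite, Finset.sum_ite_eq]

theorem σ_pos (hη : 0 < η) (hη' : η ≤ 1) (hε : 0 < ε) (hε' : ε ≤ 1) (c : Fin (6 + k)) :
    0 < σ η ε k c ∧ σ η ε k c ≤ 1 := by
  have h1 : 0 < η * ε ∧ η * ε ≤ 1 := ⟨by positivity, by nlinarith⟩
  have h2 : 0 < 1 * ε ∧ 1 * ε ≤ 1 := ⟨by positivity, by linarith⟩
  induction c using Fin.addCases with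
  | left i =>
    rw [σ, Fin.append_left]
    fin_cases i
    exacts [h1, h1, h2, h2, h2, h2]
  | right j => rw [σ, Fin.append_right]; norm_num

theorem norm_ξ {A : Type} [CStarAlgebra A] (sp : Sp A) (hη : 0 ≤ η) (i : Fin 6) :
    ‖sp.πA (ξ η k (Fin.castAdd k i))‖ ≤ 2 * sc η k (Fin.castAdd k i) ∧
      σ η ε k (Fin.castAdd k i) = sc η k (Fin.castAdd k i) * ε := by
  have h : ∀ (a : ℝ) (x : CG), 0 ≤ a → ‖sp.πA x‖ ≤ 2 → ‖sp.πA ((a : ℂ) • x)‖ ≤ 2 * a := by
    intro a x ha hx
    rw [map_smul, norm_smul, Complex.norm_real, Real.norm_of_nonneg ha, mul_comm]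
    exact mul_le_mul_of_nonneg_right hx ha
  rw [ξ, σ, sc, Fin.append_left, Fin.append_left, Fin.append_left]
  fin_cases i
  exacts [⟨h _ _ hη (norm_πA_sg sp _), rfl⟩, ⟨h _ _ hη (norm_πA_sh sp _), rfl⟩,
    ⟨h _ _ zero_le_one (norm_πA_sg sp _), rfl⟩, ⟨h _ _ zero_le_one (norm_πA_sh sp _), rfl⟩,
    ⟨h _ _ zero_le_one (norm_πA_sg sp _), rfl⟩, ⟨h _ _ zero_le_one (norm_πA_sh sp _), rfl⟩]

end Fin6

theorem gb_sq (j : ℕ) : gb j * gb j ≠ 1 := fun h => by
  have := congrArg (GeomAux.ex 0) h
  rw [GeomAux.ex_mul, GeomAux.ex0_b] at this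
  simp [GeomAux.ex] at this

open Fin6 in
theorem main_k (k : ℕ) (hk : 1 ≤ k) (hineq : 6 * Real.log (40960 * (k : ℝ) ^ 4) + 2 ≤ k / 1250) :
    ∃ (A : Type) (_ : CStarAlgebra A) (τ : A →ₗ[ℂ] ℂ) (n : ℕ) (X S : Fin n → A),
      IsFaithfulTracialState τ ∧ 2 ≤ n ∧ (∀ i, IsSelfAdjoint (X i)) ∧
      IsStandardSemicircular τ S ∧ IsFreeFamily τ (withNoise X S) ∧
      (∀ s : ℝ, 0 < s → freeFisher τ (heatTuple X S s) < ⊤) ∧
      IntegrableOn
        (fun s : ℝ => (n : ℝ) / (1 + s) - (freeFisher τ (heatTuple X S s)).toReal)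
        (Set.Ioi 0) ∧
      ⊥ < chi τ X ∧ chi τ X ≤ ((chiStar τ X S - 1 / 2 : ℝ) : EReal) := by
  have hk' : (1 : ℝ) ≤ k := by exact_mod_cast hk
  obtain ⟨η, hηd⟩ : ∃ η : ℝ, η = 1 / (100 * k) := ⟨_, rfl⟩
  obtain ⟨ε, hεd⟩ : ∃ ε : ℝ, ε = 1 / (64 * k ^ 2) := ⟨_, rfl⟩
  have hη : 0 < η := by rw [hηd]; positivity
  have hη1 : η * (100 * k) = 1 := by rw [hηd]; field_simp
  have hη2 : η ≤ 1 / 25 := by nlinarith
  have hε : 0 < ε := by rw [hεd]; positivity
  have hε1 : ε * (64 * k ^ 2) = 1 := by rw [hεd]; field_simp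
  have hε2 : ε ≤ 1 := by nlinarith
  obtain ⟨A, _, sp, s, hs, hSD0⟩ := fock0 (6 + k)
  obtain ⟨hsemi, hSD⟩ := affineStmt A sp (6 + k) s (fun c => (hs c).1) hSD0
  have hσ := σ_pos (k := k) η ε hη (by linarith) hε hε2
  obtain ⟨X, hXd⟩ : ∃ X : Fin (6 + k) → A,
    X = fun c => sp.πA (ξ η k c) + (σ η ε k c : ℂ) • s (Sum.inl c) := ⟨_, rfl⟩
  have hXc : ∀ c, X c = sp.πA (ξ η k c) + (σ η ε k c : ℂ) • s (Sum.inl c) := fun c => by rw [hXd]
  have hX : ∀ c, IsSelfAdjoint (X c) := fun c => by
    rw [hXc]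
    refine (sp.isSelfAdjoint_πA (herm η c)).add ?_
    rw [IsSelfAdjoint, star_smul, (hs _).1.star_eq]; simp
  have hn2 : ∀ c, sp.n2 (s c) = 1 := fun c => by
    have := hSD0 c [Sum.inr c]
    rw [split_cons] at this
    simp only [map_zero, sub_zero, Sp.ev_inr, Sp.ev_nil, mul_one, sp.τ_one] at this
    rw [Sp.n2, (hs c).1.star_eq, this]; simp
  have hSDs : ∀ t : ℝ, 0 < t →
      sp.SD (heatTuple X (fun i => s (Sum.inr i)) t) (ξ η k) fun c => σ η ε k c ^ 2 + t := by
    intro t ht
    have := hSD (ξ η k) (σ η ε k) fun _ => √t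
    simp only [Real.sq_sqrt ht.le] at this
    rw [hXd]; exact this
  have hSDX : sp.SD X (ξ η k) fun c => σ η ε k c ^ 2 := by
    have := hSD (ξ η k) (σ η ε k) fun _ => 0
    rw [hXd]; simpa using this
  -- the gain
  have hgain : ∀ t : ℝ, 1 ≤ t → ∀ c (P : NCPoly (6 + k)),
      (Fin.append (fun _ : Fin 6 => (0 : ℝ)) (fun _ : Fin k => (1 / 625 : ℝ)) c) ≤
        sp.n2 (polyEval (heatTuple X (fun i => s (Sum.inr i)) t) P - sp.πA (ξ η k c)) ^ 2 := by
    intro t ht c P
    induction c using Fin.addCases with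
    | left i => rw [Fin.append_left]; positivity
    | right j =>
      have hh := hard (repStmt_of localStmt geomStmt) wStmt sp hk
        (heatTuple X (fun i => s (Sum.inr i)) t) (ξ0 k) (ξ η k) (coef η k)
        (fun c => σ η ε k c ^ 2 + t) (C k) η hη.le hη1.le (hSDs t (by linarith)) ξ0_supp ξ0_C
        (ξ_eq η) (coef_C η) (fun c => by nlinarith [sq_nonneg (σ η ε k c)]) (fun c hc => ?_)
        (fun c _ => coef_row η hη.le hη2 c) (coef_none η hη.le) (coef_some η)
      · have h1 := hh (some j, true) P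
        have h2 := hh (some j, false) P
        simp only [hel, inv_inv] at h1 h2
        set x := polyEval (heatTuple X (fun i => s (Sum.inr i)) t) P
        have h3 : ‖sp.τ (star (sp.πA (sg (gb j))) * x)‖ ≤ 4 / 5 * sp.n2 x := by
          rw [(sp.isSelfAdjoint_πA (herm_sg _)).star_eq, πA_sg, add_mul, map_add]
          refine (norm_add_le _ _).trans ?_
          linarith
        have h4 := (Complex.re_le_norm _).trans h3
        rw [Fin.append_right, ξ, Fin.append_right, ← sp.n2_neg, neg_sub, sp.n2_sub_sq, map_smul,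
          sp.n2_smul, mul_pow, n2_sg sp (gb_sq j), star_smul, smul_mul_assoc, map_smul,
          smul_eq_mul, Complex.star_def, Complex.conj_ofReal, Complex.re_ofReal_mul,
          Complex.norm_real, Real.norm_of_nonneg (by norm_num)]
        nlinarith [sq_nonneg (sp.n2 x - 4 / 125)]
      · have a1 : ‖sp.πA (ξ η k c)‖ ≤ 2 / 25 := by
          rw [ξ_eq, ξ0_C c hc, zero_add, map_sum]
          refine (norm_sum_le _ _).trans (le_trans (le_of_eq ?_) (coef_row η hη.le hη2 c))
          simp [norm_smul, sp.norm_π]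
        have a2 : ‖(σ η ε k c : ℂ) • s (Sum.inl c)‖ ≤ σ η ε k c * 2 := by
          rw [norm_smul, Complex.norm_real, Real.norm_of_nonneg (hσ c).1.le]
          exact mul_le_mul_of_nonneg_left (hs _).2 (hσ c).1.le
        have a3 : ‖(√t : ℂ) • s (Sum.inr c)‖ ≤ √t * 2 := by
          rw [norm_smul, Complex.norm_real, Real.norm_of_nonneg (Real.sqrt_nonneg _)]
          exact mul_le_mul_of_nonneg_left (hs _).2 (Real.sqrt_nonneg _)
        have a4 : σ η ε k c + √t ≤ 3 / 2 * √(σ η ε k c ^ 2 + t) := by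
          refine abs_le_of_sq_le_sq' ?_ (by positivity) |>.2
          rw [mul_pow, Real.sq_sqrt (by nlinarith [sq_nonneg (σ η ε k c)])]
          nlinarith [Real.sq_sqrt (show 0 ≤ t by linarith), sq_nonneg (σ η ε k c - √t),
            sq_nonneg (σ η ε k c)]
        rw [heatTuple, hXc]
        refine norm_add₃_le.trans ?_
        linarith
  obtain ⟨f1, f2, f3⟩ := fisherStmt A sp (6 + k) X (fun i => s (Sum.inr i)) (ξ η k) (σ η ε k) _ hX
    (fun c => (hs _).1) (herm η) hσ
    (fun c => by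
      induction c using Fin.addCases with
      | left i => rw [Fin.append_left]
      | right j => rw [Fin.append_right]; norm_num) hSDs hgain
  have hlow := lowerStmt_of rfStmt normStmt (momStmt_of ibpStmt) A sp (6 + k) X (ξ η k) (σ η ε k)
    hX (herm η) (fun c => (hσ c).1) hSDX
  -- the approximating polynomials
  have hJ : ∀ i : Fin 6, Fin.castAdd k i ∈ J k := fun i => by simp [J]
  have hu : App sp X (J k) ε gu 1 := app_gen sp hη hε.le (hJ 0) (hJ 1) (hs _).2 (hs _).2
    (by rw [hXc, ξ, σ, Fin.append_left, Fin.append_left]; rfl)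
    (by rw [hXc, ξ, σ, Fin.append_left, Fin.append_left]; rfl)
  have ha : App sp X (J k) ε ga 1 := app_gen sp one_pos hε.le (hJ 2) (hJ 3) (hs _).2 (hs _).2
    (by rw [hXc, ξ, σ, Fin.append_left, Fin.append_left]; rfl)
    (by rw [hXc, ξ, σ, Fin.append_left, Fin.append_left]; rfl)
  have hc : App sp X (J k) ε gc 1 := app_gen sp one_pos hε.le (hJ 4) (hJ 5) (hs _).2 (hs _).2
    (by rw [hXc, ξ, σ, Fin.append_left, Fin.append_left]; rfl)
    (by rw [hXc, ξ, σ, Fin.append_left, Fin.append_left]; rfl)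
  choose P hP1 hP2 using fun j : Fin k => App.gb hX hu ha hc j
  have hP3 : ∀ j : Fin k, ‖polyEval X (P j) - sp.π (gb j)‖ ≤ 1 / (2 * k) := fun j => by
    refine (hP2 j).trans ?_
    have b1 : (1 + 2 * ε) ^ (8 * (j : ℕ) + 7) ≤ Real.exp (2 * ε) ^ (8 * k) :=
      (pow_le_pow_right₀ (by linarith) (by omega)).trans
        (pow_le_pow_left₀ (by linarith) (by linarith [Real.add_one_le_exp (2 * ε)]) _)
    have b2 : Real.exp (2 * ε) ^ (8 * k) = Real.exp (1 / (4 * k)) := by
      rw [← Real.exp_nat_mul, hεd]; congr 1; push_cast; field_simp; norm_num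
    have b3 : (1 : ℝ) / (4 * k) ≤ 1 := by rw [div_le_one (by positivity)]; linarith
    have b4 := Real.abs_exp_sub_one_le (x := 1 / (4 * k)) (by rwa [abs_of_pos (by positivity)])
    have b5 : 2 * |(1 : ℝ) / (4 * k)| = 1 / (2 * k) := by
      rw [abs_of_pos (by positivity)]; field_simp; norm_num
    linarith [le_abs_self (Real.exp (1 / (4 * k)) - 1)]
  have hup := upperStmt A sp.τ (6 + k) X (J k)
    (Fin.append (fun _ => 0) fun j => ((1 / 25 : ℝ) : ℂ) • P j + polyStar (((1 / 25 : ℝ) : ℂ) • P j))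
    (Fin.append (fun i => 10 * sc η k (Fin.castAdd k i) ^ 2) fun _ => 1 + 1 / k)
    (fun c => by
      induction c using Fin.addCases with
      | left i => rw [Fin.append_left, polyStar_zero]
      | right j => rw [Fin.append_right, polyStar_add, polyStar_polyStar]; exact add_comm _ _)
    (fun c hc => by
      induction c using Fin.addCases with
      | left i => rw [Fin.append_left]
      | right j => simp [J] at hc)
    (fun c => by
      induction c using Fin.addCases with
      | left i => rw [Fin.append_left]; exact OnJ.zero.support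
      | right j => rw [Fin.append_right]; exact (((hP1 j).smul _).add ((hP1 j).smul _).star).support)
    (fun c => by
      induction c using Fin.addCases with
      | left i =>
        obtain ⟨c1, c2⟩ := norm_ξ (k := k) η ε sp hη.le i
        have c3 : 0 < sc η k (Fin.castAdd k i) := by
          have := (hσ (Fin.castAdd k i)).1
          rw [c2] at this
          exact (mul_pos_iff_of_pos_right hε).1 this
        rw [Fin.append_left, Fin.append_left]
        refine ⟨by positivity, ?_⟩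
        have c4 : sp.n2 (X (Fin.castAdd k i)) ≤ 3 * sc η k (Fin.castAdd k i) := by
          rw [hXc]
          refine (sp.n2_add_le _ _).trans ?_
          rw [sp.n2_smul, hn2, Complex.norm_real, Real.norm_of_nonneg (hσ _).1.le, c2]
          nlinarith [sp.n2_le_norm (sp.πA (ξ η k (Fin.castAdd k i)))]
        have c5 := sp.n2_sq (X (Fin.castAdd k i))
        rw [(hX _).star_eq] at c5
        simp only [polyEval, map_zero, sub_zero]
        nlinarith [sp.n2_nonneg (X (Fin.castAdd k i))]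
      | right j =>
        rw [Fin.append_right, Fin.append_right]
        refine ⟨by positivity, ?_⟩
        set y := polyEval X (P j) - sp.π (gb j) with hy
        have e : X (Fin.natAdd 6 j) - polyEval X (((1 / 25 : ℝ) : ℂ) • P j +
            polyStar (((1 / 25 : ℝ) : ℂ) • P j)) =
            s (Sum.inl (Fin.natAdd 6 j)) - ((1 / 25 : ℝ) : ℂ) • (y + star y) := by
          have e1 := polyEval_polyStar hX (((1 / 25 : ℝ) : ℂ) • P j)
          simp only [polyEval] at e1 hy ⊢
          rw [map_add, e1, map_smul, hXc, ξ, σ, Fin.append_right, Fin.append_right, map_smul,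
            πA_sg, hy, star_sub, sp.star_π, star_smul, Complex.star_def, Complex.conj_ofReal]
          module
        have c1 : IsSelfAdjoint
            (s (Sum.inl (Fin.natAdd 6 j)) - ((1 / 25 : ℝ) : ℂ) • (y + star y)) := by
          refine (hs _).1.sub ?_
          rw [IsSelfAdjoint, star_smul, star_add, star_star, add_comm]; simp
        have c2 : sp.n2 (s (Sum.inl (Fin.natAdd 6 j)) - ((1 / 25 : ℝ) : ℂ) • (y + star y)) ≤
            1 + 1 / 25 * (1 / k) := by
          refine (sp.n2_sub_le _ _).trans ?_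
          rw [hn2, sp.n2_smul, Complex.norm_real, Real.norm_of_nonneg (by norm_num)]
          have d1 := (sp.n2_le_norm (y + star y)).trans (norm_add_le _ _)
          rw [norm_star] at d1
          have d2 : (1 : ℝ) / (2 * k) + 1 / (2 * k) = 1 / k := by field_simp; norm_num
          linarith [hP3 j]
        have c3 := sp.n2_sq (s (Sum.inl (Fin.natAdd 6 j)) - ((1 / 25 : ℝ) : ℂ) • (y + star y))
        rw [c1.star_eq] at c3
        rw [e, ← c3]
        have d3 : (0 : ℝ) < 1 / k := by positivity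
        have d4 : (1 : ℝ) / k ≤ 1 := by rw [div_le_one (by positivity)]; exact hk'
        nlinarith [sp.n2_nonneg (s (Sum.inl (Fin.natAdd 6 j)) - ((1 / 25 : ℝ) : ℂ) • (y + star y))])
  refine ⟨A, inferInstance, sp.τ, 6 + k, X, fun i => s (Sum.inr i), sp.hτ, by omega, hX, hsemi,
    hXd ▸ freeStmt A sp (6 + k) s hSD0 (ξ η k) (σ η ε k), f1, f2, hlow, hup.trans ?_⟩
  refine EReal.coe_le_coe_iff.2 (le_trans ?_ (sub_le_sub_right f3 _))
  rw [Fin.sum_univ_add, Fin.sum_univ_add]
  simp only [Fin.append_left, Fin.append_right, σ, sc, Fin.sum_univ_six, Finset.sum_const,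
    Finset.card_univ, Fintype.card_fin, nsmul_eq_mul]
  have l1 : Real.log (10 * η ^ 2) = Real.log ((η * ε) ^ 2) + Real.log (40960 * (k : ℝ) ^ 4) := by
    rw [← Real.log_mul (by positivity) (by positivity), hεd]; congr 1; field_simp; norm_num
  have l2 : Real.log (10 * 1 ^ 2) = Real.log ((1 * ε) ^ 2) + Real.log (40960 * (k : ℝ) ^ 4) := by
    rw [← Real.log_mul (by positivity) (by positivity), hεd]; congr 1; field_simp; norm_num
  have l3 : (k : ℝ) * Real.log (1 + 1 / k) ≤ 1 := by
    have := Real.log_le_sub_one_of_pos (show (0 : ℝ) < 1 + 1 / k by positivity)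
    calc (k : ℝ) * Real.log (1 + 1 / k) ≤ k * (1 / k) := by gcongr; linarith
      _ = 1 := by field_simp
  simp only [Matrix.cons_val, l1, l2]
  simp only [one_pow, Real.log_one]
  linarith

theorem main :
    ∃ (A : Type) (_ : CStarAlgebra A) (τ : A →ₗ[ℂ] ℂ) (n : ℕ) (X S : Fin n → A),
      IsFaithfulTracialState τ ∧ 2 ≤ n ∧ (∀ i, IsSelfAdjoint (X i)) ∧
      IsStandardSemicircular τ S ∧ IsFreeFamily τ (withNoise X S) ∧
      (∀ s : ℝ, 0 < s → freeFisher τ (heatTuple X S s) < ⊤) ∧
      IntegrableOn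
        (fun s : ℝ => (n : ℝ) / (1 + s) - (freeFisher τ (heatTuple X S s)).toReal)
        (Set.Ioi 0) ∧
      ⊥ < chi τ X ∧ chi τ X ≤ ((chiStar τ X S - 1 / 2 : ℝ) : EReal) := by
  refine main_k (10 ^ 8) (by norm_num) ?_
  have h1 : Real.log (40960 * ((10 ^ 8 : ℕ) : ℝ) ^ 4) ≤ Real.log (10 ^ 40) :=
    Real.log_le_log (by positivity) (by norm_num)
  have h2 := Real.log_le_sub_one_of_pos (show (0 : ℝ) < 10 by norm_num)
  rw [Real.log_pow] at h1
  generalize Real.log (40960 * ((10 ^ 8 : ℕ) : ℝ) ^ 4) = L at h1 ⊢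
  push_cast at h1 ⊢
  linarith

end Crest.Agent.R89
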