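import Crest.Agent.R89.Basic

/-! Row 89: auxiliary facts for the final assembly. -/

set_option autoImplicit false
set_option linter.unusedSectionVars false

namespace Crest.Agent.R89

open Crest.OpAlg
open scoped Classical

section Poly
variable {n : ℕ}

theorem polyStar_single (w : FreeMonoid (Fin n)) (a : ℂ) :
    polyStar (MonoidAlgebra.single w a) =
      MonoidAlgebra.single (FreeMonoid.toList.symm (FreeMonoid.toList w).reverse) (star a) := by
  rw [polyStar, MonoidAlgebra.coeff_single, Finsupp.sum_single_index (by simp)]; rfl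

theorem polyStar_zero : polyStar (0 : NCPoly n) = 0 := by simp [polyStar]

theorem polyStar_add (P Q : NCPoly n) : polyStar (P + Q) = polyStar P + polyStar Q := by
  simp only [polyStar, MonoidAlgebra.coeff_add]
  exact Finsupp.sum_add_index' (by simp) (by simp [MonoidAlgebra.single_add])

theorem polyStar_polyStar (P : NCPoly n) : polyStar (polyStar P) = P := by
  induction P using MonoidAlgebra.induction_linear with
  | zero => simp [polyStar_zero]
  | add P Q h1 h2 => rw [polyStar_add, polyStar_add, h1, h2]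
  | single w a => simp [polyStar_single]

/-- Polynomials in the letters of `J`. -/
inductive OnJ (J : Set (Fin n)) : NCPoly n → Prop
  | zero : OnJ J 0
  | single (w : FreeMonoid (Fin n)) (a : ℂ) : (∀ i ∈ FreeMonoid.toList w, i ∈ J) →
      OnJ J (MonoidAlgebra.single w a)
  | add {P Q : NCPoly n} : OnJ J P → OnJ J Q → OnJ J (P + Q)

variable {J : Set (Fin n)}

theorem OnJ.support {P : NCPoly n} (h : OnJ J P) :
    ∀ w ∈ P.coeff.support, ∀ i ∈ FreeMonoid.toList w, i ∈ J := by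
  induction h with
  | zero => simp
  | single w a h =>
    intro w' hw'
    obtain rfl := Finset.mem_singleton.1 (Finsupp.support_single_subset hw')
    exact h
  | add _ _ h1 h2 =>
    intro w hw
    exact (Finset.mem_union.1 (Finsupp.support_add hw)).elim (h1 w) (h2 w)

theorem OnJ.smul {P : NCPoly n} (h : OnJ J P) (a : ℂ) : OnJ J (a • P) := by
  induction h with
  | zero => simpa using OnJ.zero
  | single w b h => rw [MonoidAlgebra.smul_single]; exact OnJ.single _ _ h
  | add _ _ h1 h2 => rw [smul_add]; exact h1.add h2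

theorem OnJ.star {P : NCPoly n} (h : OnJ J P) : OnJ J (polyStar P) := by
  induction h with
  | zero => rw [polyStar_zero]; exact OnJ.zero
  | single w b h => rw [polyStar_single]; exact OnJ.single _ _ (by simpa using h)
  | add _ _ h1 h2 => rw [polyStar_add]; exact h1.add h2

theorem OnJ.mul {P Q : NCPoly n} (h : OnJ J P) (h' : OnJ J Q) : OnJ J (P * Q) := by
  induction h with
  | zero => simpa using OnJ.zero
  | add _ _ h1 h2 => rw [add_mul]; exact h1.add h2
  | single w a h =>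
    induction h' with
    | zero => simpa using OnJ.zero
    | add _ _ h1 h2 => rw [mul_add]; exact h1.add h2
    | single w' b h' =>
      rw [MonoidAlgebra.single_mul_single]
      refine OnJ.single _ _ fun i hi => ?_
      rw [FreeMonoid.toList_mul, List.mem_append] at hi
      exact hi.elim (h i) (h' i)

theorem polyEval_var {B : Type*} [Ring B] [Algebra ℂ B] (Y : Fin n → B) (c : Fin n) :
    polyEval Y (MonoidAlgebra.single (FreeMonoid.of c) 1) = Y c := by
  simp [polyEval]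

end Poly

section App
variable {A : Type} [CStarAlgebra A] (sp : Sp A) {n : ℕ} (X : Fin n → A) (J : Set (Fin n))
  (ε : ℝ)

/-- The group element `g` is approximated by a polynomial in the letters of `J`. -/
def App (g : Γ) (l : ℕ) : Prop :=
  ∃ P : NCPoly n, OnJ J P ∧ ‖polyEval X P - sp.π g‖ ≤ (1 + 2 * ε) ^ l - 1

variable {sp X J ε}

theorem App.one : App sp X J ε 1 0 :=
  ⟨1, OnJ.single 1 1 (by simp), by simp [polyEval]⟩

theorem App.mul {g g' : Γ} {l l' : ℕ} (h : App sp X J ε g l) (h' : App sp X J ε g' l') :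
    App sp X J ε (g * g') (l + l') := by
  obtain ⟨P, h1, h2⟩ := h
  obtain ⟨P', h1', h2'⟩ := h'
  refine ⟨P * P', h1.mul h1', ?_⟩
  have e : polyEval X (P * P') - sp.π (g * g') =
      (polyEval X P - sp.π g) * (polyEval X P' - sp.π g') + (polyEval X P - sp.π g) * sp.π g' +
        sp.π g * (polyEval X P' - sp.π g') := by
    rw [map_mul, polyEval, map_mul]; simp only [polyEval]; noncomm_ring
  rw [e, pow_add]
  have a1 := norm_mul_le (polyEval X P - sp.π g) (polyEval X P' - sp.π g')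
  have a2 := norm_mul_le (polyEval X P - sp.π g) (sp.π g')
  have a3 := norm_mul_le (sp.π g) (polyEval X P' - sp.π g')
  rw [sp.norm_π] at a2 a3
  have a4 := mul_le_mul h2 h2' (norm_nonneg _) ((norm_nonneg _).trans h2)
  refine norm_add₃_le.trans ?_
  nlinarith

theorem App.pow {g : Γ} (h : App sp X J ε g 1) (m : ℕ) : App sp X J ε (g ^ m) m := by
  induction m with
  | zero => exact App.one
  | succ m ih => rw [pow_succ]; exact ih.mul h

theorem App.inv (hX : ∀ c, IsSelfAdjoint (X c)) {g : Γ} {l : ℕ} (h : App sp X J ε g l) :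
    App sp X J ε g⁻¹ l := by
  obtain ⟨P, h1, h2⟩ := h
  exact ⟨polyStar P, h1.star, by
    rwa [polyEval_polyStar hX, ← sp.star_π, ← star_sub, norm_star]⟩

theorem App.gb (hX : ∀ c, IsSelfAdjoint (X c)) (hu : App sp X J ε gu 1) (ha : App sp X J ε ga 1)
    (hc : App sp X J ε gc 1) (j : ℕ) : App sp X J ε (gb j) (8 * j + 7) := by
  have hf : ∀ m, App sp X J ε (gf m) (m + 1 + m) := fun m =>
    ((ha.pow m).mul hc).mul ((ha.pow m).inv hX)
  have := (((hu.mul (hf (2 * j))).mul hu).mul (hf (2 * j + 1))).mul hu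
  rwa [show 1 + (2 * j + 1 + 2 * j) + 1 + (2 * j + 1 + 1 + (2 * j + 1)) + 1 = 8 * j + 7 by ring]
    at this

end App

/-- Twice the real part. -/
noncomputable def sg (g : Γ) : CG := MonoidAlgebra.single g 1 + MonoidAlgebra.single g⁻¹ 1
/-- Minus twice the imaginary part. -/
noncomputable def sh (g : Γ) : CG :=
  Complex.I • MonoidAlgebra.single g 1 + (-Complex.I) • MonoidAlgebra.single g⁻¹ 1

theorem herm_sg (g : Γ) : Herm (sg g) := fun h => by
  simp only [sg, MonoidAlgebra.coeff_add, MonoidAlgebra.coeff_single, Finsupp.add_apply,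
    Finsupp.single_apply, star_add, ← inv_eq_iff_eq_inv, inv_inv]
  split_ifs <;> simp

theorem herm_sh (g : Γ) : Herm (sh g) := fun h => by
  simp only [sh, MonoidAlgebra.coeff_add, MonoidAlgebra.coeff_single, Finsupp.add_apply,
    MonoidAlgebra.coeff_smul, Finsupp.smul_apply,
    Finsupp.single_apply, star_add, ← inv_eq_iff_eq_inv, inv_inv]
  split_ifs <;> simp

theorem Herm.smul {x : CG} (h : Herm x) (a : ℝ) : Herm ((a : ℂ) • x) := fun g => by
  simp [h g]

theorem sg_supp {g : Γ} (hg : g ∈ Λ0) (h : Γ) (hh : (sg g).coeff h ≠ 0) : h ∈ Λ0 := by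
  by_contra h1
  have a1 : g ≠ h := fun e => h1 (e ▸ hg)
  have a2 : g⁻¹ ≠ h := fun e => h1 (e ▸ Λ0.inv_mem hg)
  simp [sg, a1, a2] at hh

theorem sh_supp {g : Γ} (hg : g ∈ Λ0) (h : Γ) (hh : (sh g).coeff h ≠ 0) : h ∈ Λ0 := by
  by_contra h1
  have a1 : g ≠ h := fun e => h1 (e ▸ hg)
  have a2 : g⁻¹ ≠ h := fun e => h1 (e ▸ Λ0.inv_mem hg)
  simp [sh, a1, a2] at hh

section
variable {A : Type} [CStarAlgebra A] (sp : Sp A)

theorem πA_sg (g : Γ) : sp.πA (sg g) = sp.π g + sp.π g⁻¹ := by simp [sg]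

theorem πA_sh (g : Γ) : sp.πA (sh g) = Complex.I • sp.π g - Complex.I • sp.π g⁻¹ := by
  simp [sh, sub_eq_add_neg]

theorem norm_πA_sg (g : Γ) : ‖sp.πA (sg g)‖ ≤ 2 := by
  rw [πA_sg]
  refine (norm_add_le _ _).trans ?_
  rw [sp.norm_π, sp.norm_π]; norm_num

theorem norm_πA_sh (g : Γ) : ‖sp.πA (sh g)‖ ≤ 2 := by
  rw [πA_sh]
  refine (norm_sub_le _ _).trans ?_
  rw [norm_smul, norm_smul, sp.norm_π, sp.norm_π]; norm_num

theorem n2_sg {g : Γ} (hg : g * g ≠ 1) : sp.n2 (sp.πA (sg g)) ^ 2 = 2 := by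
  have hg' : g⁻¹ * g⁻¹ ≠ 1 := by rw [← mul_inv_rev]; exact inv_ne_one.2 hg
  rw [sp.n2_sq, πA_sg, star_add, sp.star_π, sp.star_π, inv_inv]
  simp only [add_mul, mul_add, ← map_mul, map_add, sp.τ_π, inv_mul_cancel, mul_inv_cancel, hg, hg']
  norm_num

theorem app_gen {n : ℕ} {X : Fin n → A} {J : Set (Fin n)} {ε a : ℝ} (ha : 0 < a) (hε : 0 ≤ ε)
    {g : Γ} {c c' : Fin n} (hc : c ∈ J) (hc' : c' ∈ J) {s s' : A} (hs : ‖s‖ ≤ 2) (hs' : ‖s'‖ ≤ 2)
    (h : X c = sp.πA ((a : ℂ) • sg g) + ((a * ε : ℝ) : ℂ) • s)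
    (h' : X c' = sp.πA ((a : ℂ) • sh g) + ((a * ε : ℝ) : ℂ) • s') : App sp X J ε g 1 := by
  refine ⟨(2 * a : ℂ)⁻¹ • (MonoidAlgebra.single (FreeMonoid.of c) 1 +
    (-Complex.I) • MonoidAlgebra.single (FreeMonoid.of c') 1),
    ((OnJ.single _ _ (by simpa using hc)).add
      ((OnJ.single _ _ (by simpa using hc')).smul _)).smul _, ?_⟩
  have ha' : (a : ℂ) ≠ 0 := by exact_mod_cast ha.ne'
  have e : polyEval X ((2 * a : ℂ)⁻¹ • (MonoidAlgebra.single (FreeMonoid.of c) 1 +
      (-Complex.I) • MonoidAlgebra.single (FreeMonoid.of c') 1)) - sp.π g =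
      ((ε / 2 : ℝ) : ℂ) • (s + (-Complex.I) • s') := by
    have e1 := polyEval_var X c
    have e2 := polyEval_var X c'
    simp only [polyEval] at e1 e2 ⊢
    rw [map_smul, map_add, map_smul, e1, e2, h, h', map_smul, map_smul, πA_sg, πA_sh]
    match_scalars
    · field_simp; ring_nf; simp
    · field_simp; ring_nf; simp
    · field_simp
    · field_simp
  rw [e, norm_smul, Complex.norm_real, Real.norm_of_nonneg (by positivity)]
  have : ‖s + (-Complex.I) • s'‖ ≤ 4 := by
    refine (norm_add_le _ _).trans ?_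
    rw [norm_smul]; simp; linarith
  nlinarith

end

section Repd
variable {n : ℕ} {ξ : Fin n → CG} {v ρ : Fin n → ℝ} {C : Set (Fin n)} {m : ℕ}

theorem Repd.add {β β' : ℝ} {F F' : List (Let n) → ℂ} (h : Repd ξ v ρ C m β F)
    (h' : Repd ξ v ρ C m β' F') : Repd ξ v ρ C m (β + β') fun Q => F Q + F' Q := by
  obtain ⟨l, h1, h2, h3⟩ := h
  obtain ⟨l', h1', h2', h3'⟩ := h'
  refine ⟨l ++ l', fun x hx => (List.mem_append.1 hx).elim (h1 x) (h1' x), ?_, fun Q hQ => ?_⟩
  · rw [List.map_append, List.sum_append]; exact add_le_add h2 h2'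
  · rw [List.map_append, List.sum_append, ← h3 Q hQ, ← h3' Q hQ]

theorem Repd.smul {β : ℝ} {F : List (Let n) → ℂ} (h : Repd ξ v ρ C m β F) (a : ℂ) :
    Repd ξ v ρ C m (‖a‖ * β) fun Q => a * F Q := by
  obtain ⟨l, h1, h2, h3⟩ := h
  refine ⟨l.map fun x => (a * x.1, x.2), fun x hx => ?_, ?_, fun Q hQ => ?_⟩
  · obtain ⟨y, hy, rfl⟩ := List.mem_map.1 hx
    exact h1 y hy
  · refine le_trans (le_of_eq ?_) (mul_le_mul_of_nonneg_left h2 (norm_nonneg a))
    rw [← List.sum_map_mul_left, List.map_map]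
    simp only [Function.comp_def, norm_mul, mul_assoc]
  · beta_reduce
    rw [h3 Q hQ, ← List.sum_map_mul_left, List.map_map]
    simp only [Function.comp_def, mul_assoc]

theorem Repd.sum {ι : Type} (s : Finset ι) {β : ι → ℝ} {F : ι → List (Let n) → ℂ}
    (h : ∀ i ∈ s, Repd ξ v ρ C m (β i) (F i)) :
    Repd ξ v ρ C m (∑ i ∈ s, β i) fun Q => ∑ i ∈ s, F i Q := by
  induction s using Finset.induction_on with
  | empty => exact ⟨[], by simp, by simp, by simp⟩
  | insert a s ha ih =>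
    simp only [Finset.sum_insert ha]
    exact (h a (Finset.mem_insert_self _ _)).add (ih fun i hi => h i (Finset.mem_insert_of_mem hi))

end Repd

/-- The hardness estimate in abstract form. -/
theorem hard (hR : RepStmt) (hW : WStmt) {A : Type} [CStarAlgebra A] (sp : Sp A) {k n : ℕ}
    (hk : 0 < k) (Y : Fin n → A) (ξ0 ξ : Fin n → CG) (coef : Fin n → ET k → ℂ) (v : Fin n → ℝ)
    (C : Set (Fin n)) (η : ℝ) (hη : 0 ≤ η) (hη' : η * (100 * k) ≤ 1) (hSD : sp.SD Y ξ v)
    (h0 : ∀ c g, (ξ0 c).coeff g ≠ 0 → g ∈ Λ0) (h0' : ∀ c ∈ C, ξ0 c = 0)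
    (hξ : ∀ c, ξ c = ξ0 c + ∑ t, coef c t • MonoidAlgebra.single (hel t) (1 : ℂ))
    (hC : ∀ c, c ∉ C → ∀ t, coef c t = 0) (hv : ∀ c, 1 ≤ v c)
    (hY : ∀ c ∈ C, ‖Y c‖ ≤ 2 / 25 + 3 * √(v c)) (h1 : ∀ c ∈ C, ∑ t, ‖coef c t‖ ≤ 2 / 25)
    (h2 : ∀ s, ∑ c, ‖coef c (none, s)‖ ≤ 2 * η) (h3 : ∀ j s, ∑ c, ‖coef c (some j, s)‖ ≤ 1 / 25)
    (t : ET k) (P : NCPoly n) :
    ‖sp.τ (sp.π (hel t)⁻¹ * polyEval Y P)‖ ≤ 2 / 5 * sp.n2 (polyEval Y P) := by
  have hw : ∀ c, 1 ≤ √(v c) := fun c => Real.one_le_sqrt.2 (hv c)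
  have hρ5 : ∀ c, 5 / √(v c) ≤ 5 := fun c => div_le_self (by norm_num) (hw c)
  have hk' : (1 : ℝ) ≤ k := by exact_mod_cast hk
  have hsum : ∀ (t : ET k) (B : ℝ), ∑ c, ‖coef c t‖ ≤ B → ∑ c, ‖coef c t‖ * (5 / √(v c)) ≤ B * 5 :=
    fun t B h => (Finset.sum_le_sum fun c _ =>
      mul_le_mul_of_nonneg_left (hρ5 c) (norm_nonneg _)).trans (by
        rw [← Finset.sum_mul]; linarith)
  have key := hR k n ξ0 ξ coef v (fun c => 5 / √(v c)) C (10 * η) (20 * η) (1 / 5) hk h0 hξ hC
    (fun c => by positivity) (fun s => (hsum _ _ (h2 s)).trans (by linarith))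
    (fun j s => (hsum _ _ (h3 j s)).trans (by norm_num)) (by positivity) (by nlinarith) le_rfl
    (by nlinarith)
  have := hW A sp n Y ξ v (fun c => 5 / √(v c)) (fun c => ∑ t, ‖coef c t‖ * (2 * (1 / 5))) C
    (4 / 5) hSD (by norm_num) (by norm_num) (fun c hc => ?_) (fun c hc g hg m => ?_) (hel t)
    (2 * (1 / 5)) (fun m => by simpa using key m t 1 Λ0.one_mem 1 Λ0.one_mem) P
  · convert this using 2; norm_num
  · have a1 := hw c
    have a2 : v c = √(v c) * √(v c) := (Real.mul_self_sqrt (by linarith [hv c])).symm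
    refine ⟨by linarith [hv c], by positivity, by positivity, ?_⟩
    have a3 : v c * (5 / √(v c)) = 5 * √(v c) := by
      rw [a2, Real.sqrt_mul_self (by linarith)]; field_simp
    have a4 : 2 / (5 / √(v c)) = 2 / 5 * √(v c) := by field_simp
    rw [a3, a4, ← Finset.sum_mul]
    linarith [hY c hc, h1 c hc]
  · have := Repd.sum Finset.univ fun (t : ET k) _ =>
      (key m (t.1, !t.2) 1 Λ0.one_mem g hg).smul (coef c t)
    convert this using 2 with Q
    rw [hξ c, h0' c hc, zero_add, Finset.sum_mul, MonoidAlgebra.coeff_sum, Finset.sum_apply']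
    refine Finset.sum_congr rfl fun t _ => ?_
    have e : hel ((t.1, !t.2) : ET k) = (hel t)⁻¹ := by
      rcases t with ⟨_ | j, _ | _⟩ <;> simp [hel]
    rw [smul_mul_assoc, e]
    simp

end Crest.Agent.R89
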