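import Crest.Agent.R89.Basic

/-! Row 89: algebraic part of the moment computation for the random matrix model. -/

set_option autoImplicit false
set_option linter.unusedSectionVars false

namespace Crest.Agent.R89.Mom

open Crest.OpAlg Filter Topology
open scoped Classical

/-! ### Sums over splittings -/

section Sps
variable {L M : Type} [AddCommMonoid M]

/-- `∑_{Q = Q₁ c Q₂} Φ Q₁ Q₂`. -/
noncomputable def sps (c : L) (Φ : List L → List L → M) (Q : List L) : M :=
  ∑ i ∈ Finset.range Q.length, if Q[i]? = some c then Φ (Q.take i) (Q.drop (i + 1)) else 0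

@[simp] theorem sps_nil (c : L) (Φ : List L → List L → M) : sps c Φ [] = 0 := by simp [sps]

theorem sps_cons (c l : L) (Φ : List L → List L → M) (Q : List L) :
    sps c Φ (l :: Q) = (if l = c then Φ [] Q else 0) + sps c (fun P R => Φ (l :: P) R) Q := by
  simp only [sps, List.length_cons, Finset.sum_range_succ']
  rw [add_comm]
  simp

theorem map_sps {M' F : Type} [AddCommMonoid M'] [FunLike F M M'] [AddMonoidHomClass F M M']
    (f : F) (c : L) (Φ : List L → List L → M) (Q : List L) :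
    f (sps c Φ Q) = sps c (fun P R => f (Φ P R)) Q := by
  simp only [sps, map_sum]
  refine Finset.sum_congr rfl fun i _ => ?_
  split_ifs <;> simp

theorem sum_sps {κ : Type} (s : Finset κ) (c : L) (Φ : κ → List L → List L → M) (Q : List L) :
    ∑ k ∈ s, sps c (Φ k) Q = sps c (fun P R => ∑ k ∈ s, Φ k P R) Q := by
  simp only [sps]
  rw [Finset.sum_comm]
  refine Finset.sum_congr rfl fun i _ => ?_
  split_ifs <;> simp

theorem eq_of_getElem? {Q : List L} {i : ℕ} {c : L} (h : Q[i]? = some c) :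
    Q = Q.take i ++ c :: Q.drop (i + 1) := by
  obtain ⟨hi, rfl⟩ := List.getElem?_eq_some_iff.1 h
  simp

theorem sps_congr (c : L) {Φ Ψ : List L → List L → M} (Q : List L)
    (h : ∀ P R, Q = P ++ c :: R → Φ P R = Ψ P R) : sps c Φ Q = sps c Ψ Q := by
  refine Finset.sum_congr rfl fun i _ => ?_
  split_ifs with hi
  · exact h _ _ (eq_of_getElem? hi)
  · rfl

theorem split_eq_sps [Module ℂ M] (c : L) (F : List L → ℂ) (G : List L → M) (Q : List L) :
    split c F G Q = sps c (fun P R => F P • G R) Q := rfl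

end Sps

/-! ### The basis of Hermitian matrices -/

section Basis
variable {d : ℕ}

/-- The Hermitian matrix with coordinate vector `e_p`. -/
noncomputable def Hb (p : Fin d × Fin d) : Matrix (Fin d) (Fin d) ℂ :=
  hermitianOfCoords (WithLp.toLp 2 (Pi.single p (1 : ℝ)))

theorem Hb_apply (p : Fin d × Fin d) (i j : Fin d) : Hb p i j =
    if i = j then (if p = (i, i) then 1 else 0)
    else if i < j then ((if p = (i, j) then 1 else 0) + (if p = (j, i) then 1 else 0) * Complex.I) /
      (Real.sqrt 2 : ℂ)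
    else ((if p = (j, i) then 1 else 0) - (if p = (i, j) then 1 else 0) * Complex.I) /
      (Real.sqrt 2 : ℂ) := by
  have h : ∀ q : Fin d × Fin d, (((Pi.single p (1 : ℝ) : Fin d × Fin d → ℝ) q : ℝ) : ℂ) =
      if p = q then 1 else 0 := fun q => by
    by_cases hq : p = q
    · subst hq; simp
    · rw [Pi.single_eq_of_ne' hq]; simp [hq]
  simp only [Hb, hermitianOfCoords, h]

theorem sum_mul_Hb (a : Fin d × Fin d → ℂ) (k l : Fin d) : ∑ p, a p * Hb p k l =
    if k = l then a (k, k)
    else if k < l then (a (k, l) + a (l, k) * Complex.I) / (Real.sqrt 2 : ℂ)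
    else (a (l, k) - a (k, l) * Complex.I) / (Real.sqrt 2 : ℂ) := by
  simp only [Hb_apply]
  split_ifs
  · simp
  · simp only [← mul_div_assoc, ← Finset.sum_div, mul_add, Finset.sum_add_distrib, ← mul_assoc,
      ← Finset.sum_mul]
    simp
  · simp only [← mul_div_assoc, ← Finset.sum_div, mul_sub, Finset.sum_sub_distrib, ← mul_assoc,
      ← Finset.sum_mul]
    simp

theorem herm_eq_sum (a : Fin d × Fin d → ℝ) :
    hermitianOfCoords (WithLp.toLp 2 a) = ∑ p, (a p : ℂ) • Hb p := by
  ext k l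
  rw [Matrix.sum_apply]
  simp only [Matrix.smul_apply, smul_eq_mul]
  rw [sum_mul_Hb]
  rfl

theorem Hb_complete (i j k l : Fin d) :
    ∑ p, Hb p i j * Hb p k l = if i = l ∧ j = k then 1 else 0 := by
  have h2 : (Real.sqrt 2 : ℂ) * (Real.sqrt 2 : ℂ) = 2 := by
    rw [← Complex.ofReal_mul, Real.mul_self_sqrt (by norm_num)]; norm_num
  have h0 : (Real.sqrt 2 : ℂ) ≠ 0 := by
    intro h; rw [h] at h2; norm_num at h2
  rw [sum_mul_Hb]
  simp only [Hb_apply, Prod.mk.injEq]
  have hI := Complex.I_mul_I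
  split_ifs <;> first
    | omega
    | (simp; done)
    | (field_simp; linear_combination (-1 : ℂ) * h2 - hI)
    | (field_simp; linear_combination hI)

theorem star_herm (a : EuclideanSpace ℝ (Fin d × Fin d)) :
    star (hermitianOfCoords a) = hermitianOfCoords a := by
  ext i j
  simp only [Matrix.star_apply, hermitianOfCoords]
  rcases lt_trichotomy i j with h | h | h
  · simp [h, h.ne, h.ne', h.not_gt, sub_eq_add_neg]
  · subst h; simp
  · simp [h, h.ne, h.ne', h.not_gt, sub_eq_add_neg]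

variable {B : Type} [CommRing B] [Algebra ℂ B]

/-- The basis matrices over a commutative algebra. -/
noncomputable def HB (B : Type) [CommRing B] [Algebra ℂ B] (p : Fin d × Fin d) :
    Matrix (Fin d) (Fin d) B := (Hb p).map (algebraMap ℂ B)

theorem HB_complete (i j k l : Fin d) :
    ∑ p, HB B p i j * HB B p k l = if i = l ∧ j = k then 1 else 0 := by
  simp only [HB, Matrix.map_apply, ← map_mul, ← map_sum, Hb_complete]
  split_ifs <;> simp

theorem sum_trace_HB_mul_HB (X Y : Matrix (Fin d) (Fin d) B) :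
    ∑ p, (HB B p * (X * HB B p * Y)).trace = X.trace * Y.trace := by
  have h : ∀ p, (HB B p * (X * HB B p * Y)).trace =
      ∑ i, ∑ j, ∑ l, ∑ k, HB B p i j * HB B p k l * (X j k * Y l i) := fun p => by
    simp only [Matrix.trace, Matrix.diag_apply, Matrix.mul_apply, Finset.mul_sum, Finset.sum_mul]
    refine Finset.sum_congr rfl fun i _ => Finset.sum_congr rfl fun j _ =>
      Finset.sum_congr rfl fun l _ => Finset.sum_congr rfl fun k _ => by ring
  simp only [h]
  rw [Finset.sum_comm]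
  have h2 : ∀ i, ∑ p, ∑ j, ∑ l, ∑ k, HB B p i j * HB B p k l * (X j k * Y l i) =
      ∑ j, X j j * Y i i := fun i => by
    rw [Finset.sum_comm]
    refine Finset.sum_congr rfl fun j _ => ?_
    rw [Finset.sum_comm]
    have h3 : ∀ l, ∑ p, ∑ k, HB B p i j * HB B p k l * (X j k * Y l i) =
        if i = l then X j j * Y l i else 0 := fun l => by
      rw [Finset.sum_comm]
      simp only [← Finset.sum_mul, HB_complete]
      split_ifs with h <;> simp [h]
    simp [h3]
  simp only [h2, Matrix.trace, Matrix.diag_apply, Finset.mul_sum, Finset.sum_mul]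

theorem sum_trace_HB_mul_trace (X Y : Matrix (Fin d) (Fin d) B) :
    ∑ p, (HB B p * X).trace * (HB B p * Y).trace = (X * Y).trace := by
  have h : ∀ p, (HB B p * X).trace * (HB B p * Y).trace =
      ∑ k, ∑ l, ∑ i, ∑ j, HB B p i j * HB B p k l * (X j i * Y l k) := fun p => by
    simp only [Matrix.trace, Matrix.diag_apply, Matrix.mul_apply, Finset.mul_sum, Finset.sum_mul]
    refine Finset.sum_congr rfl fun k _ => Finset.sum_congr rfl fun l _ =>
      Finset.sum_congr rfl fun i _ => Finset.sum_congr rfl fun j _ => by ring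
  simp only [h]
  rw [Finset.sum_comm]
  have h2 : ∀ k, ∑ p, ∑ l, ∑ i, ∑ j, HB B p i j * HB B p k l * (X j i * Y l k) =
      ∑ l, X k l * Y l k := fun k => by
    rw [Finset.sum_comm]
    refine Finset.sum_congr rfl fun l _ => ?_
    rw [Finset.sum_comm]
    have h3 : ∀ i, ∑ p, ∑ j, HB B p i j * HB B p k l * (X j i * Y l k) =
        if i = l then X k i * Y l k else 0 := fun i => by
      rw [Finset.sum_comm]
      simp only [← Finset.sum_mul, HB_complete]
      split_ifs with h <;> simp [h]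
    simp [h3]
  simp only [h2, Matrix.trace, Matrix.diag_apply, Matrix.mul_apply]

end Basis

/-! ### Symbolic matrices -/

section Symb
variable {n d : ℕ} (π : Γ →* Matrix (Fin d) (Fin d) ℂ) (ξ : Fin n → CG) (σ : Fin n → ℝ)

abbrev PP (n d : ℕ) : Type := MvPolynomial (Fin n × (Fin d × Fin d)) ℂ

/-- The symbolic matrix of a letter. -/
noncomputable def lt : Γ ⊕ Fin n → Matrix (Fin d) (Fin d) (PP n d)
  | Sum.inl g => (π g).map (algebraMap ℂ _)
  | Sum.inr c => (MonoidAlgebra.lift ℂ _ Γ π (ξ c)).map (algebraMap ℂ _) +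
      (σ c : ℂ) • ∑ p, (MvPolynomial.X (c, p) : PP n d) • HB (PP n d) p

/-- The symbolic matrix of a word. -/
noncomputable def evM (Q : List (Γ ⊕ Fin n)) : Matrix (Fin d) (Fin d) (PP n d) :=
  (Q.map (lt π ξ σ)).prod

@[simp] theorem evM_nil : evM π ξ σ [] = 1 := rfl
theorem evM_cons (l : Γ ⊕ Fin n) (Q : List (Γ ⊕ Fin n)) :
    evM π ξ σ (l :: Q) = lt π ξ σ l * evM π ξ σ Q := by simp [evM]
theorem evM_append (P Q : List (Γ ⊕ Fin n)) :
    evM π ξ σ (P ++ Q) = evM π ξ σ P * evM π ξ σ Q := by simp [evM]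

/-- The symbolic normalised trace of a word. -/
noncomputable def tt (Q : List (Γ ⊕ Fin n)) : PP n d := (d : ℂ)⁻¹ • (evM π ξ σ Q).trace

theorem tt_rotate (P Q : List (Γ ⊕ Fin n)) : tt π ξ σ (P ++ Q) = tt π ξ σ (Q ++ P) := by
  rw [tt, tt, evM_append, evM_append, Matrix.trace_mul_comm]

/-- Entrywise partial derivative. -/
noncomputable def DM (k : Fin n × (Fin d × Fin d)) :
    Matrix (Fin d) (Fin d) (PP n d) →ₗ[ℂ] Matrix (Fin d) (Fin d) (PP n d) :=
  LinearMap.mapMatrix (MvPolynomial.pderiv k : Derivation ℂ (PP n d) (PP n d)).toLinearMap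

theorem DM_apply (k : Fin n × (Fin d × Fin d)) (X : Matrix (Fin d) (Fin d) (PP n d)) (i j : Fin d) :
    DM k X i j = MvPolynomial.pderiv k (X i j) := rfl

theorem DM_mul (k : Fin n × (Fin d × Fin d)) (X Y : Matrix (Fin d) (Fin d) (PP n d)) :
    DM k (X * Y) = DM k X * Y + X * DM k Y := by
  ext1 i j
  simp only [DM_apply, Matrix.mul_apply, Matrix.add_apply, map_sum, ← Finset.sum_add_distrib,
    Derivation.leibniz, smul_eq_mul]
  exact Finset.sum_congr rfl fun l _ => by ring

theorem DM_map (k : Fin n × (Fin d × Fin d)) (X : Matrix (Fin d) (Fin d) ℂ) :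
    DM k (X.map (algebraMap ℂ (PP n d))) = 0 := by
  ext1 i j
  simp [DM_apply]

theorem pderiv_trace (k : Fin n × (Fin d × Fin d)) (X : Matrix (Fin d) (Fin d) (PP n d)) :
    MvPolynomial.pderiv k X.trace = (DM k X).trace := by
  simp only [Matrix.trace, Matrix.diag_apply, map_sum, DM_apply]

theorem DM_lt (c : Fin n) (p : Fin d × Fin d) (l : Γ ⊕ Fin n) :
    DM (c, p) (lt π ξ σ l) = if l = Sum.inr c then (σ c : ℂ) • HB (PP n d) p else 0 := by
  cases l with
  | inl g => rw [lt, DM_map]; simp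
  | inr c' =>
    have h : ∀ q, DM (c, p) ((MvPolynomial.X (c', q) : PP n d) • HB (PP n d) q) =
        if q = p then (if c' = c then HB (PP n d) q else 0) else 0 := fun q => by
      ext1 i j
      simp only [DM_apply, Matrix.smul_apply, smul_eq_mul, Derivation.leibniz, HB,
        Matrix.map_apply, Derivation.map_algebraMap, MvPolynomial.pderiv_X]
      by_cases hq : q = p <;> by_cases hc : c' = c <;> simp [hq, hc]
    rw [lt, map_add, DM_map, zero_add, map_smul, map_sum]
    simp only [h, Finset.sum_ite_eq', Finset.mem_univ, if_true, Sum.inr.injEq]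
    split_ifs with hc
    · rw [hc]
    · simp

theorem DM_evM (c : Fin n) (p : Fin d × Fin d) (Q : List (Γ ⊕ Fin n)) :
    DM (c, p) (evM π ξ σ Q) = sps (Sum.inr c)
      (fun P R => (σ c : ℂ) • (evM π ξ σ P * HB (PP n d) p * evM π ξ σ R)) Q := by
  induction Q with
  | nil =>
    have := DM_map (n := n) (c, p) (1 : Matrix (Fin d) (Fin d) ℂ)
    rw [Matrix.map_one _ (map_zero _) (map_one _)] at this
    simp [this]
  | cons l Q ih =>
    rw [evM_cons, DM_mul, DM_lt, ih, sps_cons]
    congr 1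
    · split_ifs <;> simp
    · have := map_sps (AddMonoidHom.mulLeft (lt π ξ σ l)) (Sum.inr c)
        (fun P R => (σ c : ℂ) • (evM π ξ σ P * HB (PP n d) p * evM π ξ σ R)) Q
      simp only [AddMonoidHom.coe_mulLeft] at this
      rw [this]
      simp only [evM_cons, mul_assoc, mul_smul_comm]

/-- Expansion of the first letter. -/
theorem tt_inr (c : Fin n) (Q : List (Γ ⊕ Fin n)) :
    tt π ξ σ (Sum.inr c :: Q) =
      ∑ g ∈ (ξ c).coeff.support, (ξ c).coeff g • tt π ξ σ (Sum.inl g :: Q) +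
      ((σ c : ℂ) * (d : ℂ)⁻¹) • ∑ p, MvPolynomial.X (c, p) * (HB (PP n d) p * evM π ξ σ Q).trace := by
  have h : (MonoidAlgebra.lift ℂ _ Γ π (ξ c)).map (algebraMap ℂ (PP n d)) =
      ∑ g ∈ (ξ c).coeff.support, (ξ c).coeff g • (π g).map (algebraMap ℂ (PP n d)) := by
    rw [MonoidAlgebra.lift_apply, Finsupp.sum]
    ext1 i j
    simp only [Matrix.sum_apply, Matrix.map_apply, Matrix.smul_apply, map_sum, smul_eq_mul, map_mul]
    simp only [Algebra.smul_def]
  simp only [tt, evM_cons, lt, h, add_mul, Finset.sum_mul, smul_mul_assoc, Matrix.trace_add,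
    Matrix.trace_sum, Matrix.trace_smul, smul_add, Finset.smul_sum, smul_smul, smul_eq_mul,
    mul_comm (d : ℂ)⁻¹]

theorem sum_pderiv_self (c : Fin n) (Q : List (Γ ⊕ Fin n)) :
    ((d : ℂ)⁻¹ * (d : ℂ)⁻¹) •
      ∑ p, MvPolynomial.pderiv (c, p) (HB (PP n d) p * evM π ξ σ Q).trace =
      (σ c : ℂ) • sps (Sum.inr c) (fun P R => tt π ξ σ P * tt π ξ σ R) Q := by
  have h : ∀ p, MvPolynomial.pderiv (c, p) (HB (PP n d) p * evM π ξ σ Q).trace =
      sps (Sum.inr c) (fun P R => (σ c : ℂ) •
        (HB (PP n d) p * (evM π ξ σ P * HB (PP n d) p * evM π ξ σ R)).trace) Q := fun p => by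
    rw [pderiv_trace, DM_mul, HB, DM_map, zero_mul, zero_add, DM_evM]
    have := map_sps ((Matrix.traceAddMonoidHom (Fin d) (PP n d)).comp
      (AddMonoidHom.mulLeft (HB (PP n d) p))) (Sum.inr c)
        (fun P R => (σ c : ℂ) • (evM π ξ σ P * HB (PP n d) p * evM π ξ σ R)) Q
    simpa [HB] using this
  simp only [h, sum_sps, ← Finset.smul_sum, sum_trace_HB_mul_HB]
  have h1 := map_sps (DistribSMul.toAddMonoidHom (PP n d) ((d : ℂ)⁻¹ * (d : ℂ)⁻¹)) (Sum.inr c)
    (fun P R => (σ c : ℂ) • ((evM π ξ σ P).trace * (evM π ξ σ R).trace)) Q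
  have h2 := map_sps (DistribSMul.toAddMonoidHom (PP n d) (σ c : ℂ)) (Sum.inr c)
    (fun P R => tt π ξ σ P * tt π ξ σ R) Q
  simp only [DistribSMul.toAddMonoidHom_apply] at h1 h2
  rw [h1, h2]
  refine sps_congr _ _ fun P R _ => ?_
  simp only [tt, smul_mul_smul_comm]
  rw [smul_comm]

theorem sum_pderiv_other (c : Fin n) (Q W : List (Γ ⊕ Fin n)) :
    ∑ p, (HB (PP n d) p * evM π ξ σ Q).trace * MvPolynomial.pderiv (c, p) (tt π ξ σ W) =
      (σ c : ℂ) • sps (Sum.inr c) (fun P R => tt π ξ σ (Q ++ R ++ P)) W := by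
  have h : ∀ p, (HB (PP n d) p * evM π ξ σ Q).trace * MvPolynomial.pderiv (c, p) (tt π ξ σ W) =
      sps (Sum.inr c) (fun P R => ((σ c : ℂ) * (d : ℂ)⁻¹) • ((HB (PP n d) p * evM π ξ σ Q).trace *
        (HB (PP n d) p * (evM π ξ σ R * evM π ξ σ P)).trace)) W := fun p => by
    rw [tt, Derivation.map_smul, pderiv_trace, DM_evM]
    have := map_sps ((AddMonoidHom.mulLeft (HB (PP n d) p * evM π ξ σ Q).trace).comp
      ((DistribSMul.toAddMonoidHom (PP n d) (d : ℂ)⁻¹).comp
        (Matrix.traceAddMonoidHom (Fin d) (PP n d)))) (Sum.inr c)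
        (fun P R => (σ c : ℂ) • (evM π ξ σ P * HB (PP n d) p * evM π ξ σ R)) W
    simp only [AddMonoidHom.comp_apply, Matrix.traceAddMonoidHom_apply,
      DistribSMul.toAddMonoidHom_apply, AddMonoidHom.coe_mulLeft] at this
    rw [this]
    refine sps_congr _ _ fun P R _ => ?_
    rw [Matrix.trace_smul, smul_smul, mul_smul_comm, mul_comm (d : ℂ)⁻¹, mul_assoc (evM π ξ σ P),
      Matrix.trace_mul_comm (evM π ξ σ P), mul_assoc]
  simp only [h, sum_sps, ← Finset.smul_sum, sum_trace_HB_mul_trace]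
  have h2 := map_sps (DistribSMul.toAddMonoidHom (PP n d) (σ c : ℂ)) (Sum.inr c)
    (fun P R => tt π ξ σ (Q ++ R ++ P)) W
  simp only [DistribSMul.toAddMonoidHom_apply] at h2
  rw [h2]
  refine sps_congr _ _ fun P R _ => ?_
  simp only [tt, evM_append, mul_assoc, mul_smul]

end Symb

end Crest.Agent.R89.Mom
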