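import Crest.Agent.R89.Basic

/-! Row 89: non-commutative formal power series. -/

set_option autoImplicit false
set_option linter.unusedSectionVars false

namespace Crest.Agent.R89

open scoped Classical

/-- Non-commutative formal power series in the letters `L` with coefficients in `R`. -/
@[ext] structure Ser (L R : Type) : Type where
  co : List L → R

namespace Ser
variable {L R : Type} [Ring R]

theorem ext' {f g : Ser L R} (h : ∀ w, f.co w = g.co w) : f = g := Ser.ext (funext h)

theorem co_inj : Function.Injective (co : Ser L R → List L → R) := fun _ _ h => Ser.ext h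

instance : Zero (Ser L R) := ⟨⟨0⟩⟩
instance : Add (Ser L R) := ⟨fun f g => ⟨f.co + g.co⟩⟩
instance : Neg (Ser L R) := ⟨fun f => ⟨-f.co⟩⟩
instance : Sub (Ser L R) := ⟨fun f g => ⟨f.co - g.co⟩⟩
instance : SMul ℕ (Ser L R) := ⟨fun a f => ⟨a • f.co⟩⟩
instance : SMul ℤ (Ser L R) := ⟨fun a f => ⟨a • f.co⟩⟩

instance : AddCommGroup (Ser L R) :=
  co_inj.addCommGroup _ rfl (fun _ _ => rfl) (fun _ => rfl) (fun _ _ => rfl) (fun _ _ => rfl)
    fun _ _ => rfl

@[simp] theorem add_co (f g : Ser L R) (w : List L) : (f + g).co w = f.co w + g.co w := rfl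
@[simp] theorem sub_co (f g : Ser L R) (w : List L) : (f - g).co w = f.co w - g.co w := rfl
@[simp] theorem neg_co (f : Ser L R) (w : List L) : (-f).co w = -f.co w := rfl
@[simp] theorem zero_co (w : List L) : (0 : Ser L R).co w = 0 := rfl

theorem sum_co {ι : Type} (s : Finset ι) (f : ι → Ser L R) (w : List L) :
    (∑ i ∈ s, f i).co w = ∑ i ∈ s, (f i).co w := by
  induction s using Finset.induction_on with
  | empty => simp
  | insert a s h ih => simp [Finset.sum_insert h, ih]

/-- Left derivative. -/
def der (a : L) (f : Ser L R) : Ser L R := ⟨fun w => f.co (a :: w)⟩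

@[simp] theorem der_co (a : L) (f : Ser L R) (w : List L) : (der a f).co w = f.co (a :: w) := rfl

/-- The Cauchy product. -/
def mulF : Ser L R → Ser L R → List L → R
  | f, g, [] => f.co [] * g.co []
  | f, g, a :: w => f.co [] * g.co (a :: w) + mulF (der a f) g w

/-- Constants. -/
def cst (r : R) : Ser L R := ⟨fun w => match w with
  | [] => r
  | _ :: _ => 0⟩

theorem mulF_add_left (f f' g : Ser L R) (w : List L) :
    mulF (f + f') g w = mulF f g w + mulF f' g w := by
  induction w generalizing f f' with
  | nil => simp [mulF, add_mul]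
  | cons a w ih =>
    have : der a (f + f') = der a f + der a f' := rfl
    simp only [mulF, this, ih, add_co, add_mul]; abel

theorem mulF_add_right (f g g' : Ser L R) (w : List L) :
    mulF f (g + g') w = mulF f g w + mulF f g' w := by
  induction w generalizing f with
  | nil => simp [mulF, mul_add]
  | cons a w ih => simp only [mulF, ih, add_co, mul_add]; abel

theorem mulF_zero_left (g : Ser L R) (w : List L) : mulF 0 g w = 0 := by
  induction w with
  | nil => simp [mulF]
  | cons a w ih =>
    have : der a (0 : Ser L R) = 0 := rfl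
    simp [mulF, this, ih]

theorem mulF_zero_right (f : Ser L R) (w : List L) : mulF f 0 w = 0 := by
  induction w generalizing f with
  | nil => simp [mulF]
  | cons a w ih => simp [mulF, ih]

theorem mulF_cst_left (r : R) (g : Ser L R) (w : List L) : mulF (cst r) g w = r * g.co w := by
  cases w with
  | nil => rfl
  | cons a w =>
    have : der a (cst r : Ser L R) = 0 := rfl
    simp only [mulF, this, mulF_zero_left, add_zero]; rfl

theorem mulF_cst_right (r : R) (f : Ser L R) (w : List L) : mulF f (cst r) w = f.co w * r := by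
  induction w generalizing f with
  | nil => rfl
  | cons a w ih =>
    have : (cst r : Ser L R).co (a :: w) = 0 := rfl
    simp [mulF, ih, this]

theorem mulF_lmul (r : R) (g h : Ser L R) (w : List L) :
    mulF ⟨fun v => r * g.co v⟩ h w = r * mulF g h w := by
  induction w generalizing g with
  | nil => simp [mulF, mul_assoc]
  | cons a w ih =>
    have : der a ⟨fun v => r * g.co v⟩ = ⟨fun v => r * (der a g).co v⟩ := rfl
    simp only [mulF, this, ih, mul_add, mul_assoc]

theorem mulF_assoc (f g h : Ser L R) (w : List L) :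
    mulF ⟨mulF f g⟩ h w = mulF f ⟨mulF g h⟩ w := by
  induction w generalizing f g with
  | nil => simp [mulF, mul_assoc]
  | cons a w ih =>
    have : der a ⟨mulF f g⟩ = ⟨fun v => f.co [] * (der a g).co v⟩ + ⟨mulF (der a f) g⟩ := rfl
    simp only [mulF, this, mulF_add_left, mulF_lmul, ih, mul_add, mul_assoc, add_assoc]

instance : Ring (Ser L R) :=
  { (inferInstance : AddCommGroup (Ser L R)) with
    mul := fun f g => ⟨mulF f g⟩
    one := cst 1
    left_distrib := fun f g h => ext' (mulF_add_right f g h)
    right_distrib := fun f g h => ext' (mulF_add_left f g h)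
    zero_mul := fun f => ext' (mulF_zero_left f)
    mul_zero := fun f => ext' (mulF_zero_right f)
    mul_assoc := fun f g h => ext' (mulF_assoc f g h)
    one_mul := fun f => ext' fun w => (mulF_cst_left 1 f w).trans (one_mul _)
    mul_one := fun f => ext' fun w => (mulF_cst_right 1 f w).trans (mul_one _) }

@[simp] theorem mul_nil (f g : Ser L R) : (f * g).co [] = f.co [] * g.co [] := rfl
theorem mul_cons (f g : Ser L R) (a : L) (w : List L) :
    (f * g).co (a :: w) = f.co [] * g.co (a :: w) + (der a f * g).co w := rfl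
@[simp] theorem cst_nil (r : R) : (cst r : Ser L R).co [] = r := rfl
@[simp] theorem cst_cons (r : R) (a : L) (w : List L) : (cst r : Ser L R).co (a :: w) = 0 := rfl
@[simp] theorem one_nil : (1 : Ser L R).co [] = 1 := rfl
@[simp] theorem one_cons (a : L) (w : List L) : (1 : Ser L R).co (a :: w) = 0 := rfl
@[simp] theorem cst_mul_co (r : R) (g : Ser L R) (w : List L) :
    (cst r * g).co w = r * g.co w := mulF_cst_left r g w
@[simp] theorem mul_cst_co (r : R) (f : Ser L R) (w : List L) :
    (f * cst r).co w = f.co w * r := mulF_cst_right r f w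

theorem cst_one : (cst 1 : Ser L R) = 1 := rfl
theorem cst_zero : (cst 0 : Ser L R) = 0 := ext' fun w => by cases w <;> rfl
theorem cst_mul (r s : R) : (cst (r * s) : Ser L R) = cst r * cst s :=
  ext' fun w => by cases w <;> simp
theorem cst_add (r s : R) : (cst (r + s) : Ser L R) = cst r + cst s :=
  ext' fun w => by cases w <;> simp

variable [Algebra ℂ R]

instance : SMul ℂ (Ser L R) := ⟨fun a f => ⟨a • f.co⟩⟩

@[simp] theorem smul_co (a : ℂ) (f : Ser L R) (w : List L) : (a • f).co w = a • f.co w := rfl

instance : Module ℂ (Ser L R) :=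
  co_inj.module ℂ (⟨⟨co, rfl⟩, fun _ _ => rfl⟩ : Ser L R →+ (List L → R)) fun _ _ => rfl

theorem cst_smul (a : ℂ) (r : R) : (cst (a • r) : Ser L R) = a • cst r :=
  ext' fun w => by cases w <;> simp

theorem smul_mul' (a : ℂ) (f g : Ser L R) : (a • f) * g = a • (f * g) := by
  have h : ∀ f : Ser L R, a • f = cst (a • (1 : R)) * f := fun f => ext' fun w => by simp
  rw [h, h, mul_assoc]

theorem mul_smul' (a : ℂ) (f g : Ser L R) : f * (a • g) = a • (f * g) := by
  have h' : ∀ f : Ser L R, a • f = f * cst (a • (1 : R)) := fun f => ext' fun w => by simp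
  rw [h', h' (f * g), mul_assoc]

instance : Algebra ℂ (Ser L R) := Algebra.ofModule smul_mul' mul_smul'

/-- The constant term. -/
def c0 : Ser L R →+* R where
  toFun f := f.co []
  map_one' := rfl
  map_mul' _ _ := rfl
  map_zero' := rfl
  map_add' _ _ := rfl

@[simp] theorem c0_apply (f : Ser L R) : c0 f = f.co [] := rfl

/-- The variable of a letter. -/
noncomputable def z (c : L) : Ser L R := ⟨fun w => if w = [c] then 1 else 0⟩

@[simp] theorem z_nil (c : L) : (z c : Ser L R).co [] = 0 := by simp [z]

theorem der_z (a c : L) : der a (z c : Ser L R) = if a = c then 1 else 0 := by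
  refine ext' fun w => ?_
  cases w <;> by_cases h : a = c <;> simp [z, h]

theorem z_mul_cons (c a : L) (g : Ser L R) (w : List L) :
    (z c * g).co (a :: w) = if a = c then g.co w else 0 := by
  rw [mul_cons, der_z]
  split_ifs <;> simp

theorem cst_comm_z (r : R) (c : L) : (cst r : Ser L R) * z c = z c * cst r := by
  refine ext' fun w => ?_
  simp only [cst_mul_co, mul_cst_co, z]; split_ifs <;> simp

theorem cst_comm {r : R} {f : Ser L R} (h : ∀ w, r * f.co w = f.co w * r) :
    cst r * f = f * cst r := ext' fun w => by simp [h]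

/-- Products through a variable are splittings. -/
theorem map_mul_z_mul {M : Type} [AddCommMonoid M] [Module ℂ M] (Φ : R →+ M)
    (G : List L → M) (c : L) (f g : Ser L R) (F : List L → ℂ)
    (h : ∀ P P', Φ (f.co P * g.co P') = F P • G P') (w : List L) :
    Φ ((f * (z c * g)).co w) = split c F G w := by
  induction w generalizing f F with
  | nil => simp
  | cons a w ih =>
    rw [mul_cons, map_add, split_cons, ih (der a f) (fun P => F (a :: P)) fun P P' => h _ _,
      z_mul_cons]
    split_ifs
    · rw [h]
    · simp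

/-- Vanishing on words of length `< n`. -/
def Van (n : ℕ) (f : Ser L R) : Prop := ∀ w : List L, w.length < n → f.co w = 0

theorem Van.zero (n : ℕ) : Van n (0 : Ser L R) := fun _ _ => rfl
theorem van_zero (f : Ser L R) : Van 0 f := fun _ h => absurd h (Nat.not_lt_zero _)
theorem Van.add {n : ℕ} {f g : Ser L R} (hf : Van n f) (hg : Van n g) : Van n (f + g) :=
  fun w h => by simp [hf w h, hg w h]
theorem Van.neg {n : ℕ} {f : Ser L R} (hf : Van n f) : Van n (-f) := fun w h => by simp [hf w h]
theorem Van.smul {n : ℕ} {f : Ser L R} (a : ℂ) (hf : Van n f) : Van n (a • f) :=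
  fun w h => by simp [hf w h]
theorem Van.mono {n m : ℕ} {f : Ser L R} (hf : Van n f) (h : m ≤ n) : Van m f :=
  fun w hw => hf w (hw.trans_le h)
theorem van_one {f : Ser L R} : Van 1 f ↔ f.co [] = 0 :=
  ⟨fun h => h [] (by simp), fun h w hw => by
    obtain rfl : w = [] := List.length_eq_zero_iff.1 (by omega)
    exact h⟩

theorem Van.mul {n m : ℕ} {f g : Ser L R} (hf : Van n f) (hg : Van m g) : Van (n + m) (f * g) := by
  intro w hw
  induction w generalizing f n with
  | nil =>
    rw [mul_nil]
    rcases Nat.eq_zero_or_pos n with rfl | hn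
    · rw [hg [] (by simpa using hw), mul_zero]
    · rw [hf [] hn, zero_mul]
  | cons a w ih =>
    rw [mul_cons]
    rcases n with _ | n
    · rw [hg _ (by simpa using hw), mul_zero, zero_add]
      exact ih (van_zero _) (by simp at hw ⊢; omega)
    · rw [hf [] (by simp), zero_mul, zero_add]
      exact ih (n := n) (fun v hv => hf _ (by simpa using hv)) (by simp at hw ⊢; omega)

theorem Van.mul_left {n : ℕ} (f : Ser L R) {g : Ser L R} (hg : Van n g) : Van n (f * g) := by
  simpa using (van_zero f).mul hg

theorem Van.mul_right {n : ℕ} {f : Ser L R} (hf : Van n f) (g : Ser L R) : Van n (f * g) :=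
  hf.mul (van_zero g)

theorem Van.pow {f : Ser L R} (hf : Van 1 f) (n : ℕ) : Van n (f ^ n) := by
  induction n with
  | zero => exact van_zero _
  | succ n ih => rw [pow_succ]; exact ih.mul hf

theorem isUnit_of_nil {f : Ser L R} (hf : f.co [] = 1) : IsUnit f := by
  obtain ⟨x, rfl⟩ : ∃ x, f = 1 - x := ⟨1 - f, by simp⟩
  have hx1 : Van 1 x := van_one.2 (by simpa using hf)
  let S : ℕ → Ser L R := fun N => ∑ j ∈ Finset.range (N + 1), x ^ j
  let g : Ser L R := ⟨fun w => (S w.length).co w⟩
  have hg : ∀ N, Van (N + 1) (g - S N) := by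
    intro N w hw
    have hle : w.length + 1 ≤ N + 1 := hw
    have h0 : ∑ j ∈ Finset.Ico (w.length + 1) (N + 1), (x ^ j).co w = 0 :=
      Finset.sum_eq_zero fun j hj => hx1.pow j w (Finset.mem_Ico.1 hj).1
    simp only [sub_co, g, S]
    rw [← Finset.sum_range_add_sum_Ico _ hle, add_co, sum_co (Finset.Ico _ _), h0, add_zero,
      sub_self]
  have h1 : (1 - x) * g = 1 := by
    refine ext' fun w => ?_
    have e : (1 - x) * g = (1 - x) * (g - S w.length) + (1 - x ^ (w.length + 1)) := by
      rw [← mul_neg_geom_sum, ← mul_add, sub_add_cancel]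
    rw [e, add_co, (hg w.length).mul_left _ w (Nat.lt_succ_self _), sub_co,
      hx1.pow _ w (Nat.lt_succ_self _)]
    simp
  have h2 : g * (1 - x) = 1 := by
    refine ext' fun w => ?_
    have e : g * (1 - x) = (g - S w.length) * (1 - x) + (1 - x ^ (w.length + 1)) := by
      rw [← geom_sum_mul_neg, ← add_mul, sub_add_cancel]
    rw [e, add_co, (hg w.length).mul_right _ w (Nat.lt_succ_self _), sub_co,
      hx1.pow _ w (Nat.lt_succ_self _)]
    simp
  exact ⟨⟨1 - x, g, h1, h2⟩, rfl⟩

end Ser

end Crest.Agent.R89
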